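import Vale.Agent.P250.Alg2

/-!
The pointwise curvature inequality.

Plan (`ϕ = a (1 + a)`, `ν x = √(om x x).re`). Shift by `G`: `P' x z y = P x z y - H (G x z) y`,
`Y' = Y - H G G' - P' x z G' - conj (P' y v G)`, `γ = Γ - G` satisfies
`h γ y = a P' x z y + (1 + a) conj w H (u x z) y`; put `π = γ - (1 + a) conj w • K u`, so
`h π y = a P' x z y`, `ν π ≤ C' ν x ν z`. Then
`S = A om om + ϕ H H + N u u' + 2 m m m m + Er + (1 + a) (w P' x z (L u') + conj …)` where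
`N u u' = (1 + 2a) H u u' - ϕ h (K u) (K u')`, `L u = u - a K u` (`ν (L u) ≤ ν u` as
`h (L u) y = A om u y`), `|Er| ≤ a C'' ν ν ν ν`. Both `Qn` and `den` are unchanged by
`y ↦ y - t x` (`t` real), so assume `(om x y).re = 0`, `𝔞 = ν x ² ν y ²`. With `c = (m x conj (m y)).im`,
`y₁ = conj (m y) • x - conj (m x) • y`, `n = (N x y).im`, `T_B = area_B + 3 (B x y).im ²`:
`Qn = A T_om + ϕ T_H + N y₁ y₁ + 4 c n + 4 c² + Er' + cross`, `|Er'| ≤ 2 a C'' 𝔞`,
`cross = 2 re ((1 + a) w (P' y y₁ (L x) - P' x y₁ (L y)))`, `|cross| ≤ 4 C' √ϕ ν y₁ √𝔞`.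
`a H ≤ N ≤ (a + e) H`, `e = (1 + a) A / (A + a)`, and `N ≥ (1 + a) / 2 om` if `A ≥ 2 Λ`.
Writing `N = (a + e/2) H + D`, `|D| ≤ e/2 H`, get `n² ≤ (a² + a e + e²) / 3 T_H
≤ (ϕ + 1/3 - θ (1 + a)² / 3) T_H`, `θ = a / (A + a)`. `𝔞 ≤ T_H ≤ 4 Λ² 𝔞`. Split `a ≤ A / (2 C₂)` or
not to get `Qn ≥ c₁ ((1 + a)² 𝔞 + (1 + a) ν y₁ ² + c²)`. Finally `den = area_h + mixed + c²` with
`mixed = (h y₁ y₁ + h y₂ y₂) / 2 = h y₁ y₁ - 2 c (h x y).im`, `y₂ = m y • x - m x • y`, so `den` is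
comparable with `(1 + a)² 𝔞 + (1 + a) ν y₁ ² + c²`.
-/

namespace Vale.Agent.P250

open scoped ComplexConjugate
open Complex

/-- Pointwise data of the Calabi ansatz. -/
structure Jet (Λ C : ℝ) where
  om : E → E → ℂ
  H : E → E → ℂ
  P : E → E → E → ℂ
  Y : E → E → E → E → ℂ
  r : E → ℂ
  m : E → ℂ
  a : ℝ
  w : ℂ
  hom : Herm om
  hH : Herm H
  om_nonneg : ∀ x, 0 ≤ (om x x).re
  om_le : ∀ x, (om x x).re ≤ (H x x).re
  H_le : ∀ x, (H x x).re ≤ Λ * (om x x).re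
  P_symm : ∀ x z y, P x z y = P z x y
  P_add : ∀ x x' z y, P (x + x') z y = P x z y + P x' z y
  P_smul : ∀ (c : ℂ) x z y, P (c • x) z y = c * P x z y
  P_add' : ∀ x z y y', P x z (y + y') = P x z y + P x z y'
  P_smul' : ∀ (c : ℂ) x z y, P x z (c • y) = conj c * P x z y
  P_le : ∀ x z y, ‖P x z y‖ ≤ C * √(om x x).re * √(om z z).re * √(om y y).re
  Y_symm : ∀ x z y v, Y x z y v = Y z x y v
  Y_cj : ∀ x z y v, Y y v x z = conj (Y x z y v)
  Y_add : ∀ x x' z y v, Y (x + x') z y v = Y x z y v + Y x' z y v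
  Y_smul : ∀ (c : ℂ) x z y v, Y (c • x) z y v = c * Y x z y v
  Y_le : ∀ x z y v, ‖Y x z y v‖ ≤ C * √(om x x).re * √(om z z).re * √(om y y).re * √(om v v).re
  r_add : ∀ x y, r (x + y) = r x + r y
  r_smul : ∀ (c : ℂ) x, r (c • x) = c * r x
  r_le : ∀ x, ‖r x‖ ≤ √(om x x).re
  m_add : ∀ x y, m (x + y) = m x + m y
  m_smul : ∀ (c : ℂ) x, m (c • x) = c * m x
  a_nonneg : 0 ≤ a
  w_sq : ‖w‖ ^ 2 * (1 + a) = a

namespace Jet

variable {Λ C : ℝ} (J : Jet Λ C) (A : ℝ)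

/-- The horizontal metric. -/
noncomputable def h (x y : E) : ℂ := A * J.om x y + J.a * J.H x y

/-- The full metric. -/
noncomputable def g (x y : E) : ℂ := J.h A x y + J.m x * conj (J.m y)

/-- The Christoffel symbols of the base. -/
noncomputable def G (x z : E) : E := J.r z • x + J.r x • z

/-- The mixed component of a symmetric product. -/
noncomputable def u (x z : E) : E := J.m z • x + J.m x • z

/-- Minus the Kähler curvature tensor. -/
noncomputable def S (Γ : E → E → E) (x z y v : E) : ℂ :=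
  A * (J.om x y * J.om z v + J.om x v * J.om z y + J.om (J.G x z) (J.G y v)) + J.a * J.Y x z y v +
    J.a * (1 + J.a) * (J.H x y * J.H z v + J.H x v * J.H z y) +
    (1 + 2 * J.a) * J.H (J.u x z) (J.u y v) + 2 * J.m x * J.m z * conj (J.m y) * conj (J.m v) +
    (1 + J.a) * (conj J.w * conj (J.P y v (J.u x z)) + J.w * J.P x z (J.u y v)) -
    J.h A (Γ x z) (Γ y v)

open AlgAux

/-- The norm of the base metric. -/
noncomputable def nn (x : E) : ℝ := √(J.om x x).re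

/-- The shifted third derivative. -/
noncomputable def P' (x z y : E) : ℂ := J.P x z y - J.H (J.G x z) y

/-- The vertical form. -/
noncomputable def N (K : E → E) (u u' : E) : ℂ :=
  (1 + 2 * J.a) * J.H u u' - J.a * (1 + J.a) * J.H u (K u')

/-- The small part of the Christoffel symbols. -/
noncomputable def pi (K : E → E) (Γ : E → E → E) (x z : E) : E :=
  Γ x z - J.G x z - ((1 + J.a) * conj J.w) • K (J.u x z)

/-- The cross tensor. -/
noncomputable def T (K : E → E) (x z u : E) : ℂ := J.P' x z (u - (J.a : ℂ) • K u)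

/-- The error tensor. -/
noncomputable def Er (K : E → E) (Γ : E → E → E) (x z y v : E) : ℂ :=
  J.a * (J.Y x z y v - J.H (J.G x z) (J.G y v) - J.P' x z (J.G y v) - conj (J.P' y v (J.G x z)) -
    J.P' x z (J.pi K Γ y v))

theorem nn0 (x : E) : 0 ≤ J.nn x := Real.sqrt_nonneg _

theorem nn_sq (x : E) : J.nn x ^ 2 = (J.om x x).re := Real.sq_sqrt (J.om_nonneg x)

theorem H0 (x : E) : 0 ≤ (J.H x x).re := (J.om_nonneg x).trans (J.om_le x)

theorem hh : Herm (J.h A) := comb J.hom J.hH A J.a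

theorem h_re (x y : E) : (J.h A x y).re = A * (J.om x y).re + J.a * (J.H x y).re := by
  simp [h]

theorem hg : Herm (J.g A) :=
  ⟨fun x y z => by simp only [g, (J.hh A).add, J.m_add]; ring,
    fun c x z => by simp only [g, (J.hh A).smul, J.m_smul]; ring,
    fun x y => by simp [g, (J.hh A).cj x y, mul_comm]⟩

theorem P_sub' (x z y y' : E) : J.P x z (y - y') = J.P x z y - J.P x z y' := by
  rw [eq_sub_iff_add_eq, ← J.P_add', sub_add_cancel]

theorem anti_G {f : E → ℂ} {M : ℝ} (h1 : ∀ y y', f (y + y') = f y + f y')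
    (h2 : ∀ (c : ℂ) y, ‖f (c • y)‖ = ‖c‖ * ‖f y‖) (h3 : ∀ y, ‖f y‖ ≤ M * J.nn y) (y v : E) :
    ‖f (J.G y v)‖ ≤ 2 * M * J.nn y * J.nn v := by
  rw [G, h1]
  refine (norm_add_le _ _).trans ?_
  rw [h2, h2]
  linarith [mul_le_mul (J.r_le v) (h3 y) (norm_nonneg _) (J.nn0 v),
    mul_le_mul (J.r_le y) (h3 v) (norm_nonneg _) (J.nn0 y),
    show √(J.om v v).re * (M * J.nn y) = M * J.nn y * J.nn v from mul_comm _ _,
    show √(J.om y y).re * (M * J.nn v) = M * J.nn y * J.nn v from by unfold nn; ring]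

theorem H_norm (hΛ : 1 ≤ Λ) (x y : E) : ‖J.H x y‖ ≤ Λ * J.nn y * J.nn x := by
  refine abs_le_of_sq_le_sq' ?_ (by have := J.nn0 x; have := J.nn0 y; positivity) |>.2
  rw [mul_pow, mul_pow, nn_sq, nn_sq, ← normSq_eq_norm_sq, normSq_apply]
  linarith [cs J.hH J.H0 x y, mul_le_mul (J.H_le x) (J.H_le y) (J.H0 y) ((J.H0 x).trans (J.H_le x))]

theorem HG_norm (hΛ : 1 ≤ Λ) (x z y : E) :
    ‖J.H (J.G x z) y‖ ≤ 2 * Λ * J.nn x * J.nn z * J.nn y := by
  linarith [J.anti_G (f := fun x => J.H x y) (fun _ _ => J.hH.add _ _ _)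
    (fun c x => by rw [J.hH.smul, norm_mul]) (fun x => J.H_norm hΛ x y) x z]

theorem P'_norm (hΛ : 1 ≤ Λ) (x z y : E) :
    ‖J.P' x z y‖ ≤ (C + 2 * Λ) * J.nn x * J.nn z * J.nn y := by
  have := J.P_le x z y
  change _ ≤ C * J.nn x * J.nn z * J.nn y at this
  linarith [norm_sub_le (J.P x z y) (J.H (J.G x z) y), J.HG_norm hΛ x z y,
    show ‖J.P' x z y‖ = ‖J.P x z y - J.H (J.G x z) y‖ from rfl]

theorem P'G_norm (hΛ : 1 ≤ Λ) (x z y v : E) :
    ‖J.P' x z (J.G y v)‖ ≤ 2 * ((C + 2 * Λ) * J.nn x * J.nn z) * J.nn y * J.nn v :=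
  J.anti_G (fun _ _ => by simp only [P', J.P_add', add' J.hH]; ring)
    (fun c y => by simp only [P', J.P_smul', smul' J.hH, ← mul_sub, norm_mul, norm_conj])
    (J.P'_norm hΛ x z) y v

variable {J A} {K : E → E} {Γ : E → E → E} (hK : ∀ u y, J.h A (K u) y = J.H u y)
  (hΓ : ∀ x z y, J.h A (Γ x z) y = A * J.om (J.G x z) y + J.a * J.P x z y +
    (1 + J.a) * conj J.w * J.H (J.u x z) y)
include hK

theorem hN : Herm (J.N K) :=
  ⟨fun x y z => by simp only [N, J.hH.add]; ring, fun c x z => by simp only [N, J.hH.smul]; ring,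
    fun x y => by
      rw [N, N, ← hK y (K x), (J.hh A).cj, hK, J.hH.cj x y]
      simp [map_ofNat]⟩

theorem N_ge (hΛ : 1 ≤ Λ) (hA : Λ ≤ A) (u : E) : (1 + J.a) * (J.H u u).re ≤ (J.N K u u).re ∧
    (J.N K u u).re ≤ (J.a + (1 + J.a) * (A / (A + J.a))) * (J.H u u).re := by
  have a0 := J.a_nonneg
  have e : (J.N K u u).re =
      (1 + 2 * J.a) * (J.H u u).re - J.a * (1 + J.a) * (J.H u (K u)).re := by simp [N]
  have h1 := J.h_re A (K u) (K u)
  rw [hK] at h1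
  have h2 := J.H0 (u - ((1 + J.a : ℝ) : ℂ) • K u)
  have h3 : 0 ≤ (J.h A (u - ((A + J.a : ℝ) : ℂ) • K u) (u - ((A + J.a : ℝ) : ℂ) • K u)).re := by
    rw [h_re]
    exact add_nonneg (mul_nonneg (by linarith) (J.om_nonneg _)) (mul_nonneg a0 (J.H0 _))
  simp only [sub J.hH, sub' J.hH, J.hH.smul, smul' J.hH, conj_ofReal, sub_re, re_ofReal_mul,
    re_swap J.hH u (K u)] at h2
  simp only [sub (J.hh A), sub' (J.hh A), (J.hh A).smul, smul' (J.hh A), conj_ofReal, sub_re,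
    re_ofReal_mul, re_swap (J.hh A) (K u) u, hK] at h3
  rw [h_re] at h3
  have h4 := mul_le_mul_of_nonneg_left ((J.H_le (K u)).trans
    (mul_le_mul_of_nonneg_right hA (J.om_nonneg _))) (by linarith : 0 ≤ 1 + J.a)
  have h5 := mul_le_mul_of_nonneg_left (J.om_le u) (by linarith : 0 ≤ A)
  have h6 : (1 + J.a) * (J.H u (K u)).re ≤ (J.H u u).re := by
    rw [h1] at h2 ⊢
    linarith
  have h7 : (J.H u u).re / (A + J.a) ≤ (J.H u (K u)).re := by
    have : 0 < A + J.a := by linarith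
    rw [div_le_iff₀ this]
    refine le_of_mul_le_mul_left ?_ this
    linarith
  rw [e]
  refine ⟨by linarith [mul_le_mul_of_nonneg_left h6 a0], ?_⟩
  have h8 : (J.a + (1 + J.a) * (A / (A + J.a))) * (J.H u u).re = (1 + 2 * J.a) * (J.H u u).re -
      J.a * (1 + J.a) * ((J.H u u).re / (A + J.a)) := by
    have : A + J.a ≠ 0 := by linarith
    field_simp
    ring
  rw [h8]
  gcongr

theorem L_le (hA : 1 ≤ A) (u : E) : J.nn (u - (J.a : ℂ) • K u) ≤ J.nn u := by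
  refine Real.sqrt_le_sqrt ?_
  have h1 : ∀ y, J.h A (u - (J.a : ℂ) • K u) y = A * J.om u y := fun y => by
    rw [sub (J.hh A), (J.hh A).smul, hK, h]; ring
  generalize u - (J.a : ℂ) • K u = v at *
  have h2 := J.h_re A v v
  have h3 := J.om_nonneg (u - v)
  rw [h1, re_ofReal_mul] at h2
  simp only [sub J.hom, sub' J.hom, sub_re, re_swap J.hom u v] at h3
  have := mul_nonneg J.a_nonneg (J.H0 v)
  have h4 : (J.om v v).re ≤ (J.om u v).re :=
    le_of_mul_le_mul_left (by linarith) (one_pos.trans_le hA)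
  linarith

theorem T_norm (hΛ : 1 ≤ Λ) (hC : 1 ≤ C) (hA : 1 ≤ A) (x z u : E) :
    ‖J.T K x z u‖ ≤ (C + 2 * Λ) * J.nn x * J.nn z * J.nn u :=
  (J.P'_norm hΛ _ _ _).trans (mul_le_mul_of_nonneg_left (L_le hK hA u)
    (by have := J.nn0 x; have := J.nn0 z; positivity))

include hΓ

theorem h_pi (x z y : E) : J.h A (J.pi K Γ x z) y = J.a * J.P' x z y := by
  rw [pi, sub (J.hh A), sub (J.hh A), (J.hh A).smul, hK, hΓ, h, P']
  ring

theorem pi_le (hΛ : 1 ≤ Λ) (hC : 1 ≤ C) (hA : 1 ≤ A) (x z : E) :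
    J.nn (J.pi K Γ x z) ≤ (C + 2 * Λ) * J.nn x * J.nn z := by
  have h1 := J.h_re A (J.pi K Γ x z) (J.pi K Γ x z)
  rw [h_pi hK hΓ, re_ofReal_mul] at h1
  have h2 := mul_le_mul_of_nonneg_left ((re_le_norm _).trans (J.P'_norm hΛ x z (J.pi K Γ x z)))
    J.a_nonneg
  have h3 := mul_le_mul_of_nonneg_left (J.om_le (J.pi K Γ x z)) J.a_nonneg
  have h4 : 0 ≤ (C + 2 * Λ) * J.nn x * J.nn z := by
    have := J.nn0 x; have := J.nn0 z; positivity
  rw [← nn_sq] at h1 h3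
  by_contra h
  push Not at h
  have h5 := h4.trans_lt h
  nlinarith [mul_pos h5 h5, mul_nonneg (mul_nonneg J.a_nonneg h5.le) (sub_pos.mpr h).le]

theorem Er_norm (hΛ : 1 ≤ Λ) (hC : 1 ≤ C) (hA : 1 ≤ A) (x z y v : E) :
    ‖J.Er K Γ x z y v‖ ≤ J.a * (7 * (C + 2 * Λ) ^ 2 * (J.nn x * J.nn z * J.nn y * J.nn v)) := by
  rw [Er, norm_mul, norm_real, Real.norm_of_nonneg J.a_nonneg]
  refine mul_le_mul_of_nonneg_left ((norm_sub_le _ _).trans ((add_le_add_left
    ((norm_sub_le _ _).trans (add_le_add_left ((norm_sub_le _ _).trans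
      (add_le_add_left (norm_sub_le _ _) _)) _)) _).trans ?_)) J.a_nonneg
  have h1 := J.Y_le x z y v
  change _ ≤ C * J.nn x * J.nn z * J.nn y * J.nn v at h1
  have h2 := J.anti_G (add' J.hH (J.G x z))
    (fun c y => by rw [smul' J.hH, norm_mul, norm_conj]) (J.HG_norm hΛ x z) y v
  have hx := J.nn0 x
  have hz := J.nn0 z
  have hy := J.nn0 y
  have hv := J.nn0 v
  have h3 := (J.P'_norm hΛ x z _).trans (mul_le_mul_of_nonneg_left (pi_le hK hΓ hΛ hC hA y v)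
    (by positivity))
  have h4 := mul_le_mul_of_nonneg_right (le_self_pow₀ (by linarith : 1 ≤ C + 2 * Λ) two_ne_zero)
    (by positivity : 0 ≤ J.nn x * J.nn z * J.nn y * J.nn v)
  have h5 := mul_nonneg (zero_le_one.trans hC)
    (by positivity : 0 ≤ J.nn x * J.nn z * J.nn y * J.nn v)
  rw [norm_conj]
  linarith [J.P'G_norm hΛ x z y v, J.P'G_norm hΛ y v x z]

theorem T_eq (x z u : E) : J.T K x z u = J.P' x z u - J.H (J.pi K Γ x z) u := by
  rw [J.hH.cj, ← hK, ← (J.hh A).cj, h_pi hK hΓ]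
  simp only [T, P', P_sub', J.P_smul', sub' J.hH, smul' J.hH, conj_ofReal]
  ring

theorem S_eq (x z y v : E) : J.S A Γ x z y v =
    A * (J.om x y * J.om z v + J.om x v * J.om z y) +
    J.a * (1 + J.a) * (J.H x y * J.H z v + J.H x v * J.H z y) + J.N K (J.u x z) (J.u y v) +
    2 * J.m x * J.m z * conj (J.m y) * conj (J.m v) + J.Er K Γ x z y v +
    ((1 + J.a) * J.w * J.T K x z (J.u y v) + conj ((1 + J.a) * J.w * J.T K y v (J.u x z))) := by
  have e : ∀ x z, Γ x z = J.pi K Γ x z + J.G x z + ((1 + J.a) * conj J.w) • K (J.u x z) :=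
    fun x z => by rw [pi]; abel
  have e1 : ∀ q, J.h A q (J.pi K Γ y v) = J.a * conj (J.P' y v q) := fun q => by
    rw [(J.hh A).cj, h_pi hK hΓ, map_mul, conj_ofReal]
  have e2 : J.h A (J.G x z) (K (J.u y v)) = J.H (J.G x z) (J.u y v) := by
    rw [(J.hh A).cj, hK, ← J.hH.cj]
  have e3 : J.w * conj J.w * (1 + J.a) = J.a := by
    rw [mul_conj, normSq_eq_norm_sq]
    exact_mod_cast J.w_sq
  have e4 := hK (J.u x z) (J.pi K Γ y v)
  have e5 : ∀ x z u, J.T K x z u = J.P x z u - J.H (J.G x z) u - J.a * J.P' x z (K u) :=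
    fun x z u => by
      simp only [T, P', P_sub', J.P_smul', sub' J.hH, smul' J.hH, conj_ofReal]
      ring
  rw [e1] at e4
  rw [S, e x z, e y v, e5, e5]
  simp only [(J.hh A).add, (J.hh A).smul, h_pi hK hΓ x z, hK]
  simp only [add' (J.hh A), smul' (J.hh A), add' J.hH, smul' J.hH, e1, e2, ← e4, N, Er, map_mul,
    map_add, map_sub, map_one, conj_ofReal, conj_conj, ← J.hH.cj]
  simp only [h, P', J.P_add', J.P_smul', add' J.hH, smul' J.hH, map_mul,
    map_add, map_sub, map_one, conj_ofReal, conj_conj]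
  linear_combination (-(1 + J.a) * J.H (J.u x z) (K (J.u y v))) * e3

theorem Q_eq (x y : E) : (J.S A Γ x y x y).re - (J.S A Γ y y x x).re =
    A * ((J.om x x).re * (J.om y y).re - (J.om x y).re ^ 2 + 3 * (J.om x y).im ^ 2) +
    J.a * (1 + J.a) * ((J.H x x).re * (J.H y y).re - (J.H x y).re ^ 2 + 3 * (J.H x y).im ^ 2) +
    (J.N K (conj (J.m y) • x - conj (J.m x) • y) (conj (J.m y) • x - conj (J.m x) • y)).re +
    4 * (J.m x * conj (J.m y)).im * (J.N K x y).im + 4 * (J.m x * conj (J.m y)).im ^ 2 +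
    ((J.Er K Γ x y x y).re - (J.Er K Γ y y x x).re + 2 * ((1 + J.a) * (J.w *
      (J.T K y (conj (J.m y) • x - conj (J.m x) • y) x -
        J.T K x (conj (J.m y) • x - conj (J.m x) • y) y)).re)) := by
  have hn := hN hK
  have t1 : ∀ x z p q, J.T K x z (J.u p q) =
      conj (J.m q) * J.T K x z p + conj (J.m p) * J.T K x z q := fun x z p q => by
    simp only [T_eq hK hΓ, u, P', J.P_add', J.P_smul', add' J.hH, smul' J.hH]
    ring
  have t2 : ∀ x z p, J.T K x z p = J.T K z x p := fun x z p => by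
    rw [T, P', J.P_symm, G, add_comm]; rfl
  have t3 : ∀ z p, J.T K z (conj (J.m y) • x - conj (J.m x) • y) p =
      conj (J.m y) * J.T K x z p - conj (J.m x) * J.T K y z p := fun z p => by
    rw [t2, sub_eq_add_neg, ← neg_smul]
    simp only [T, P', G, J.P_add, J.P_smul, J.r_add, J.r_smul, J.hH.add, J.hH.smul]
    ring
  have r1 : ∀ z : ℂ, ((1 + J.a) * J.w * z).re = (1 + J.a) * (J.w * z).re := fun z => by
    rw [mul_assoc, ← ofReal_one, ← ofReal_add, re_ofReal_mul]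
  have r2 : ∀ z : ℂ, (J.a * (1 + J.a) * z).re = J.a * (1 + J.a) * z.re := fun z => by simp
  rw [S_eq hK hΓ, S_eq hK hΓ, t1, t1, t1, t3, t3, t2 y x]
  simp only [add_re, conj_re, r1, r2, re_ofReal_mul]
  simp only [u, hn.add, hn.smul, add' hn, smul' hn, sub hn, sub' hn, add_re, sub_re, mul_re, mul_im,
    add_im, sub_im, conj_re, conj_im, im_self hn, im_self J.hom, im_self J.hH, re_swap hn x y,
    im_swap hn x y, re_swap J.hom x y, im_swap J.hom x y, re_swap J.hH x y, im_swap J.hH x y,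
    re_ofNat, im_ofNat]
  ring

theorem err_le (hΛ : 1 ≤ Λ) (hC : 1 ≤ C) (hA : 1 ≤ A) (x y z : E) :
    |(J.Er K Γ x y x y).re - (J.Er K Γ y y x x).re +
      2 * ((1 + J.a) * (J.w * (J.T K y z x - J.T K x z y)).re)| ≤
    (1 + J.a) / 2 * (J.om z z).re +
      J.a * (22 * (C + 2 * Λ) ^ 2) * ((J.om x x).re * (J.om y y).re) := by
  have a0 := J.a_nonneg
  have h1 := (abs_re_le_norm _).trans (Er_norm hK hΓ hΛ hC hA x y x y)
  have h2 := (abs_re_le_norm _).trans (Er_norm hK hΓ hΛ hC hA y y x x)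
  have h3 := (abs_re_le_norm (J.w * (J.T K y z x - J.T K x z y))).trans ((norm_mul_le _ _).trans
    (mul_le_mul_of_nonneg_left ((norm_sub_le _ _).trans (add_le_add (T_norm hK hΛ hC hA y z x)
      (T_norm hK hΛ hC hA x z y))) (norm_nonneg _)))
  have h4 := mul_le_mul_of_nonneg_left h3 (by positivity : 0 ≤ 1 + J.a)
  have h5 := mul_nonneg (by positivity : 0 ≤ 1 + J.a)
    (sq_nonneg (J.nn z - 4 * (C + 2 * Λ) * ‖J.w‖ * J.nn x * J.nn y))
  have h6 : ‖J.w‖ ^ 2 * (1 + J.a) * ((C + 2 * Λ) * J.nn x * J.nn y) ^ 2 =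
    J.a * ((C + 2 * Λ) * J.nn x * J.nn y) ^ 2 := by rw [J.w_sq]
  refine (abs_add_le _ _).trans ((add_le_add_left (abs_sub _ _) _).trans ?_)
  rw [abs_mul, abs_mul, abs_two, abs_of_nonneg (by positivity : 0 ≤ 1 + J.a), ← nn_sq, ← nn_sq,
    ← nn_sq]
  linarith

omit hK hΓ in
theorem den_bound (hΛ : 1 ≤ Λ) (hA : Λ ≤ A) {x y : E} (ho : (J.om x y).re = 0) {D : ℝ}
    (hD : D = (1 + J.a) ^ 2 * ((J.om x x).re * (J.om y y).re) + (1 + J.a) *
      (J.om (conj (J.m y) • x - conj (J.m x) • y) (conj (J.m y) • x - conj (J.m x) • y)).re +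
      (J.m x * conj (J.m y)).im ^ 2) :
    D ≤ 2 * ((J.g A x x).re * (J.g A y y).re - (J.g A x y).re ^ 2) ∧
      (J.g A x x).re * (J.g A y y).re - (J.g A x y).re ^ 2 ≤ 2 * A ^ 2 * D := by
  have a0 := J.a_nonneg
  have hA1 := hΛ.trans hA
  have hh := J.hh A
  have l1 : ∀ u, (1 + J.a) * (J.om u u).re ≤ (J.h A u u).re := fun u => by
    rw [h_re]
    linarith [mul_le_mul_of_nonneg_left (J.om_le u) a0,
      mul_le_mul_of_nonneg_right hA1 (J.om_nonneg u)]
  have l0 : ∀ u, 0 ≤ (J.h A u u).re := fun u =>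
    (mul_nonneg (by linarith) (J.om_nonneg u)).trans (l1 u)
  have l2 : ∀ u, (J.h A u u).re ≤ A * (1 + J.a) * (J.om u u).re := fun u => by
    rw [h_re]
    linarith [mul_le_mul_of_nonneg_left ((J.H_le u).trans
      (mul_le_mul_of_nonneg_right hA (J.om_nonneg u))) a0]
  have e : ∀ s : ℝ, s ^ 2 = 1 → (J.g A x x).re * (J.g A y y).re - (J.g A x y).re ^ 2 =
      (J.h A x x).re * (J.h A y y).re - (J.h A x y).re ^ 2 + (J.m x * conj (J.m y)).im ^ 2 +
      (J.h A ((⟨(J.m y).re, s * (J.m y).im⟩ : ℂ) • x - (⟨(J.m x).re, s * (J.m x).im⟩ : ℂ) • y)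
        ((⟨(J.m y).re, s * (J.m y).im⟩ : ℂ) • x - (⟨(J.m x).re, s * (J.m x).im⟩ : ℂ) • y)).re +
      2 * s * (J.m x * conj (J.m y)).im * (J.h A x y).im := fun s hs => by
    simp only [g, hh.smul, smul' hh, sub hh, sub' hh, add_re, sub_re, mul_re, mul_im, sub_im,
      conj_re, conj_im, im_self hh, re_swap hh x y, im_swap hh x y]
    linear_combination (-(J.m y).im ^ 2 * (J.h A x x).re - (J.m x).im ^ 2 * (J.h A y y).re +
      2 * (J.m x).im * (J.m y).im * (J.h A x y).re) * hs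
  have e1 := e 1 (by norm_num)
  have e4 := (le_add_of_nonneg_right (l0 _)).trans (eq_sub_iff_add_eq.mpr e1.symm).le
  have e2 := e (-1) (by norm_num)
  have e3 : ∀ z : ℂ, (⟨z.re, -1 * z.im⟩ : ℂ) = conj z := fun z => by apply Complex.ext <;> simp
  rw [e3, e3] at e2
  have h1 := area_ge hh J.hom (by linarith) J.om_nonneg l1 ho
  have h2 := cs hh l0 x y
  have h3 := mul_le_mul (l2 x) (l2 y) (l0 y) ((l0 x).trans (l2 x))
  have h4 := l1 (conj (J.m y) • x - conj (J.m x) • y)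
  have h5 := l2 (conj (J.m y) • x - conj (J.m x) • y)
  have h6 := mul_nonneg (J.om_nonneg x) (J.om_nonneg y)
  have h7 := mul_nonneg (by linarith : 0 ≤ 1 + J.a)
    (J.om_nonneg (conj (J.m y) • x - conj (J.m x) • y))
  have h8 := mul_le_mul_of_nonneg_right (le_self_pow₀ hA1 two_ne_zero) h7
  have h9 := mul_le_mul_of_nonneg_right (one_le_pow₀ (n := 2) hA1)
    (sq_nonneg (J.m x * conj (J.m y)).im)
  refine ⟨by linarith [sq_nonneg (J.m x * conj (J.m y)).im,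
    mul_nonneg (sq_nonneg (1 + J.a)) h6], ?_⟩
  rw [hD]
  linarith [sq_nonneg ((J.m x * conj (J.m y)).im + (J.h A x y).im), sq_nonneg (J.h A x y).re,
    mul_nonneg (zero_le_one.trans hA1) h7]

omit hK in
theorem S_shear (t : ℝ) (x y : E) : (J.S A Γ x ((t : ℂ) • x + y) x ((t : ℂ) • x + y)).re -
    (J.S A Γ ((t : ℂ) • x + y) ((t : ℂ) • x + y) x x).re =
      (J.S A Γ x y x y).re - (J.S A Γ y y x x).re := by
  refine shear (fun x z y v => ?_) (fun x z y v => ?_) (fun x x' z y v => ?_)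
    (fun c x z y v => ?_) t x y
  · simp only [S, hΓ, G, u, J.P_symm x z, J.Y_symm x z, add_comm (J.r z • x),
      add_comm (J.m z • x)]
    ring
  · simp only [S, map_add, map_sub, map_mul, conj_ofReal, conj_conj, map_one, map_ofNat,
      ← J.hom.cj, ← J.hH.cj, ← (J.hh A).cj, ← J.Y_cj]
    ring
  · simp only [S, hΓ, G, u, J.hom.add, J.hom.smul, J.hH.add, J.hH.smul, J.P_add, J.Y_add,
      J.r_add, J.m_add, J.P_add', J.P_smul', smul_add, add_smul, map_add, map_mul]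
    ring
  · simp only [S, hΓ, G, u, J.hom.add, J.hom.smul, J.hH.add, J.hH.smul, J.P_smul, J.Y_smul,
      J.r_smul, J.m_smul, J.P_add', J.P_smul', map_add, map_mul, conj_conj]
    ring

end Jet

theorem alg_main {Λ C : ℝ} (hΛ : 1 ≤ Λ) (hC : 1 ≤ C) : ∃ A c₁ c₂ : ℝ, 1 ≤ A ∧ 0 < c₁ ∧ c₁ ≤ c₂ ∧
    ∀ (J : Jet Λ C) (K : E → E) (Γ : E → E → E), (∀ u y, J.h A (K u) y = J.H u y) →
    (∀ x z y, J.h A (Γ x z) y = A * J.om (J.G x z) y + J.a * J.P x z y +
      (1 + J.a) * conj J.w * J.H (J.u x z) y) → ∀ x y,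
    c₁ * ((J.g A x x).re * (J.g A y y).re - (J.g A x y).re ^ 2) ≤
      (J.S A Γ x y x y).re - (J.S A Γ y y x x).re ∧
    (J.S A Γ x y x y).re - (J.S A Γ y y x x).re ≤
      c₂ * ((J.g A x x).re * (J.g A y y).re - (J.g A x y).re ^ 2) := by
  obtain ⟨B, hB⟩ : ∃ B, B = 22 * (C + 2 * Λ) ^ 2 := ⟨_, rfl⟩
  have hB1 : Λ ^ 2 ≤ B := by nlinarith
  have hB2 : 1 ≤ B := (one_le_pow₀ hΛ).trans hB1
  have hA : Λ ≤ 36 * B ^ 3 := by
    linarith [le_self_pow₀ hΛ two_ne_zero, le_self_pow₀ hB2 three_ne_zero]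
  have hA1 := hΛ.trans hA
  refine ⟨36 * B ^ 3, (144 * B ^ 2)⁻¹ / (2 * (36 * B ^ 3) ^ 2), 160 * B ^ 3 * 2, hA1,
    by positivity, ?_, fun J K Γ hK hΓ x y => ?_⟩
  · refine (div_le_self (by positivity) (by nlinarith)).trans ((inv_le_one_of_one_le₀ ?_).trans ?_)
    · nlinarith
    · linarith
  obtain ⟨t, ho⟩ : ∃ t : ℝ, (J.om x ((t : ℂ) • x + y)).re = 0 := by
    refine ⟨-(J.om x y).re / (J.om x x).re, ?_⟩
    rw [AlgAux.add' J.hom, AlgAux.smul' J.hom, conj_ofReal, add_re, re_ofReal_mul]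
    by_cases h : (J.om x x).re = 0
    · have := AlgAux.cs J.hom J.om_nonneg x y
      rw [h, zero_mul] at this
      rw [h, mul_zero, zero_add]
      exact pow_eq_zero_iff two_ne_zero |>.mp (le_antisymm (by linarith [sq_nonneg (J.om x y).im])
        (sq_nonneg _))
    · field_simp
      ring
  have e : (J.g (36 * B ^ 3) x x).re * (J.g (36 * B ^ 3) y y).re - (J.g (36 * B ^ 3) x y).re ^ 2 =
      (J.g (36 * B ^ 3) x x).re * (J.g (36 * B ^ 3) ((t : ℂ) • x + y) ((t : ℂ) • x + y)).re -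
        (J.g (36 * B ^ 3) x ((t : ℂ) • x + y)).re ^ 2 := by
    have hg := J.hg (36 * B ^ 3)
    simp only [hg.add, hg.smul, AlgAux.add' hg, AlgAux.smul' hg, conj_ofReal, add_re, re_ofReal_mul,
      AlgAux.re_swap hg x y]
    ring
  rw [e, ← Jet.S_shear hΓ t, Jet.Q_eq hK hΓ]
  generalize (t : ℂ) • x + y = y at *
  obtain ⟨d1, d2⟩ := Jet.den_bound hΛ hA ho rfl
  have c1 := AlgAux.cs J.hom J.om_nonneg x y
  have c2 := AlgAux.cs J.hH J.H0 x y
  have c3 := AlgAux.area_ge J.hH J.hom zero_le_one J.om_nonneg (by simpa using J.om_le) ho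
  have c4 := mul_le_mul (J.H_le x) (J.H_le y) (J.H0 y) ((J.H0 x).trans (J.H_le x))
  have a0 := J.a_nonneg
  have a1 : 36 * B ^ 3 / (36 * B ^ 3 + J.a) ≤ 1 := div_le_one_of_le₀ (by linarith) (by positivity)
  have c5 := fun u => Jet.N_ge hK hΛ hA u
  obtain ⟨m1, m2⟩ := AlgAux.real_main (c := (J.m x * conj (J.m y)).im)
    (To := (J.om x x).re * (J.om y y).re - (J.om x y).re ^ 2 + 3 * (J.om x y).im ^ 2) hΛ hB1 a0
    (mul_nonneg (J.om_nonneg x) (J.om_nonneg y)) (J.om_nonneg _)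
    (by rw [ho]; linarith [sq_nonneg (J.om x y).im]) (by linarith [sq_nonneg (J.om x y).re])
    (by linarith [sq_nonneg (J.H x y).im]) (by linarith [sq_nonneg (J.H x y).re])
    ((mul_le_mul_of_nonneg_left (J.om_le _) (by linarith)).trans (c5 _).1)
    ((c5 _).2.trans ((mul_le_mul (by linarith [mul_le_mul_of_nonneg_left a1 (by linarith :
      0 ≤ 1 + J.a)]) (J.H_le _) (J.H0 _) (by linarith)).trans_eq (mul_assoc _ _ _).symm))
    (AlgAux.im_sq_le (Jet.hN hK) J.hH (by positivity) J.H0 (fun u => le_trans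
      (mul_le_mul_of_nonneg_right (by linarith) (J.H0 u)) (c5 u).1) (fun u => (c5 u).2) x y)
    (hB ▸ Jet.err_le hK hΓ hΛ hC hA1 x y (conj (J.m y) • x - conj (J.m x) • y))
  refine ⟨le_trans ?_ m1, m2.trans ?_⟩
  · rw [div_mul_eq_mul_div, mul_div_assoc]
    exact mul_le_mul_of_nonneg_left ((div_le_iff₀' (by positivity)).mpr d2) (by positivity)
  · rw [mul_assoc _ 2]
    exact mul_le_mul_of_nonneg_left d1 (by positivity)

end Vale.Agent.P250
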