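import Vale.Agent.P250.Calc

/-! Hermitian forms and the real inequality behind `alg_main`. -/

namespace Vale.Agent.P250.AlgAux

open scoped ComplexConjugate
open Complex

theorem disc {α γ : ℝ} {z : ℂ} (hα : 0 ≤ α)
    (h : ∀ l : ℂ, 0 ≤ α * ‖l‖ ^ 2 + 2 * (l * z).re + γ) : z.re ^ 2 + z.im ^ 2 ≤ α * γ := by
  have h0 : 0 ≤ γ := by simpa using h 0
  have h1 := discrim_le_zero (a := α * (z.re ^ 2 + z.im ^ 2)) (b := 2 * (z.re ^ 2 + z.im ^ 2))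
    (c := γ) fun s => by
      have := h (s * conj z)
      rw [← normSq_eq_norm_sq] at this
      simp only [normSq_apply, mul_re, mul_im, ofReal_re, ofReal_im, conj_re, conj_im] at this
      linarith
  rw [discrim] at h1
  rcases (by positivity : 0 ≤ z.re ^ 2 + z.im ^ 2).eq_or_lt with h2 | h2
  · rw [← h2]; positivity
  · nlinarith

variable {B B' : E → E → ℂ} (hB : Herm B)
include hB

theorem add' (x y z : E) : B x (y + z) = B x y + B x z := by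
  rw [hB.cj, hB.add, map_add, ← hB.cj, ← hB.cj]

theorem smul' (c : ℂ) (x y : E) : B x (c • y) = conj c * B x y := by
  rw [hB.cj, hB.smul, map_mul, ← hB.cj]

theorem sub (x y z : E) : B (x - y) z = B x z - B y z := by
  rw [eq_sub_iff_add_eq, ← hB.add, sub_add_cancel]

theorem sub' (x y z : E) : B x (y - z) = B x y - B x z := by
  rw [eq_sub_iff_add_eq, ← add' hB, sub_add_cancel]

theorem im_self (x : E) : (B x x).im = 0 := conj_eq_iff_im.mp (hB.cj x x).symm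

theorem re_swap (x y : E) : (B y x).re = (B x y).re := by rw [hB.cj, conj_re]

theorem im_swap (x y : E) : (B y x).im = -(B x y).im := by rw [hB.cj, conj_im]

theorem expand (l : ℂ) (x y : E) : (B (l • x + y) (l • x + y)).re =
    (B x x).re * ‖l‖ ^ 2 + 2 * (l * B x y).re + (B y y).re := by
  rw [← normSq_eq_norm_sq]
  simp only [hB.add, add' hB, hB.smul, smul' hB, add_re, mul_re, mul_im, conj_re, conj_im,
    normSq_apply, im_self hB, re_swap hB x y, im_swap hB x y]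
  ring

theorem cs (h : ∀ x, 0 ≤ (B x x).re) (x y : E) :
    (B x y).re ^ 2 + (B x y).im ^ 2 ≤ (B x x).re * (B y y).re :=
  disc (h x) fun l => expand hB l x y ▸ h _

theorem comb (hB' : Herm B') (s t : ℝ) : Herm fun x y => s * B x y + t * B' x y :=
  ⟨fun x y z => by rw [hB.add, hB'.add]; ring, fun c x z => by rw [hB.smul, hB'.smul]; ring,
    fun x y => by simp [hB.cj x y, hB'.cj x y]⟩

/-- area monotonicity for an orthogonal pair -/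
theorem area_ge (hB' : Herm B') {s : ℝ} (hs : 0 ≤ s) (h0 : ∀ x, 0 ≤ (B' x x).re)
    (h : ∀ x, s * (B' x x).re ≤ (B x x).re) {x y : E} (ho : (B' x y).re = 0) :
    s ^ 2 * ((B' x x).re * (B' y y).re) ≤ (B x x).re * (B y y).re - (B x y).re ^ 2 := by
  have h1 := cs (comb hB hB' 1 (-s)) (fun x => by simpa using h x) x y
  simp only [add_re, re_ofReal_mul, ho] at h1
  nlinarith [mul_nonneg (mul_nonneg hs (h0 x)) (sub_nonneg.mpr (h y)),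
    mul_nonneg (mul_nonneg hs (h0 y)) (sub_nonneg.mpr (h x)),
    sq_nonneg ((1 : ℝ) * B x y + (-s : ℝ) * B' x y : ℂ).im]

theorem im_sq_le (hB' : Herm B') {a e : ℝ} (he : 0 ≤ e) (h0 : ∀ x, 0 ≤ (B' x x).re)
    (h1 : ∀ x, a * (B' x x).re ≤ (B x x).re) (h2 : ∀ x, (B x x).re ≤ (a + e) * (B' x x).re)
    (x y : E) : 3 * (B x y).im ^ 2 ≤ (a ^ 2 + a * e + e ^ 2) *
      ((B' x x).re * (B' y y).re - (B' x y).re ^ 2 + 3 * (B' x y).im ^ 2) := by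
  have h3 := disc (α := e * (B' x x).re) (γ := e * (B' y y).re)
    (z := ⟨e * (B' x y).re, 2 * (B x y).im - (2 * a + e) * (B' x y).im⟩) (mul_nonneg he (h0 x))
    fun l => by
      have a1 := h1 (l • x + y)
      have a2 := h2 (conj l • x + y)
      simp only [expand hB, expand hB', norm_conj, mul_re, conj_re, conj_im] at a1 a2 ⊢
      linarith
  have h4 := cs hB' h0 x y
  simp only at h3
  generalize (B' x y).im = i at *
  generalize (B x y).im = n at *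
  have h5 : (2 * n - (2 * a + e) * i) ^ 2 ≤
    e ^ 2 * ((B' x x).re * (B' y y).re - (B' x y).re ^ 2) := by linarith
  have h6 : i ^ 2 ≤ (B' x x).re * (B' y y).re - (B' x y).re ^ 2 := by linarith
  generalize (B' x x).re * (B' y y).re - (B' x y).re ^ 2 = T at *
  obtain ⟨ρ, ρ0, rfl⟩ : ∃ ρ, 0 ≤ ρ ∧ T = ρ ^ 2 :=
    ⟨√T, Real.sqrt_nonneg _, (Real.sq_sqrt ((sq_nonneg i).trans h6)).symm⟩
  rw [← mul_pow] at h5
  obtain ⟨d, rfl⟩ : ∃ d, n = (d + (2 * a + e) * i) / 2 := ⟨2 * n - (2 * a + e) * i, by ring⟩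
  have h7 := abs_le_of_sq_le_sq' h5 (by positivity)
  have h8 : d ^ 2 ≤ (e * ρ) ^ 2 := by linarith
  rcases le_total 0 ((2 * a + e) * i) with h | h
  · nlinarith [sq_nonneg ((2 * a + e) * ρ - 3 * e * i), mul_nonneg h (sub_nonneg.mpr h7.2)]
  · nlinarith [sq_nonneg ((2 * a + e) * ρ + 3 * e * i),
      mul_nonneg (neg_nonneg.mpr h) (sub_nonneg.mpr h7.1)]

omit hB

/-- invariance of the curvature expression under a real shear -/
theorem shear {T : E → E → E → E → ℂ} (h1 : ∀ x z y v, T x z y v = T z x y v)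
    (h2 : ∀ x z y v, T y v x z = conj (T x z y v))
    (h3 : ∀ x x' z y v, T (x + x') z y v = T x z y v + T x' z y v)
    (h4 : ∀ (c : ℂ) x z y v, T (c • x) z y v = c * T x z y v) (t : ℝ) (x y : E) :
    (T x ((t : ℂ) • x + y) x ((t : ℂ) • x + y)).re - (T ((t : ℂ) • x + y) ((t : ℂ) • x + y) x x).re =
      (T x y x y).re - (T y y x x).re := by
  have a1 : ∀ x' p q, T ((t : ℂ) • x + y) x' p q = t * T x x' p q + T y x' p q := fun _ _ _ => by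
    rw [h3, h4]
  have a2 : ∀ x' p q, T x' ((t : ℂ) • x + y) p q = t * T x' x p q + T x' y p q := fun _ _ _ => by
    rw [h1, a1, h1 x, h1 y]
  have a3 : ∀ x' p q, (T p q x' ((t : ℂ) • x + y)).re =
      t * (T x' x p q).re + (T x' y p q).re := fun _ _ _ => by
    rw [h2, conj_re, a2, add_re, re_ofReal_mul]
  rw [a2, a1, a2, a2, add_re, re_ofReal_mul, a3, a3, h2 x y x x, h1 y x]
  simp only [add_re, re_ofReal_mul, conj_re]
  ring

theorem kappa {C a θ δ : ℝ} (C1 : 1 ≤ C) (ha : 0 ≤ a) (hθ : θ = a / (36 * C ^ 3 + a))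
    (δ0 : 0 < δ) (δ1 : 288 * C ^ 2 * δ = 1) :
    8 * C * δ * (1 + a) ^ 2 ≤ 36 * C ^ 3 - 4 / 3 * C - a * C + θ * (1 + a) ^ 2 / 3 := by
  have C2 : C ≤ C ^ 2 := le_self_pow₀ C1 two_ne_zero
  have C3 : C ^ 2 ≤ C ^ 3 := pow_le_pow_right₀ C1 (by norm_num)
  have k0 : 0 ≤ θ * (1 + a) ^ 2 := by rw [hθ]; positivity
  rcases le_total a (18 * C ^ 2) with h | h
  · have k1 : (1 + a) ^ 2 ≤ (19 * C ^ 2) ^ 2 := pow_le_pow_left₀ (by linarith) (by linarith) 2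
    have k2 := mul_le_mul_of_nonneg_left k1 (by positivity : 0 ≤ 8 * C * δ)
    have k3 : 8 * C * δ * (19 * C ^ 2) ^ 2 = 361 / 36 * C ^ 3 * (288 * C ^ 2 * δ) := by ring
    have k4 := mul_le_mul_of_nonneg_right h (by linarith : 0 ≤ C)
    rw [k3, δ1] at k2
    linarith
  · have k1 : 96 * C * δ ≤ θ := by
      rw [hθ, le_div_iff₀ (by positivity)]
      have e : 96 * C * δ * (36 * C ^ 3) = 12 * C ^ 2 * (288 * C ^ 2 * δ) := by ring
      have := mul_le_mul_of_nonneg_right C2 (mul_nonneg δ0.le ha)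
      have e2 : 288 * C ^ 2 * δ * a = a := by rw [δ1, one_mul]
      rw [δ1] at e
      linarith
    have k2 := mul_le_mul_of_nonneg_right k1 (sq_nonneg (1 + a))
    have k3 : 18 * C ^ 2 * a ≤ (1 + a) ^ 2 :=
      (mul_le_mul_of_nonneg_right h ha).trans (by linarith)
    have k4 := mul_le_mul_of_nonneg_left k3 (by positivity : 0 ≤ 16 * C * δ)
    have k5 : 16 * C * δ * (18 * C ^ 2 * a) = a * C * (288 * C ^ 2 * δ) := by ring
    rw [k5, δ1] at k4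
    have := mul_nonneg (by positivity : 0 ≤ C * δ) (sq_nonneg (1 + a))
    linarith

theorem real_low {C a θ 𝔞 ρ c n To TH Ny Er : ℝ} (C1 : 1 ≤ C) (ha : 0 ≤ a) (h𝔞 : 0 ≤ 𝔞)
    (hρ : 0 ≤ ρ) (hθ : θ = a / (36 * C ^ 3 + a)) (o1 : 𝔞 ≤ To) (t1 : 𝔞 ≤ TH)
    (t3 : TH ≤ 4 * C * 𝔞) (n1 : (1 + a) * ρ ≤ Ny)
    (n4 : 3 * n ^ 2 ≤ (3 * (a * (1 + a)) + 1 - θ * (1 + a) ^ 2) * TH)
    (n5 : n ^ 2 ≤ 4 * C * ((1 + a) ^ 2 * 𝔞)) (e2 : -((1 + a) / 2 * ρ + a * C * 𝔞) ≤ Er) :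
    (144 * C ^ 2)⁻¹ * ((1 + a) ^ 2 * 𝔞 + (1 + a) * ρ + c ^ 2) ≤
      36 * C ^ 3 * To + a * (1 + a) * TH + Ny + 4 * c * n + 4 * c ^ 2 + Er := by
  obtain ⟨δ, hδ⟩ : ∃ δ, δ = (288 * C ^ 2)⁻¹ := ⟨_, rfl⟩
  have δ0 : 0 < δ := by rw [hδ]; positivity
  have δ1 : 288 * C ^ 2 * δ = 1 := by rw [hδ]; field_simp
  have δ3 : 288 * δ ≤ 1 := by
    linarith [mul_le_mul_of_nonneg_right (one_le_pow₀ (n := 2) C1) δ0.le]
  have k1 := mul_le_mul_of_nonneg_right (kappa C1 ha hθ δ0 δ1) h𝔞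
  have k2 : -((1 + δ) * n ^ 2) + 2 * δ * c ^ 2 ≤ 4 * c * n + 4 * c ^ 2 := by
    have : 0 ≤ (1 + δ) * (4 * c * n + 4 * c ^ 2 + (1 + δ) * n ^ 2 - 2 * δ * c ^ 2) := by
      linarith [sq_nonneg ((1 + δ) * n + 2 * c), mul_nonneg (mul_nonneg δ0.le
        (by linarith : 0 ≤ 1 - δ)) (sq_nonneg c)]
    linarith [nonneg_of_mul_nonneg_right this (by linarith)]
  have k3 := mul_le_mul_of_nonneg_left n5 δ0.le
  have k4 := mul_le_mul_of_nonneg_left t1 (by rw [hθ]; positivity : 0 ≤ θ * (1 + a) ^ 2)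
  have k5 := mul_le_mul_of_nonneg_left o1 (by positivity : 0 ≤ 36 * C ^ 3)
  have k6 : δ * ((1 + a) ^ 2 * 𝔞) ≤ δ * C * ((1 + a) ^ 2 * 𝔞) :=
    mul_le_mul_of_nonneg_right (le_mul_of_one_le_right δ0.le C1) (by positivity)
  have k7 := mul_le_mul_of_nonneg_right δ3 (by positivity : 0 ≤ (1 + a) * ρ)
  have k8 : (144 * C ^ 2)⁻¹ = 2 * δ := by rw [hδ]; field_simp; norm_num
  have k9 := mul_nonneg δ0.le (by positivity : 0 ≤ (1 + a) ^ 2 * 𝔞)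
  have k10 : 0 ≤ (1 + a) * ρ := by positivity
  rw [k8]
  linarith

theorem real_main {Λ C a 𝔞 ρ c n To TH Ny Er : ℝ} (hΛ : 1 ≤ Λ) (hC : Λ ^ 2 ≤ C) (ha : 0 ≤ a)
    (h𝔞 : 0 ≤ 𝔞) (hρ : 0 ≤ ρ) (o1 : 𝔞 ≤ To) (o2 : To ≤ 4 * 𝔞) (t1 : 𝔞 ≤ TH)
    (t2 : TH ≤ 4 * Λ ^ 2 * 𝔞) (n1 : (1 + a) * ρ ≤ Ny) (n2 : Ny ≤ (1 + 2 * a) * Λ * ρ)
    (n3 : 3 * n ^ 2 ≤ (a ^ 2 + a * ((1 + a) * (36 * C ^ 3 / (36 * C ^ 3 + a))) +
      ((1 + a) * (36 * C ^ 3 / (36 * C ^ 3 + a))) ^ 2) * TH)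
    (e1 : |Er| ≤ (1 + a) / 2 * ρ + a * C * 𝔞) :
    (144 * C ^ 2)⁻¹ * ((1 + a) ^ 2 * 𝔞 + (1 + a) * ρ + c ^ 2) ≤
      36 * C ^ 3 * To + a * (1 + a) * TH + Ny + 4 * c * n + 4 * c ^ 2 + Er ∧
    36 * C ^ 3 * To + a * (1 + a) * TH + Ny + 4 * c * n + 4 * c ^ 2 + Er ≤
      160 * C ^ 3 * ((1 + a) ^ 2 * 𝔞 + (1 + a) * ρ + c ^ 2) := by
  have C1 : 1 ≤ C := (one_le_pow₀ hΛ).trans hC
  have C4 : C ≤ C ^ 3 := le_self_pow₀ C1 three_ne_zero
  have ΛC : Λ ≤ C := (le_self_pow₀ hΛ two_ne_zero).trans hC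
  obtain ⟨θ, hθ⟩ : ∃ θ, θ = a / (36 * C ^ 3 + a) := ⟨_, rfl⟩
  have θ0 : 0 ≤ θ := by rw [hθ]; positivity
  have θ1 : 36 * C ^ 3 / (36 * C ^ 3 + a) = 1 - θ := by rw [hθ]; field_simp; ring
  have θ2 : 0 ≤ 1 - θ := by rw [← θ1]; positivity
  have TH0 := h𝔞.trans t1
  have t3 : TH ≤ 4 * C * 𝔞 := t2.trans (by gcongr)
  rw [θ1] at n3
  have n4 : 3 * n ^ 2 ≤ (3 * (a * (1 + a)) + 1 - θ * (1 + a) ^ 2) * TH :=
    n3.trans (mul_le_mul_of_nonneg_right (by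
      linarith [mul_nonneg (mul_nonneg θ0 θ2) (sq_nonneg (1 + a)),
        mul_nonneg θ0 (mul_nonneg ha (by linarith : 0 ≤ 1 + a))]) TH0)
  have n5 : n ^ 2 ≤ 4 * C * ((1 + a) ^ 2 * 𝔞) := by
    linarith [mul_nonneg (mul_nonneg θ0 (sq_nonneg (1 + a))) TH0, mul_nonneg ha TH0,
      mul_le_mul_of_nonneg_left t3 (sq_nonneg (1 + a))]
  obtain ⟨e2, e3⟩ := abs_le.mp e1
  refine ⟨real_low C1 ha h𝔞 hρ hθ o1 t1 t3 n1 n4 n5 e2, ?_⟩
  have b1 : a * 𝔞 ≤ (1 + a) ^ 2 * 𝔞 :=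
    mul_le_mul_of_nonneg_right (by linarith [sq_nonneg a]) h𝔞
  have b2 : 𝔞 ≤ (1 + a) ^ 2 * 𝔞 := le_mul_of_one_le_left h𝔞 (by linarith [sq_nonneg a])
  have k0 : 0 ≤ (1 + a) ^ 2 * 𝔞 := by positivity
  have k1 := mul_le_mul_of_nonneg_left (o2.trans (by linarith : _ ≤ 4 * ((1 + a) ^ 2 * 𝔞)))
    (by positivity : 0 ≤ 36 * C ^ 3)
  have k2 : a * (1 + a) * TH ≤ (1 + a) ^ 2 * (4 * C * 𝔞) :=
    mul_le_mul (by linarith) t3 TH0 (by positivity)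
  have k3 : (1 + 2 * a) * Λ * ρ ≤ 2 * (1 + a) * C ^ 3 * ρ := by gcongr <;> linarith
  have k4 := mul_le_mul_of_nonneg_left b1 (by linarith : 0 ≤ C)
  have k5 := mul_le_mul_of_nonneg_right C4 k0
  have k6 := mul_le_mul_of_nonneg_right (C1.trans C4) (by positivity : 0 ≤ (1 + a) * ρ)
  have k7 := mul_le_mul_of_nonneg_right (C1.trans C4) (sq_nonneg c)
  have k10 : 0 ≤ (1 + a) * ρ := by positivity
  have k11 := mul_nonneg (zero_le_one.trans C1) k0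
  linarith [sq_nonneg (n - 2 * c), sq_nonneg c]

end Vale.Agent.P250.AlgAux
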