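import Mathlib

/-!
Wirtinger calculus on `ℂ³` and the basic objects on the Siegel domain.
-/

namespace Vale.Agent.P250

open scoped ContDiff ComplexConjugate
open Complex Filter Topology

/-- The ambient space, with coordinates `z = p 0`, `s = p 1`, `w = p 2`. -/
abbrev E : Type := Fin 3 → ℂ

/-- The Wirtinger derivative `∂_X`. -/
noncomputable def d (X : E) (f : E → ℂ) (p : E) : ℂ :=
  (fderiv ℝ f p X - I * fderiv ℝ f p (I • X)) / 2

/-- The conjugate Wirtinger derivative. -/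
noncomputable def db (X : E) (f : E → ℂ) (p : E) : ℂ :=
  (fderiv ℝ f p X + I * fderiv ℝ f p (I • X)) / 2

theorem d_add_db (X : E) (f : E → ℂ) (p : E) : fderiv ℝ f p X = d X f p + db X f p := by
  rw [d, db]; ring

theorem fderiv_csmul (c : ℂ) (X : E) (f : E → ℂ) (p : E) : fderiv ℝ f p (c • X) =
    c.re * fderiv ℝ f p X + c.im * fderiv ℝ f p (I • X) := by
  have : c • X = c.re • X + c.im • (I • X) := by
    rw [← re_add_im c, add_smul, mul_smul]; simp
  rw [this, map_add, map_smul, map_smul, real_smul, real_smul]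

theorem d_addv (X Y : E) (f : E → ℂ) (p : E) : d (X + Y) f p = d X f p + d Y f p := by
  simp only [d, smul_add, map_add]; ring

theorem db_addv (X Y : E) (f : E → ℂ) (p : E) : db (X + Y) f p = db X f p + db Y f p := by
  simp only [db, smul_add, map_add]; ring

theorem d_smulv (c : ℂ) (X : E) (f : E → ℂ) (p : E) : d (c • X) f p = c * d X f p := by
  have h : c = c.re + c.im * I := (re_add_im c).symm
  rw [d, d, smul_smul, fderiv_csmul c, fderiv_csmul (I * c)]
  simp only [mul_re, mul_im, I_re, I_im, zero_mul, one_mul, zero_sub, zero_add, ofReal_neg]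
  linear_combination (-(fderiv ℝ f p X - I * fderiv ℝ f p (I • X)) / 2) * h +
    (c.im * fderiv ℝ f p (I • X) / 2) * I_mul_I

theorem db_smulv (c : ℂ) (X : E) (f : E → ℂ) (p : E) : db (c • X) f p = conj c * db X f p := by
  have h : conj c = c.re - c.im * I := by apply Complex.ext <;> simp
  rw [db, db, smul_smul, fderiv_csmul c, fderiv_csmul (I * c)]
  simp only [mul_re, mul_im, I_re, I_im, zero_mul, one_mul, zero_sub, zero_add, ofReal_neg]
  linear_combination (-(fderiv ℝ f p X + I * fderiv ℝ f p (I • X)) / 2) * h +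
    (c.im * fderiv ℝ f p (I • X) / 2) * I_mul_I

theorem fderiv_conj (X : E) (f : E → ℂ) (p : E) :
    fderiv ℝ (fun q => conj (f q)) p X = conj (fderiv ℝ f p X) := by
  have := conjCLE.comp_fderiv (f := f) (x := p)
  exact congrArg (fun L : E →L[ℝ] ℂ => L X) this

theorem d_conj (X : E) (f : E → ℂ) (p : E) : d X (fun q => conj (f q)) p = conj (db X f p) := by
  simp [d, db, fderiv_conj, sub_eq_add_neg, map_ofNat]

theorem db_conj (X : E) (f : E → ℂ) (p : E) : db X (fun q => conj (f q)) p = conj (d X f p) := by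
  simp [d, db, fderiv_conj, sub_eq_add_neg, map_ofNat]

theorem d_congr {f g : E → ℂ} {p : E} (h : f =ᶠ[𝓝 p] g) (X : E) : d X f p = d X g p := by
  rw [d, d, h.fderiv_eq]

theorem db_congr {f g : E → ℂ} {p : E} (h : f =ᶠ[𝓝 p] g) (X : E) : db X f p = db X g p := by
  rw [db, db, h.fderiv_eq]

theorem congr_on {U : Set E} (hU : IsOpen U) {f g : E → ℂ} (h : ∀ q ∈ U, f q = g q) {p : E}
    (hp : p ∈ U) : f =ᶠ[𝓝 p] g := (hU.eventually_mem hp).mono h

theorem cd_fderiv {f : E → ℂ} {p : E} (hf : ContDiffAt ℝ ∞ f p) (X : E) :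
    ContDiffAt ℝ ∞ (fun q => fderiv ℝ f q X) p :=
  (hf.fderiv_right (m := ∞) (by simp)).clm_apply contDiffAt_const

theorem cd_d {f : E → ℂ} {p : E} (hf : ContDiffAt ℝ ∞ f p) (X : E) : ContDiffAt ℝ ∞ (d X f) p :=
  ((cd_fderiv hf X).sub (contDiffAt_const.mul (cd_fderiv hf _))).div_const 2

theorem cd_db {f : E → ℂ} {p : E} (hf : ContDiffAt ℝ ∞ f p) (X : E) : ContDiffAt ℝ ∞ (db X f) p :=
  ((cd_fderiv hf X).add (contDiffAt_const.mul (cd_fderiv hf _))).div_const 2

theorem cd_conj {f : E → ℂ} {p : E} (hf : ContDiffAt ℝ ∞ f p) :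
    ContDiffAt ℝ ∞ (fun q => conj (f q)) p := conjCLE.contDiff.contDiffAt.comp p hf

theorem cd_diff {f : E → ℂ} {p : E} (hf : ContDiffAt ℝ ∞ f p) : DifferentiableAt ℝ f p :=
  hf.differentiableAt (by simp)

theorem fd_symm {f : E → ℂ} {p : E} (hf : ContDiffAt ℝ ∞ f p) (X Y : E) :
    fderiv ℝ (fun q => fderiv ℝ f q X) p Y = fderiv ℝ (fun q => fderiv ℝ f q Y) p X := by
  have hd : DifferentiableAt ℝ (fderiv ℝ f) p :=
    (hf.fderiv_right (m := ∞) (by simp)).differentiableAt (by simp)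
  rw [fderiv_clm_apply hd (differentiableAt_const _), fderiv_clm_apply hd (differentiableAt_const _)]
  have h2 : minSmoothness ℝ 2 ≤ ∞ := by
    rw [minSmoothness_of_isRCLikeNormedField]
    exact WithTop.coe_le_coe.2 (le_top : (2 : ℕ∞) ≤ ⊤)
  simpa using (hf.isSymmSndFDerivAt h2).eq Y X

theorem fderiv_d {f : E → ℂ} {p : E} (hf : ContDiffAt ℝ ∞ f p) (X Y : E) :
    fderiv ℝ (d X f) p Y = (fderiv ℝ (fun q => fderiv ℝ f q X) p Y -
      I * fderiv ℝ (fun q => fderiv ℝ f q (I • X)) p Y) / 2 := by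
  have h1 := (cd_diff (cd_fderiv hf X)).hasFDerivAt
  have h2 := (cd_diff (cd_fderiv hf (I • X))).hasFDerivAt
  have h3 : fderiv ℝ (d X f) p = _ := ((h1.sub (h2.const_mul I)).mul_const (2 : ℂ)⁻¹).fderiv
  rw [h3]
  simp [div_eq_mul_inv, mul_comm]

theorem fderiv_db {f : E → ℂ} {p : E} (hf : ContDiffAt ℝ ∞ f p) (X Y : E) :
    fderiv ℝ (db X f) p Y = (fderiv ℝ (fun q => fderiv ℝ f q X) p Y +
      I * fderiv ℝ (fun q => fderiv ℝ f q (I • X)) p Y) / 2 := by
  have h1 := (cd_diff (cd_fderiv hf X)).hasFDerivAt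
  have h2 := (cd_diff (cd_fderiv hf (I • X))).hasFDerivAt
  have h3 : fderiv ℝ (db X f) p = _ := ((h1.add (h2.const_mul I)).mul_const (2 : ℂ)⁻¹).fderiv
  rw [h3]
  simp [div_eq_mul_inv, mul_comm]
  ring

theorem d_d {f : E → ℂ} {p : E} (hf : ContDiffAt ℝ ∞ f p) (X Y : E) :
    d X (d Y f) p = d Y (d X f) p := by
  simp only [d.eq_1 X (d Y f), d.eq_1 Y (d X f), fderiv_d hf]
  rw [fd_symm hf X Y, fd_symm hf X (I • Y), fd_symm hf (I • X) Y, fd_symm hf (I • X) (I • Y)]
  ring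

theorem d_db {f : E → ℂ} {p : E} (hf : ContDiffAt ℝ ∞ f p) (X Y : E) :
    d X (db Y f) p = db Y (d X f) p := by
  simp only [d.eq_1 X (db Y f), db.eq_1 Y (d X f), fderiv_d hf, fderiv_db hf]
  rw [fd_symm hf X Y, fd_symm hf X (I • Y), fd_symm hf (I • X) Y, fd_symm hf (I • X) (I • Y)]
  ring

theorem db_db {f : E → ℂ} {p : E} (hf : ContDiffAt ℝ ∞ f p) (X Y : E) :
    db X (db Y f) p = db Y (db X f) p := by
  simp only [db.eq_1 X (db Y f), db.eq_1 Y (db X f), fderiv_db hf]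
  rw [fd_symm hf X Y, fd_symm hf X (I • Y), fd_symm hf (I • X) Y, fd_symm hf (I • X) (I • Y)]
  ring

/-- `f` is differentiable at `p` with Wirtinger derivatives `L` and `L'`. -/
structure HW (f : E → ℂ) (p : E) (L L' : E → ℂ) : Prop where
  diff : DifferentiableAt ℝ f p
  d_eq : ∀ X, d X f p = L X
  db_eq : ∀ X, db X f p = L' X

theorem hw_self {f : E → ℂ} {p : E} (hf : DifferentiableAt ℝ f p) :
    HW f p (fun X => d X f p) fun X => db X f p := ⟨hf, fun _ => rfl, fun _ => rfl⟩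

theorem hw_const (c : ℂ) (p : E) : HW (fun _ => c) p (fun _ => 0) fun _ => 0 :=
  ⟨differentiableAt_const _, fun X => by simp [d], fun X => by simp [db]⟩

theorem hw_coord (i : Fin 3) (p : E) : HW (fun q => q i) p (fun X => X i) fun _ => 0 := by
  have h : HasFDerivAt (fun q : E => q i) (ContinuousLinearMap.proj (R := ℝ) i) p :=
    (ContinuousLinearMap.proj (R := ℝ) (φ := fun _ : Fin 3 => ℂ) i).hasFDerivAt
  refine ⟨h.differentiableAt, fun X => ?_, fun X => ?_⟩
  · simp only [d, h.fderiv, ContinuousLinearMap.proj_apply, Pi.smul_apply, smul_eq_mul]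
    linear_combination (-X i / 2) * I_mul_I
  · simp only [db, h.fderiv, ContinuousLinearMap.proj_apply, Pi.smul_apply, smul_eq_mul]
    linear_combination (X i / 2) * I_mul_I

namespace HW

variable {f g : E → ℂ} {p : E} {L L' M M' : E → ℂ}

theorem congr (hf : HW f p L L') (h : ∀ X, L X = M X) (h' : ∀ X, L' X = M' X) : HW f p M M' :=
  ⟨hf.diff, fun X => (hf.d_eq X).trans (h X), fun X => (hf.db_eq X).trans (h' X)⟩

theorem of_eq (hf : HW f p L L') (h : g =ᶠ[𝓝 p] f) : HW g p L L' :=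
  ⟨hf.diff.congr_of_eventuallyEq h, fun X => (d_congr h X).trans (hf.d_eq X),
    fun X => (db_congr h X).trans (hf.db_eq X)⟩

theorem cj (hf : HW f p L L') :
    HW (fun q => conj (f q)) p (fun X => conj (L' X)) fun X => conj (L X) :=
  ⟨conjCLE.differentiableAt.comp p hf.diff, fun X => by rw [d_conj, hf.db_eq],
    fun X => by rw [db_conj, hf.d_eq]⟩

theorem add (hf : HW f p L L') (hg : HW g p M M') :
    HW (fun q => f q + g q) p (fun X => L X + M X) fun X => L' X + M' X := by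
  have h := (hf.diff.hasFDerivAt.fun_add hg.diff.hasFDerivAt)
  refine ⟨h.differentiableAt, fun X => ?_, fun X => ?_⟩
  · rw [← hf.d_eq, ← hg.d_eq, d, d, d, h.fderiv]; simp; ring
  · rw [← hf.db_eq, ← hg.db_eq, db, db, db, h.fderiv]; simp; ring

theorem mul (hf : HW f p L L') (hg : HW g p M M') :
    HW (fun q => f q * g q) p (fun X => L X * g p + f p * M X) fun X => L' X * g p + f p * M' X := by
  have h := (hf.diff.hasFDerivAt.fun_mul hg.diff.hasFDerivAt)
  refine ⟨h.differentiableAt, fun X => ?_, fun X => ?_⟩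
  · rw [← hf.d_eq, ← hg.d_eq, d, d, d, h.fderiv]; simp; ring
  · rw [← hf.db_eq, ← hg.db_eq, db, db, db, h.fderiv]; simp; ring

theorem comp (hf : HW f p L L') {φ : ℂ → ℂ} {c : ℂ} (hφ : HasDerivAt φ c (f p)) :
    HW (fun q => φ (f q)) p (fun X => c * L X) fun X => c * L' X := by
  have h := (hφ.hasFDerivAt.restrictScalars ℝ).comp p hf.diff.hasFDerivAt
  refine ⟨h.differentiableAt, fun X => ?_, fun X => ?_⟩
  · rw [← hf.d_eq, d, d, show fderiv ℝ (fun q => φ (f q)) p = _ from h.fderiv]; simp; ring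
  · rw [← hf.db_eq, db, db, show fderiv ℝ (fun q => φ (f q)) p = _ from h.fderiv]; simp; ring

theorem neg (hf : HW f p L L') : HW (fun q => -f q) p (fun X => -L X) fun X => -L' X :=
  (hf.comp (hasDerivAt_neg _)).congr (by simp) (by simp)

theorem sub (hf : HW f p L L') (hg : HW g p M M') :
    HW (fun q => f q - g q) p (fun X => L X - M X) fun X => L' X - M' X := by
  simpa only [sub_eq_add_neg] using hf.add hg.neg

theorem cmul (c : ℂ) (hf : HW f p L L') :
    HW (fun q => c * f q) p (fun X => c * L X) fun X => c * L' X :=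
  ((hw_const c p).mul hf).congr (by simp) (by simp)

theorem inv (hf : HW f p L L') (h : f p ≠ 0) :
    HW (fun q => (f q)⁻¹) p (fun X => -(f p ^ 2)⁻¹ * L X) fun X => -(f p ^ 2)⁻¹ * L' X :=
  hf.comp (hasDerivAt_inv h)

theorem exp (hf : HW f p L L') :
    HW (fun q => cexp (f q)) p (fun X => cexp (f p) * L X) fun X => cexp (f p) * L' X :=
  hf.comp (hasDerivAt_exp _)

end HW

/-- A Hermitian form. -/
structure Herm (B : E → E → ℂ) : Prop where
  add : ∀ x y z, B (x + y) z = B x z + B y z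
  smul : ∀ (c : ℂ) x z, B (c • x) z = c * B x z
  cj : ∀ x y, B y x = conj (B x y)

/-- The depth function of the Siegel domain. -/
noncomputable def tR (p : E) : ℝ := (p 1).re - ‖p 0‖ ^ 2

/-- The Siegel domain times `ℂ`. -/
def BB : Set E := {p | 0 < tR p}

theorem cont_tR : Continuous tR := by unfold tR; fun_prop

theorem isOpen_BB : IsOpen BB := isOpen_lt continuous_const cont_tR

/-- The derivative `∂_X t`. -/
noncomputable def tX (p X : E) : ℂ := X 1 / 2 - conj (p 0) * X 0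

/-- The complex hyperbolic metric of the Siegel domain. -/
noncomputable def om (p X Y : E) : ℂ :=
  X 0 * conj (Y 0) / tR p + tX p X * conj (tX p Y) / (tR p : ℂ) ^ 2

/-- The complex hyperbolic norm. -/
noncomputable def nu (p X : E) : ℝ := Real.sqrt (om p X X).re

theorem om_re (p X : E) : (om p X X).re = ‖X 0‖ ^ 2 / tR p + ‖tX p X‖ ^ 2 / tR p ^ 2 := by
  simp only [om, mul_conj, normSq_eq_norm_sq]
  norm_cast

/-- A smooth plurisubharmonic function on the Siegel domain of bounded geometry. -/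
structure Good (Ψ : E → ℝ) (C : ℝ) : Prop where
  smooth : ContDiffOn ℝ ∞ Ψ BB
  indep : ∀ p q : E, p 0 = q 0 → p 1 = q 1 → Ψ p = Ψ q
  psh : ∀ p ∈ BB, ∀ X, 0 ≤ (d X (db X fun q => (Ψ q : ℂ)) p).re
  b2 : ∀ p ∈ BB, ∀ X Y, ‖d X (db Y fun q => (Ψ q : ℂ)) p‖ ≤ C * nu p X * nu p Y
  b3 : ∀ p ∈ BB, ∀ X Z Y, ‖d X (d Z (db Y fun q => (Ψ q : ℂ))) p‖ ≤ C * nu p X * nu p Z * nu p Y
  b4 : ∀ p ∈ BB, ∀ X Z Y W, ‖d X (d Z (db Y (db W fun q => (Ψ q : ℂ)))) p‖ ≤
    C * nu p X * nu p Z * nu p Y * nu p W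

/-- The weight `Φ = ρ + Ψ`. -/
noncomputable def Phi (Ψ : E → ℝ) (p : E) : ℝ := -Real.log (tR p) + Ψ p

/-- The Hartogs domain. -/
def MM (Ψ : E → ℝ) : Set E := {p | p ∈ BB ∧ ‖p 2‖ ^ 2 * Real.exp (Phi Ψ p) < 1}

end Vale.Agent.P250
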