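import Vale.Agent.P250.Defs

/-!
Geodesic completeness from an exhaustion function with bounded gradient.

Plan. The geodesic flow is the ODE `x' = V x`, `V (p, v) = (v, -Γ p v v)`, `C¹` on the open set
`M ×ˢ univ`. Along a solution `g (v, v)` is constant (Koszul formula with `X = Y = Z = v`; expand
`g` in a real basis or use joint differentiability), so `u` grows at most linearly and on
`[-T, T]` the solution stays in the compact set
`K_T = {(p, v) | p ∈ M, u p ≤ u p₀ + c T, g p v v = g p₀ v₀ v₀}` (`g p v v ≥ c ‖v‖²` on compact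
sets). Global existence: multiply `V` by a smooth bump equal to one near `K_T` with compact support
in `M ×ˢ univ` (bounded, globally Lipschitz field, Picard-Lindelöf on `[-T, T]`), show by a
continuity argument that the solution stays where the bump is one, and glue the solutions for
`T = 1, 2, …` by uniqueness (or use a maximal interval argument).
-/

namespace Vale.Agent.P250

open Set Filter Topology Metric

namespace CompleteAux

section ode

variable {E : Type*} [NormedAddCommGroup E] [NormedSpace ℝ E]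

omit [NormedSpace ℝ E] in
lemma stay {x : ℝ → E} {K O : Set E} (hK : IsClosed K) (hO : IsOpen O) (hKO : K ⊆ O) {b : ℝ}
    (hx : ∀ t ∈ Icc 0 b, ContinuousAt x t) (h0 : x 0 ∈ K)
    (H : ∀ t ∈ Icc 0 b, (∀ s ∈ Icc 0 t, x s ∈ O) → x t ∈ K) : ∀ t ∈ Icc 0 b, x t ∈ K := by
  have hc : IsClosed (x ⁻¹' K ∩ Icc 0 b) := by
    rw [inter_comm]
    exact ContinuousOn.preimage_isClosed_of_isClosed
      (fun t ht => (hx t ht).continuousWithinAt) isClosed_Icc hK
  refine hc.Icc_subset_of_forall_mem_nhdsGT_of_Icc_subset h0 fun t ht hs => ?_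
  have h1 : x ⁻¹' O ∈ 𝓝 t :=
    hx t ⟨ht.1, ht.2.le⟩ (hO.mem_nhds (hKO (hs ⟨ht.1, le_rfl⟩)))
  obtain ⟨ε, hε, h2⟩ := Metric.mem_nhds_iff.mp h1
  refine mem_of_superset (Ioo_mem_nhdsGT (lt_min ht.2 (lt_add_of_pos_right t hε))) fun r hr => ?_
  have hr1 := (lt_min_iff.mp hr.2).1
  have hr2 := (lt_min_iff.mp hr.2).2
  refine H r ⟨ht.1.trans hr.1.le, hr1.le⟩ fun s hs' => ?_
  rcases le_or_gt s t with h | h
  · exact hKO (hs ⟨hs'.1, h⟩)
  · refine h2 ?_
    rw [mem_ball, Real.dist_eq, abs_of_pos (by linarith)]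
    linarith [hs'.2]

variable [FiniteDimensional ℝ E] {U : Set E} {V : E → E} {x₀ : E}

lemma exists_on (hU : IsOpen U) (hV : ContDiffOn ℝ 1 V U) {T : ℝ} (hT : 0 < T) {K : Set E}
    (hK : IsCompact K) (hKU : K ⊆ U) (h0 : x₀ ∈ K)
    (H : ∀ (x : ℝ → E) (t : ℝ), |t| ≤ T → x 0 = x₀ →
      (∀ s ∈ uIcc 0 t, x s ∈ U ∧ HasDerivAt x (V (x s)) s) → x t ∈ K) :
    ∃ x : ℝ → E, x 0 = x₀ ∧ ∀ t ∈ Ioo (-T) T, x t ∈ U ∧ HasDerivAt x (V (x t)) t := by
  have := FiniteDimensional.proper_real E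
  obtain ⟨L, hL, hKL, hLU⟩ := exists_compact_between hK hU hKU
  obtain ⟨f, hf1, hf0, -⟩ := exists_contMDiffMap_one_nhds_of_subset_interior (n := 1)
    (modelWithCornersSelf ℝ E) hK.isClosed hKL
  have hf : ContDiff ℝ 1 f := f.contMDiff.contDiff
  have hW : ContDiff ℝ 1 fun y => f y • V y := by
    refine contDiff_iff_contDiffAt.mpr fun y => ?_
    by_cases hy : y ∈ U
    · exact hf.contDiffAt.smul (hV.contDiffAt (hU.mem_nhds hy))
    · refine (contDiffAt_const (c := (0 : E))).congr_of_eventuallyEq ?_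
      filter_upwards [hL.isClosed.isOpen_compl.mem_nhds fun h => hy (hLU h)] with z hz
      rw [hf0 z hz, zero_smul]
  have hWc : HasCompactSupport fun y => f y • V y :=
    HasCompactSupport.intro hL fun y hy => by rw [hf0 y hy, zero_smul]
  obtain ⟨C, hC⟩ := ContDiff.lipschitzWith_of_hasCompactSupport hWc hW one_ne_zero
  obtain ⟨B, hB⟩ := hWc.exists_bound_of_continuous hW.continuous
  have hB0 : 0 ≤ B := (norm_nonneg _).trans (hB x₀)
  have hPL : IsPicardLindelof (fun _ y => f y • V y) (tmin := -T) (tmax := T)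
      ⟨0, by linarith, hT.le⟩ x₀ ⟨B * T, by positivity⟩ 0 ⟨B, hB0⟩ C :=
    ⟨fun _ _ => hC.lipschitzOnWith, fun _ _ => continuousOn_const, fun _ _ y _ => hB y, by
      change B * max (T - 0) (0 - -T) ≤ B * T - 0
      simp⟩
  obtain ⟨x, hx0, hx⟩ := hPL.exists_eq_forall_mem_Icc_hasDerivWithinAt₀
  have hx' : ∀ t ∈ Ioo (-T) T, HasDerivAt x (f (x t) • V (x t)) t := fun t ht =>
    (hx t (Ioo_subset_Icc_self ht)).hasDerivAt (Icc_mem_nhds ht.1 ht.2)
  have hO : IsOpen ({y | ∀ᶠ z in 𝓝 y, f z = 1} ∩ U) := isOpen_setOfPred_eventually_nhds.inter hU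
  have hKO : K ⊆ {y | ∀ᶠ z in 𝓝 y, f z = 1} ∩ U := fun y hy =>
    ⟨hf1.filter_mono (nhds_le_nhdsSet hy), hKU hy⟩
  have hsol : ∀ t ∈ Ioo (-T) T, x t ∈ {y | ∀ᶠ z in 𝓝 y, f z = 1} ∩ U →
      x t ∈ U ∧ HasDerivAt x (V (x t)) t := by
    intro t ht hy
    have h1 := hx' t ht
    rw [hy.1.self_of_nhds, one_smul] at h1
    exact ⟨hy.2, h1⟩
  have hx0' : x 0 = x₀ := hx0
  refine ⟨x, hx0', fun t ht => hsol t ht (hKO ?_)⟩
  rcases le_total 0 t with h | h
  · refine stay hK.isClosed hO hKO (b := t)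
      (fun s hs => (hx' s ⟨by linarith [hs.1], by linarith [hs.2, ht.2]⟩).continuousAt)
      (hx0' ▸ h0) (fun s hs hin => H x s ?_ hx0' fun r hr => ?_) t ⟨h, le_rfl⟩
    · rw [abs_of_nonneg hs.1]; linarith [hs.2, ht.2]
    · rw [uIcc_of_le hs.1] at hr
      exact hsol r ⟨by linarith [hr.1], by linarith [hr.2, hs.2, ht.2]⟩ (hin r hr)
  · have h2 := stay (x := fun s => x (-s)) hK.isClosed hO hKO (b := -t)
      (fun s hs => ContinuousAt.comp (f := fun s : ℝ => -s)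
        (hx' (-s) ⟨by linarith [hs.2, ht.1], by linarith [hs.1]⟩).continuousAt
        continuous_neg.continuousAt)
      (by rw [neg_zero, hx0']; exact h0) (fun s hs hin => H x (-s) (by
        rw [abs_neg, abs_of_nonneg hs.1]; linarith [hs.2, ht.1]) hx0' fun r hr => by
          rw [uIcc_of_ge (by linarith [hs.1])] at hr
          refine hsol r ⟨by linarith [hr.1, hs.2, ht.1], by linarith [hr.2]⟩ ?_
          have := hin (-r) ⟨by linarith [hr.2], by linarith [hr.1]⟩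
          rwa [neg_neg] at this) (-t) ⟨by linarith, le_rfl⟩
    rwa [neg_neg] at h2

theorem global_of_apriori (hU : IsOpen U) (hV : ContDiffOn ℝ 1 V U)
    (H : ∀ T : ℝ, 0 < T → ∃ K : Set E, IsCompact K ∧ K ⊆ U ∧ x₀ ∈ K ∧
      ∀ (x : ℝ → E) (t : ℝ), |t| ≤ T → x 0 = x₀ →
        (∀ s ∈ uIcc 0 t, x s ∈ U ∧ HasDerivAt x (V (x s)) s) → x t ∈ K) :
    ∃ x : ℝ → E, x 0 = x₀ ∧ ∀ t, x t ∈ U ∧ HasDerivAt x (V (x t)) t := by
  have uniq : ∀ (T : ℝ) (x y : ℝ → E), x 0 = x₀ → y 0 = x₀ →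
      (∀ t ∈ Ioo (-T) T, x t ∈ U ∧ HasDerivAt x (V (x t)) t) →
      (∀ t ∈ Ioo (-T) T, y t ∈ U ∧ HasDerivAt y (V (y t)) t) → ∀ t ∈ Ioo (-T) T, x t = y t := by
    intro T x y hx0 hy0 hx hy t ht
    have hT : 0 < T := by linarith [ht.1, ht.2]
    obtain ⟨K, hK, hKU, -, hin⟩ := H T hT
    have hl : LocallyLipschitzOn K V := fun z hz => by
      obtain ⟨C, s, hs, hC⟩ := (hV.contDiffAt (hU.mem_nhds (hKU hz))).exists_lipschitzOnWith
      exact ⟨C, s, mem_nhdsWithin_of_mem_nhds hs, hC⟩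
    obtain ⟨C, hC⟩ := hl.exists_lipschitzOnWith_of_compact hK
    have hsub : ∀ s ∈ Ioo (-T) T, uIcc 0 s ⊆ Ioo (-T) T := fun s hs =>
      ordConnected_Ioo.uIcc_subset ⟨by linarith, hT⟩ hs
    exact ODE_solution_unique_of_mem_Ioo (v := fun _ => V) (s := fun _ => K) (t₀ := 0)
      (fun _ _ => hC) ⟨by linarith, hT⟩
      (fun s hs => ⟨(hx s hs).2, hin x s (abs_lt.mpr hs).le hx0 fun r hr => hx r (hsub s hs hr)⟩)
      (fun s hs => ⟨(hy s hs).2, hin y s (abs_lt.mpr hs).le hy0 fun r hr => hy r (hsub s hs hr)⟩)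
      (hx0.trans hy0.symm) ht
  have hex : ∀ m : ℕ, ∃ x : ℝ → E, x 0 = x₀ ∧
      ∀ t ∈ Ioo (-((m : ℝ) + 1)) ((m : ℝ) + 1), x t ∈ U ∧ HasDerivAt x (V (x t)) t := by
    intro m
    obtain ⟨K, hK, hKU, h0, hin⟩ := H ((m : ℝ) + 1) (by positivity)
    exact exists_on hU hV (by positivity) hK hKU h0 hin
  choose X hX0 hX using hex
  have agree : ∀ (m k : ℕ) (s : ℝ), |s| < m + 1 → |s| < k + 1 → X m s = X k s := by
    intro m k s hm hk
    refine uniq (min ((m : ℝ) + 1) ((k : ℝ) + 1)) _ _ (hX0 m) (hX0 k)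
      (fun t ht => hX m t (abs_lt.mp ((abs_lt.mpr ht).trans_le (min_le_left _ _))))
      (fun t ht => hX k t (abs_lt.mp ((abs_lt.mpr ht).trans_le (min_le_right _ _)))) s
      (abs_lt.mp (lt_min hm hk))
  have hlt : ∀ s : ℝ, |s| < (⌈|s|⌉₊ : ℝ) + 1 := fun s => by
    have := Nat.le_ceil |s|
    linarith
  refine ⟨fun t => X ⌈|t|⌉₊ t, hX0 _, fun t => ?_⟩
  obtain ⟨h1, h2⟩ := hX ⌈|t|⌉₊ t (abs_lt.mp (hlt t))
  refine ⟨h1, h2.congr_of_eventuallyEq ?_⟩
  have h3 : ∀ᶠ s in 𝓝 t, |s| < (⌈|t|⌉₊ : ℝ) + 1 :=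
    continuous_abs.continuousAt.eventually_lt continuousAt_const (hlt t)
  filter_upwards [h3] with s hs
  exact agree _ _ s (hlt s) hs

end ode

variable {n : ℕ} {M : Set (Fin n → ℂ)} (K : KahlerMetric M)

/-- a real basis -/
noncomputable abbrev bs (n : ℕ) := Module.finBasis ℝ (Fin n → ℂ)

lemma g_sum {p : Fin n → ℂ} (hp : p ∈ M) (X Y : Fin n → ℂ) :
    K.g p X Y = ∑ i, (bs n).repr X i * K.g p (bs n i) Y := by
  let L : (Fin n → ℂ) →ₗ[ℝ] ℝ :=
    { toFun := fun X => K.g p X Y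
      map_add' := fun X X' => K.add p hp X X' Y
      map_smul' := fun c X => K.smul p hp c X Y }
  have h := congrArg L ((bs n).sum_repr X).symm
  rw [map_sum] at h
  simp only [map_smul, smul_eq_mul] at h
  exact h

lemma g_expand {p : Fin n → ℂ} (hp : p ∈ M) (X Y : Fin n → ℂ) :
    K.g p X Y = ∑ i, ∑ j, (bs n).repr X i * (bs n).repr Y j * K.g p (bs n i) (bs n j) := by
  rw [g_sum K hp]
  refine Finset.sum_congr rfl fun i _ => ?_
  rw [K.symm p hp, g_sum K hp, Finset.mul_sum]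
  exact Finset.sum_congr rfl fun j _ => by rw [K.symm p hp (bs n j)]; ring

lemma g_diff (hM : IsOpen M) {p : Fin n → ℂ} (hp : p ∈ M) (X Y : Fin n → ℂ) :
    DifferentiableAt ℝ (fun q => K.g q X Y) p :=
  ((K.smooth X Y).contDiffAt (hM.mem_nhds hp)).differentiableAt (by simp)

lemma coord_cont (i : Fin (Module.finrank ℝ (Fin n → ℂ))) :
    Continuous fun X : Fin n → ℂ => (bs n).repr X i :=
  ((bs n).coord i).continuous_of_finiteDimensional

lemma g_contOn : ContinuousOn (fun x : (Fin n → ℂ) × (Fin n → ℂ) => K.g x.1 x.2 x.2)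
    (M ×ˢ univ) := by
  refine ContinuousOn.congr (f := fun x : (Fin n → ℂ) × (Fin n → ℂ) =>
    ∑ i, ∑ j, (bs n).repr x.2 i * (bs n).repr x.2 j * K.g x.1 (bs n i) (bs n j)) ?_
    fun x hx => g_expand K hx.1 _ _
  refine continuousOn_finsetSum _ fun i _ => continuousOn_finsetSum _ fun j _ => ?_
  refine (((coord_cont i).comp continuous_snd).mul
    ((coord_cont j).comp continuous_snd)).continuousOn.mul ?_
  exact (K.smooth _ _).continuousOn.comp continuous_fst.continuousOn fun x hx => hx.1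

lemma g_lower {A : Set (Fin n → ℂ)} (hA : IsCompact A) (hAM : A ⊆ M) :
    ∃ m > 0, ∀ p ∈ A, ∀ v, m * ‖v‖ ^ 2 ≤ K.g p v v := by
  obtain ⟨m, hm, h⟩ := (hA.prod (isCompact_sphere (0 : Fin n → ℂ) 1)).exists_forall_le'
    ((g_contOn K).mono (prod_mono hAM (subset_univ _))) (a := 0) fun x hx =>
      K.pos _ (hAM hx.1) _ fun h0 => by
        have := hx.2
        rw [h0] at this
        simp at this
  refine ⟨m, hm, fun p hp v => ?_⟩
  by_cases hv : v = 0
  · have := K.smul p (hAM hp) 0 v v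
    rw [zero_smul, zero_mul] at this
    rw [hv] at this ⊢
    simp [this]
  · have hn : 0 < ‖v‖ := norm_pos_iff.mpr hv
    have h1 := h (p, ‖v‖⁻¹ • v) ⟨hp, by
      simp [norm_smul, inv_mul_cancel₀ hn.ne']⟩
    simp only at h1
    rw [K.smul p (hAM hp), K.symm p (hAM hp), K.smul p (hAM hp)] at h1
    have h2 := mul_le_mul_of_nonneg_right h1 (sq_nonneg ‖v‖)
    refine h2.trans (le_of_eq ?_)
    field_simp

lemma energy (hM : IsOpen M) {γ γ' : ℝ → Fin n → ℂ} {t : ℝ} (hp : γ t ∈ M)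
    (h1 : HasDerivAt γ (γ' t) t) (h2 : HasDerivAt γ' (-K.Γ (γ t) (γ' t) (γ' t)) t) :
    HasDerivAt (fun s => K.g (γ s) (γ' s) (γ' s)) 0 t := by
  obtain ⟨a, ha⟩ : ∃ a, a = -K.Γ (γ t) (γ' t) (γ' t) := ⟨_, rfl⟩
  rw [← ha] at h2
  have hc : ∀ i, HasDerivAt (fun s => (bs n).repr (γ' s) i) ((bs n).repr a i) t := fun i =>
    (LinearMap.toContinuousLinearMap ((bs n).coord i)).hasFDerivAt.comp_hasDerivAt t h2
  have hg : ∀ i j, HasDerivAt (fun s => K.g (γ s) (bs n i) (bs n j))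
      (fderiv ℝ (fun q => K.g q (bs n i) (bs n j)) (γ t) (γ' t)) t := fun i j =>
    (g_diff K hM hp _ _).hasFDerivAt.comp_hasDerivAt t h1
  have h3 := HasDerivAt.fun_sum (u := Finset.univ) fun i _ =>
    HasDerivAt.fun_sum (u := Finset.univ) fun j _ => ((hc i).fun_mul (hc j)).fun_mul (hg i j)
  have h4 : HasFDerivAt (fun q => K.g q (γ' t) (γ' t)) (∑ i, ∑ j,
      ((bs n).repr (γ' t) i * (bs n).repr (γ' t) j) •
        fderiv ℝ (fun q => K.g q (bs n i) (bs n j)) (γ t)) (γ t) := by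
    refine (HasFDerivAt.fun_sum (u := Finset.univ) fun i _ =>
      HasFDerivAt.fun_sum (u := Finset.univ) fun j _ =>
        (g_diff K hM hp (bs n i) (bs n j)).hasFDerivAt.const_mul
          ((bs n).repr (γ' t) i * (bs n).repr (γ' t) j)).congr_of_eventuallyEq ?_
    filter_upwards [hM.mem_nhds hp] with q hq
    exact g_expand K hq _ _
  have h5 : K.g (γ t) a (γ' t) = -(fderiv ℝ (fun q => K.g q (γ' t) (γ' t)) (γ t) (γ' t) / 2) := by
    rw [ha, ← neg_one_smul ℝ, K.smul _ hp, K.koszul _ hp]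
    ring
  have h6 : K.g (γ t) a (γ' t) + K.g (γ t) (γ' t) a +
      fderiv ℝ (fun q => K.g q (γ' t) (γ' t)) (γ t) (γ' t) = 0 := by
    rw [K.symm _ hp (γ' t) a, h5]; ring
  refine (h3.congr_deriv ?_).congr_of_eventuallyEq ?_
  · rw [← h6, h4.fderiv, g_expand K hp a, g_expand K hp (γ' t) a]
    simp only [_root_.sum_apply, _root_.smul_apply, smul_eq_mul,
      ← Finset.sum_add_distrib]
    exact Finset.sum_congr rfl fun i _ => Finset.sum_congr rfl fun j _ => by ring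
  · filter_upwards [h1.continuousAt (hM.mem_nhds hp)] with s hs
    exact g_expand K hs _ _

end CompleteAux

open CompleteAux

theorem KahlerMetric.complete_of_exhaustion {n : ℕ} {M : Set (Fin n → ℂ)} (hM : IsOpen M)
    (K : KahlerMetric M)
    (hΓ : ContDiffOn ℝ 1 (fun x : (Fin n → ℂ) × (Fin n → ℂ) => K.Γ x.1 x.2 x.2) (M ×ˢ Set.univ))
    {u : (Fin n → ℂ) → ℝ} {C : ℝ} (hu : DifferentiableOn ℝ u M)
    (hC : ∀ p ∈ M, ∀ X, fderiv ℝ u p X ^ 2 ≤ C * K.g p X X)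
    (hc : ∀ c, IsCompact {p | p ∈ M ∧ u p ≤ c}) : K.Complete := by
  intro p hp v
  have hV : ContDiffOn ℝ 1 (fun x : (Fin n → ℂ) × (Fin n → ℂ) => (x.2, -K.Γ x.1 x.2 x.2))
      (M ×ˢ Set.univ) := contDiffOn_snd.prodMk hΓ.neg
  obtain ⟨x, hx0, hx⟩ := global_of_apriori (x₀ := (p, v)) (hM.prod isOpen_univ) hV fun T hT => by
    obtain ⟨m, hm, hlow⟩ := g_lower K (hc (u p + √(C * K.g p v v) * T)) fun q hq => hq.1
    have hb : ∀ q ∈ {q | q ∈ M ∧ u q ≤ u p + √(C * K.g p v v) * T}, ∀ w,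
        K.g q w w = K.g p v v → w ∈ closedBall (0 : Fin n → ℂ) √(K.g p v v / m) := by
      intro q hq w hw
      rw [mem_closedBall_zero_iff]
      refine Real.le_sqrt_of_sq_le ?_
      rw [le_div_iff₀ hm, ← hw, mul_comm]
      exact hlow q hq w
    have hp' : p ∈ {q | q ∈ M ∧ u q ≤ u p + √(C * K.g p v v) * T} :=
      ⟨hp, le_add_of_nonneg_right (by positivity)⟩
    refine ⟨_, (hc (u p + √(C * K.g p v v) * T)).prod
      (isCompact_closedBall (0 : Fin n → ℂ) √(K.g p v v / m)),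
      prod_mono (fun q hq => hq.1) (subset_univ _), ⟨hp', hb p hp' v rfl⟩, fun x t ht h0 hs => ?_⟩
    have h1 : ∀ s ∈ uIcc 0 t, HasDerivAt (fun s => (x s).1) (x s).2 s := fun s hs' =>
      (hs s hs').2.fst
    have h2 : ∀ s ∈ uIcc 0 t, HasDerivAt (fun s => (x s).2) (-K.Γ (x s).1 (x s).2 (x s).2) s :=
      fun s hs' => (hs s hs').2.snd
    have h3 : ∀ s ∈ uIcc 0 t, K.g (x s).1 (x s).2 (x s).2 = K.g p v v := by
      intro s hs'
      have := (convex_uIcc 0 t).norm_image_sub_le_of_norm_hasDerivWithin_le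
        (f := fun s => K.g (x s).1 (x s).2 (x s).2) (f' := fun _ => 0) (C := 0)
        (fun r hr => (energy K hM (γ := fun s => (x s).1) (γ' := fun s => (x s).2)
          (hs r hr).1.1 (h1 r hr) (h2 r hr)).hasDerivWithinAt) (fun _ _ => by simp)
        left_mem_uIcc hs'
      rw [zero_mul, norm_le_zero_iff, sub_eq_zero, h0] at this
      exact this
    have h4 := (convex_uIcc 0 t).norm_image_sub_le_of_norm_hasDerivWithin_le
      (f := fun s => u (x s).1) (f' := fun s => fderiv ℝ u (x s).1 (x s).2)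
      (C := √(C * K.g p v v))
      (fun r hr => ((hu.differentiableAt (hM.mem_nhds (hs r hr).1.1)).hasFDerivAt.comp_hasDerivAt
        r (h1 r hr)).hasDerivWithinAt)
      (fun r hr => Real.abs_le_sqrt (by rw [← h3 r hr]; exact hC _ (hs r hr).1.1 _))
      left_mem_uIcc right_mem_uIcc
    have hq : (x t).1 ∈ {q | q ∈ M ∧ u q ≤ u p + √(C * K.g p v v) * T} := by
      refine ⟨(hs t right_mem_uIcc).1.1, ?_⟩
      rw [h0, sub_zero, Real.norm_eq_abs, Real.norm_eq_abs] at h4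
      have h5 := mul_le_mul_of_nonneg_left ht (Real.sqrt_nonneg (C * K.g p v v))
      have h6 := le_abs_self (u (x t).1 - u p)
      linarith
    exact ⟨hq, hb _ hq _ (h3 t right_mem_uIcc)⟩
  exact ⟨fun t => (x t).1, fun t => (x t).2, congrArg Prod.fst hx0, congrArg Prod.snd hx0,
    fun t => ⟨(hx t).1.1, (hx t).2.fst, (hx t).2.snd⟩⟩

end Vale.Agent.P250
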