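import Vale.Agent.P250.Defs
import Vale.Agent.P250.Calc

/-!
The Kähler metric attached to a Hermitian form with symmetric first derivatives.

`T X Z Y = d Z (h · X Y)` is bilinear symmetric in `X, Z`, antilinear in `Y`, and `Γ p X Z` is the
vector representing `T X Z ·`. Koszul and closedness: `fderiv = d + db`. Curvature: differentiate
`h (Γ Y Z) W = T Y Z W`; the purely holomorphic terms cancel by `d_d`.
-/

namespace Vale.Agent.P250

open scoped ContDiff ComplexConjugate
open Complex Filter Topology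

/-- The standard basis. -/
def bv (i : Fin 3) : E := Pi.single i 1

theorem eq_sum_bv (X : E) : X = X 0 • bv 0 + X 1 • bv 1 + X 2 • bv 2 := by
  ext i; fin_cases i <;> simp [bv]

namespace Herm

variable {B : E → E → ℂ}

theorem addr (hB : Herm B) (x y z : E) : B x (y + z) = B x y + B x z := by
  rw [hB.cj (y + z) x, hB.add, map_add, ← hB.cj, ← hB.cj]

theorem smulr (hB : Herm B) (c : ℂ) (x z : E) : B x (c • z) = conj c * B x z := by
  rw [hB.cj (c • z) x, hB.smul, map_mul, ← hB.cj]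

theorem subl (hB : Herm B) (x y z : E) : B (x - y) z = B x z - B y z := by
  rw [sub_eq_add_neg, hB.add, ← neg_one_smul ℂ y, hB.smul]; ring

theorem left (hB : Herm B) (x z : E) : B x z = ∑ i, x i * B (bv i) z := by
  conv_lhs => rw [eq_sum_bv x]
  simp only [hB.add, hB.smul, Fin.sum_univ_three]

theorem right (hB : Herm B) (x z : E) : B x z = ∑ i, conj (z i) * B x (bv i) := by
  conv_lhs => rw [eq_sum_bv z]
  simp only [hB.addr, hB.smulr, Fin.sum_univ_three]

end Herm

/-- The endomorphism attached to a form. -/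
noncomputable def op (B : E → E → ℂ) : E →L[ℂ] E :=
  ∑ i, ∑ j, B (bv i) (bv j) •
    (ContinuousLinearMap.proj (R := ℂ) (φ := fun _ : Fin 3 => ℂ) i).smulRight (bv j)

theorem op_apply {B : E → E → ℂ} (hB : Herm B) (v : E) (j : Fin 3) : op B v j = B v (bv j) := by
  rw [hB.left v]
  fin_cases j <;> simp [op, bv, Fin.sum_univ_three, mul_comm]

theorem op_inv {B : E → E → ℂ} (hB : Herm B) (hpos : ∀ X, X ≠ 0 → 0 < (B X X).re) :
    (op B).IsInvertible := by
  have hi : Function.Injective (op B : E →ₗ[ℂ] E) := by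
    rw [injective_iff_map_eq_zero]
    intro v hv
    by_contra h0
    have h1 := hpos v h0
    have h2 : ∀ j, B v (bv j) = 0 := fun j => by
      rw [← op_apply hB]; exact congrFun hv j
    rw [hB.right v v] at h1
    simp [h2] at h1
  exact ⟨(LinearEquiv.ofInjectiveEndo _ hi).toContinuousLinearEquiv, by ext; rfl⟩

theorem op_solve {B : E → E → ℂ} (hB : Herm B) (hpos : ∀ X, X ≠ 0 → 0 < (B X X).re) (u y : E) :
    B ((op B).inverse u) y = ∑ j, conj (y j) * u j := by
  rw [hB.right]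
  refine Finset.sum_congr rfl fun j _ => ?_
  rw [← op_apply hB, (op_inv hB hpos).self_apply_inverse]

theorem Herm.solve {B : E → E → ℂ} (hB : Herm B) (hpos : ∀ X, X ≠ 0 → 0 < (B X X).re)
    {f : E → ℂ} (h1 : ∀ x y, f (x + y) = f x + f y) (h2 : ∀ (c : ℂ) x, f (c • x) = conj c * f x) :
    ∃ v, ∀ y, B v y = f y := by
  refine ⟨(op B).inverse fun j => f (bv j), fun y => ?_⟩
  rw [op_solve hB hpos]
  conv_rhs => rw [eq_sum_bv y]
  simp only [h1, h2, Fin.sum_univ_three]

theorem d_left (Z : E) (f : E → ℂ) (p : E) : d Z f p = ∑ i, Z i * d (bv i) f p := by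
  conv_lhs => rw [eq_sum_bv Z]
  simp only [d_addv, d_smulv, Fin.sum_univ_three]

theorem fderiv_re {f : E → ℂ} {p : E} (hf : DifferentiableAt ℝ f p) (X : E) :
    fderiv ℝ (fun q => (f q).re) p X = (fderiv ℝ f p X).re := by
  have := (reCLM.hasFDerivAt.comp p hf.hasFDerivAt).fderiv
  exact congrArg (fun L : E →L[ℝ] ℝ => L X) this

/-- The Christoffel map. -/
noncomputable def Gam (h : E → E → E → ℂ) (p X Z : E) : E :=
  (op (h p)).inverse fun j => ∑ a, ∑ b, X a * Z b * d (bv b) (fun q => h q (bv a) (bv j)) p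

/-- The data of a Kähler form. -/
structure KData (M : Set E) (h : E → E → E → ℂ) : Prop where
  hM : IsOpen M
  hh : ∀ p ∈ M, Herm (h p)
  hs : ∀ X Y, ContDiffOn ℝ ∞ (fun p => h p X Y) M
  hpos : ∀ p ∈ M, ∀ X, X ≠ 0 → 0 < (h p X X).re
  hk : ∀ p ∈ M, ∀ X Z Y, d Z (fun q => h q X Y) p = d X (fun q => h q Z Y) p

namespace KData

variable {M : Set E} {h : E → E → E → ℂ} (D : KData M h) {p : E} (hp : p ∈ M)
include D hp

theorem cd (X Y : E) : ContDiffAt ℝ ∞ (fun q => h q X Y) p :=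
  (D.hs X Y).contDiffAt (D.hM.mem_nhds hp)

theorem fd_left (A W X : E) : fderiv ℝ (fun q => h q A W) p X =
    ∑ i, A i * fderiv ℝ (fun q => h q (bv i) W) p X := by
  rw [(congr_on D.hM (fun q hq => (D.hh q hq).left A W) hp).fderiv_eq]
  have := HasFDerivAt.fun_sum (u := Finset.univ) fun i _ =>
    (cd_diff (D.cd hp (bv i) W)).hasFDerivAt.const_mul (A i)
  rw [this.fderiv]
  simp

theorem fd_right (A W X : E) : fderiv ℝ (fun q => h q A W) p X =
    ∑ i, conj (W i) * fderiv ℝ (fun q => h q A (bv i)) p X := by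
  rw [(congr_on D.hM (fun q hq => (D.hh q hq).right A W) hp).fderiv_eq]
  have := HasFDerivAt.fun_sum (u := Finset.univ) fun i _ =>
    (cd_diff (D.cd hp A (bv i))).hasFDerivAt.const_mul (conj (W i))
  rw [this.fderiv]
  simp

theorem T_left (A W X : E) : d X (fun q => h q A W) p =
    ∑ i, A i * d X (fun q => h q (bv i) W) p := by
  simp only [d, D.fd_left hp A, Fin.sum_univ_three]; ring

theorem T_right (A W X : E) : d X (fun q => h q A W) p =
    ∑ i, conj (W i) * d X (fun q => h q A (bv i)) p := by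
  simp only [d, D.fd_right hp A W, Fin.sum_univ_three]; ring

theorem gam_eq (X Z Y : E) : h p (Gam h p X Z) Y = d Z (fun q => h q X Y) p := by
  rw [Gam, op_solve (D.hh p hp) (D.hpos p hp), D.T_right hp]
  refine Finset.sum_congr rfl fun j _ => ?_
  rw [D.T_left hp X]
  congr 1
  refine Finset.sum_congr rfl fun a _ => ?_
  rw [d_left Z, Finset.mul_sum]
  exact Finset.sum_congr rfl fun b _ => mul_assoc _ _ _

theorem fd_eq (X A W : E) : fderiv ℝ (fun q => h q A W) p X =
    d X (fun q => h q A W) p + conj (d X (fun q => h q W A) p) := by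
  rw [d_add_db, ← db_conj, db_congr (congr_on D.hM (fun q hq => (D.hh q hq).cj W A) hp)]

theorem T_I (X A W : E) : d X (fun q => h q (I • A) W) p = I * d X (fun q => h q A W) p := by
  rw [D.T_left hp, D.T_left hp A, Finset.mul_sum]
  exact Finset.sum_congr rfl fun b _ => mul_assoc _ _ _

theorem T_I' (X A W : E) : d X (fun q => h q A (I • W)) p = -I * d X (fun q => h q A W) p := by
  rw [D.T_right hp, D.T_right hp A W, Finset.mul_sum]
  refine Finset.sum_congr rfl fun b _ => ?_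
  simp [mul_assoc]

theorem cd_inv : ContDiffAt ℝ ∞ (fun q => (op (h q)).inverse) p := by
  have h1 : ContDiffAt ℝ ∞ (fun q => op (h q)) p :=
    ContDiffAt.sum fun i _ => ContDiffAt.sum fun j _ => (D.cd hp _ _).smul contDiffAt_const
  exact ((op_inv (D.hh p hp) (D.hpos p hp)).contDiffAt_map_inverse.restrict_scalars ℝ).comp p h1

theorem cd_gam (x : E × E) : ContDiffAt ℝ ∞ (fun y : E × E × E => Gam h y.1 y.2.1 y.2.2) (p, x) := by
  have h1 : ContDiffAt ℝ ∞ (fun y : E × E × E => (op (h y.1)).inverse) (p, x) :=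
    ContDiffAt.comp (g := fun q => (op (h q)).inverse) (p, x) (D.cd_inv hp) contDiffAt_fst
  have h2 : ContDiffAt ℝ ∞ (fun y : E × E × E =>
      ((op (h y.1)).inverse.restrictScalars ℝ : E →L[ℝ] E)) (p, x) :=
    (ContinuousLinearMap.restrictScalarsL ℂ E E ℝ ℝ).contDiff.contDiffAt.comp (p, x) h1
  refine h2.clm_apply (contDiffAt_pi.2 fun j => ContDiffAt.sum fun a _ => ContDiffAt.sum fun b _ =>
    ContDiffAt.mul (by fun_prop) ?_)
  exact ContDiffAt.comp (g := d (bv b) fun q => h q (bv a) (bv j)) (p, x) (cd_d (D.cd hp _ _) _)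
    contDiffAt_fst

theorem diff_gam (X Z : E) : DifferentiableAt ℝ (fun q => Gam h q X Z) p := by
  have := (D.cd_gam hp (X, Z)).comp (f := fun q : E => (q, (X, Z))) p (by fun_prop)
  exact this.differentiableAt (by simp)

theorem fd_gam (X Y Z W : E) : h p (fderiv ℝ (fun q => Gam h q Y Z) p X) W +
    h p (Gam h p X (Gam h p Y Z)) W = fderiv ℝ (d Z fun q => h q Y W) p X -
      h p (Gam h p Y Z) (Gam h p W X) := by
  have e : (d Z fun q => h q Y W) =ᶠ[𝓝 p] fun q => ∑ i, Gam h q Y Z i * h q (bv i) W :=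
    congr_on D.hM (fun q hq => by rw [← D.gam_eq hq, (D.hh q hq).left]) hp
  have h1 := HasFDerivAt.fun_sum (u := Finset.univ) fun i _ =>
    (hasFDerivAt_pi'.1 (D.diff_gam hp Y Z).hasFDerivAt i).fun_mul
      (cd_diff (D.cd hp (bv i) W)).hasFDerivAt
  have h2 := D.fd_left hp (Gam h p Y Z) W X
  rw [D.fd_eq hp, D.hk p hp, ← D.gam_eq hp, ← D.gam_eq hp W, ← (D.hh p hp).cj] at h2
  rw [e.fderiv_eq, h1.fderiv, (D.hh p hp).left (fderiv ℝ (fun q => Gam h q Y Z) p X)]
  simp only [Fin.sum_univ_three] at h2 ⊢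
  simp
  linear_combination h2

end KData

theorem exists_kahler {M : Set E} (hM : IsOpen M) {h : E → E → E → ℂ} (hh : ∀ p ∈ M, Herm (h p))
    (hs : ∀ X Y, ContDiffOn ℝ ∞ (fun p => h p X Y) M)
    (hpos : ∀ p ∈ M, ∀ X, X ≠ 0 → 0 < (h p X X).re)
    (hk : ∀ p ∈ M, ∀ X Z Y, d Z (fun q => h q X Y) p = d X (fun q => h q Z Y) p) :
    ∃ K : KahlerMetric M, (∀ p X Y, K.g p X Y = (h p X Y).re) ∧
      (∀ p ∈ M, ∀ X Z Y, h p (K.Γ p X Z) Y = d Z (fun q => h q X Y) p) ∧
      ContDiffOn ℝ 1 (fun x : E × E => K.Γ x.1 x.2 x.2) (M ×ˢ Set.univ) ∧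
      ∀ p ∈ M, ∀ X Y, K.g p (K.riem p X Y Y) X =
        (db X (d Y fun q => h q Y X) p - h p (K.Γ p Y Y) (K.Γ p X X)).re -
        (db Y (d Y fun q => h q X X) p - h p (K.Γ p X Y) (K.Γ p X Y)).re := by
  have D : KData M h := ⟨hM, hh, hs, hpos, hk⟩
  have fd : ∀ p ∈ M, ∀ X A W, fderiv ℝ (fun q => (h q A W).re) p X =
      (d X (fun q => h q A W) p).re + (d X (fun q => h q W A) p).re := fun p hp X A W => by
    rw [fderiv_re (cd_diff (D.cd hp A W)), D.fd_eq hp, add_re, conj_re]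
  refine ⟨⟨fun p X Y => (h p X Y).re, Gam h, fun X Y => reCLM.contDiff.comp_contDiffOn (hs X Y),
    fun p hp X Y Z => ?_, fun p hp c X Y => ?_, fun p hp X Y => ?_, hpos, fun p hp X Y => ?_,
    fun p hp X Y Z => ?_, fun p hp X Y Z => ?_⟩, fun _ _ _ => rfl,
    fun p hp => D.gam_eq hp, fun x hx => ?_, fun p hp X Y => ?_⟩
  · rw [(hh p hp).add, add_re]
  · rw [← Complex.coe_smul, (hh p hp).smul, re_ofReal_mul]
  · rw [(hh p hp).cj, conj_re]
  · rw [(hh p hp).smul, (hh p hp).smulr]; simp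
  · simp only [fd p hp, D.T_I hp, D.T_I' hp]
    rw [hk p hp Y X Z, hk p hp Z X Y, hk p hp Z Y X]
    simp
    ring
  · simp only [fd p hp, D.gam_eq hp]
    rw [hk p hp Y X Z, hk p hp Z X Y, hk p hp Z Y X]
    ring
  · have := (D.cd_gam hx.1 (x.2, x.2)).comp (f := fun y : E × E => (y.1, (y.2, y.2))) x
      (by fun_prop)
    exact (this.of_le (by simp)).contDiffWithinAt
  · have h1 := D.fd_gam hp X Y Y X
    have h2 := D.fd_gam hp Y X Y X
    have h3 : d X (d Y fun q => h q Y X) p = d Y (d Y fun q => h q X X) p := by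
      rw [d_d (D.cd hp Y X)]
      exact d_congr (congr_on hM (fun q hq => hk q hq Y X X) hp) Y
    rw [d_add_db (f := d _ _)] at h1 h2
    simp only [KahlerMetric.riem]
    rw [(hh p hp).subl, (hh p hp).add, (hh p hp).subl, ← sub_re]
    congr 1
    linear_combination h1 - h2 + h3

end Vale.Agent.P250
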