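import Vale.Agent.P250.Jets
import Vale.Agent.P250.Alg
import Vale.Agent.P250.Kahler

/-!
The curvature of the Calabi ansatz metric.
-/

namespace Vale.Agent.P250

open scoped ContDiff ComplexConjugate
open Complex Filter Topology

/-- `e^Φ`. -/
noncomputable def ee (Ψ : E → ℝ) (q : E) : ℂ := cexp (Pc Ψ q)

/-- `1 / σ`. -/
noncomputable def si (Ψ : E → ℝ) (q : E) : ℂ := (sig Ψ q : ℂ)⁻¹

/-- The connection form. -/
noncomputable def nn (Ψ : E → ℝ) (q X : E) : ℂ := X 2 + q 2 * d X (Pc Ψ) q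

/-- The vertical Christoffel symbols. -/
noncomputable def bb (Ψ : E → ℝ) (q X Z : E) : ℂ :=
  d Z (Pc Ψ) q * nn Ψ q X + Z 2 * d X (Pc Ψ) q + q 2 * d X (d Z (Pc Ψ)) q +
    2 * (ee Ψ q * si Ψ q * conj (q 2) * (nn Ψ q X * nn Ψ q Z))

/-- The first derivatives of the metric. -/
noncomputable def TT (A : ℝ) (Ψ : E → ℝ) (q X Z Y : E) : ℂ :=
  A * om q (GG q X Z) Y + (si Ψ q - 1) * PP Ψ q X Z Y +
    ee Ψ q * (si Ψ q * si Ψ q) * conj (q 2) * (nn Ψ q Z * HH Ψ q X Y + nn Ψ q X * HH Ψ q Z Y) +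
    ee Ψ q * (si Ψ q * si Ψ q) * conj (nn Ψ q Y) * bb Ψ q X Z

variable {Ψ : E → ℝ} {C : ℝ}

theorem cj_half (q : E) : conj (cexp (Pc Ψ q / 2)) = cexp (Pc Ψ q / 2) := by
  rw [← exp_conj, map_div₀, Pc, conj_ofReal, map_ofNat]

theorem ee_half (q : E) : ee Ψ q = cexp (Pc Ψ q / 2) * cexp (Pc Ψ q / 2) := by
  rw [← Complex.exp_add, add_halves, ee]

theorem cj_ee (q : E) : conj (ee Ψ q) = ee Ψ q := by rw [ee_half, map_mul, cj_half]

theorem cj_si (q : E) : conj (si Ψ q) = si Ψ q := by rw [si, map_inv₀, conj_ofReal]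

theorem sig_eq (q : E) : (sig Ψ q : ℂ) = 1 - q 2 * conj (q 2) * ee Ψ q := by
  rw [sig, mul_conj, normSq_eq_norm_sq, ee, Pc]; push_cast; rfl

theorem sig_ne {q : E} (hq : q ∈ MM Ψ) : (sig Ψ q : ℂ) ≠ 0 := ofReal_ne_zero.2 (mem_MM.1 hq).2.ne'

theorem si_sub {q : E} (hq : q ∈ MM Ψ) : si Ψ q - 1 = q 2 * conj (q 2) * ee Ψ q * si Ψ q := by
  have := sig_ne hq
  rw [si]
  field_simp
  rw [sig_eq]; ring

theorem aa_eq {q : E} (hq : q ∈ MM Ψ) : (aa Ψ q : ℂ) = si Ψ q - 1 := by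
  rw [si_sub hq, aa, mul_conj, normSq_eq_norm_sq, ee, Pc, si]; push_cast; ring

theorem mm_eq (q X : E) : mm Ψ q X = cexp (Pc Ψ q / 2) * si Ψ q * nn Ψ q X := by
  rw [mm, si, nn]; ring

theorem hm_eq (A : ℝ) {q : E} (hq : q ∈ MM Ψ) (X Y : E) : hm A Ψ q X Y = A * om q X Y +
    (si Ψ q - 1) * HH Ψ q X Y + ee Ψ q * (si Ψ q * si Ψ q) * (nn Ψ q X * conj (nn Ψ q Y)) := by
  rw [hm, aa_eq hq, mm_eq, mm_eq, map_mul, map_mul, cj_half, cj_si, ee_half]; ring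

namespace Good

variable (h : Good Ψ C) {p : E} (hp : p ∈ MM Ψ)
include h hp

theorem hw_ee : HW (ee Ψ) p (fun X => ee Ψ p * d X (Pc Ψ) p)
    fun X => ee Ψ p * conj (d X (Pc Ψ) p) :=
  (hw_self (cd_diff (h.cd_Pc hp.1))).exp.congr (fun _ => rfl) fun X => by rw [db_Pc]; rfl

theorem hw_nn (X : E) : HW (fun q => nn Ψ q X) p
    (fun Z => Z 2 * d X (Pc Ψ) p + p 2 * d X (d Z (Pc Ψ)) p) fun W => p 2 * HH Ψ p X W :=
  ((hw_const _ p).add ((hw_coord 2 p).mul (h.hw_phi hp.1 X))).congr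
    (fun Z => by rw [d_d (h.cd_Pc hp.1) Z X]; ring) fun W => by ring

theorem hw_si : HW (si Ψ) p (fun Z => si Ψ p * si Ψ p * ee Ψ p * conj (p 2) * nn Ψ p Z)
    fun W => si Ψ p * si Ψ p * ee Ψ p * p 2 * conj (nn Ψ p W) := by
  have h1 := ((hw_const 1 p).sub (((hw_coord 2 p).mul (hw_coord 2 p).cj).mul
    (h.hw_ee hp))).of_eq (g := fun q => (sig Ψ q : ℂ)) (Eventually.of_forall sig_eq)
  refine (h1.inv (sig_ne hp)).congr (fun Z => ?_) fun W => ?_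
  · simp [si, nn]; ring
  · simp [si, nn]; ring

theorem d_hm (A : ℝ) (X Z Y : E) : d Z (fun q => hm A Ψ q X Y) p = TT A Ψ p X Z Y := by
  rw [d_congr (congr_on h.isOpen_MM (fun q hq => hm_eq A hq X Y) hp),
    ((((hw_om hp.1 X Y).cmul A).add (((h.hw_si hp).sub (hw_const 1 p)).mul (h.hw_HH hp.1 X Y))).add
    (((h.hw_ee hp).mul ((h.hw_si hp).mul (h.hw_si hp))).mul
    ((h.hw_nn hp X).mul (h.hw_nn hp Y).cj))).d_eq]
  simp only [TT, bb, map_mul, ← (h.herm_HH hp.1).cj]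
  ring

theorem TT_symm (A : ℝ) (X Z Y : E) : TT A Ψ p X Z Y = TT A Ψ p Z X Y := by
  simp only [TT, bb, om_GG, nn, h.PP_symm hp.1 X Z, d_d (h.cd_Pc hp.1) X Z]
  ring

theorem db_TT (A : ℝ) (X Z Y W : E) : db W (fun q => TT A Ψ q X Z Y) p =
    A * (om p X Y * om p Z W + om p X W * om p Z Y + om p (GG p X Z) (GG p Y W)) +
    (si Ψ p - 1) * YY Ψ p X Z Y W +
    (si Ψ p - 1) * si Ψ p * (HH Ψ p X Y * HH Ψ p Z W + HH Ψ p X W * HH Ψ p Z Y) +
    (2 * si Ψ p - 1) * (ee Ψ p * si Ψ p ^ 2) *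
      (conj (nn Ψ p W) * (nn Ψ p Z * HH Ψ p X Y + nn Ψ p X * HH Ψ p Z Y) +
      conj (nn Ψ p Y) * (nn Ψ p Z * HH Ψ p X W + nn Ψ p X * HH Ψ p Z W)) +
    2 * (ee Ψ p * si Ψ p ^ 2) ^ 2 * (nn Ψ p X * nn Ψ p Z * conj (nn Ψ p Y) * conj (nn Ψ p W)) +
    ee Ψ p * si Ψ p ^ 2 * (conj (p 2) * (nn Ψ p Z * conj (PP Ψ p Y W X) +
      nn Ψ p X * conj (PP Ψ p Y W Z)) +
      p 2 * (conj (nn Ψ p W) * PP Ψ p X Z Y + conj (nn Ψ p Y) * PP Ψ p X Z W)) +
    ee Ψ p * si Ψ p ^ 2 * (bb Ψ p X Z * conj (bb Ψ p Y W)) := by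
  obtain ⟨L1, h1⟩ := hw_omG hp.1 X Z Y
  obtain ⟨L2, h2⟩ := h.hw_PP hp.1 X Z Y
  obtain ⟨L3, h3⟩ := h.hw_F2 hp.1 X Z
  have e := h.hw_ee hp
  have s := h.hw_si hp
  have w := hw_coord 2 p
  have n := h.hw_nn hp
  have hb := ((((h.hw_phi hp.1 Z).mul (n X)).add ((h.hw_phi hp.1 X).cmul (Z 2))).add
    (w.mul h3)).add ((((e.mul s).mul w.cj).mul ((n X).mul (n Z))).cmul 2)
  have hT := (((h1.cmul A).add ((s.sub (hw_const 1 p)).mul h2)).add
    (((e.mul (s.mul s)).mul w.cj).mul (((n Z).mul (h.hw_HH hp.1 X Y)).add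
      ((n X).mul (h.hw_HH hp.1 Z Y))))).add (((e.mul (s.mul s)).mul (n Y).cj).mul hb)
  refine (hT.db_eq W).trans ?_
  have k := si_sub hp
  have k0 : (si Ψ p - 1) * si Ψ p = p 2 * conj (p 2) * ee Ψ p * si Ψ p * si Ψ p := by rw [k]
  have k1 : 2 * si Ψ p - 1 = 1 + 2 * (p 2 * conj (p 2) * ee Ψ p * si Ψ p) := by
    linear_combination 2 * k
  have k4 : 2 * (ee Ψ p * si Ψ p ^ 2) ^ 2 =
      2 * ee Ψ p ^ 2 * si Ψ p ^ 3 * (1 + p 2 * conj (p 2) * ee Ψ p * si Ψ p) := by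
    linear_combination 2 * ee Ψ p ^ 2 * si Ψ p ^ 3 * k
  rw [k0, k1, k4]
  have k2 : conj (W 2) = conj (nn Ψ p W) - conj (p 2) * conj (d W (Pc Ψ) p) := by simp [nn]
  have k3 : Z 2 = nn Ψ p Z - p 2 * d Z (Pc Ψ) p := by simp [nn]
  simp only [bb, map_mul, map_add, cj_ee, cj_si, conj_conj, map_ofNat, k2]
  rw [k3]
  ring

theorem cd_hm (A : ℝ) (X Y : E) : ContDiffAt ℝ ∞ (fun q => hm A Ψ q X Y) p := by
  have hc : ∀ i, ContDiffAt ℝ ∞ (fun q : E => q i) p := fun i => (contDiff_apply ℝ ℂ i).contDiffAt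
  have ht : ContDiffAt ℝ ∞ (fun q => (tR q : ℂ)) p :=
    ofRealCLM.contDiff.contDiffAt.comp p cd_tR.contDiffAt
  have htX : ∀ X, ContDiffAt ℝ ∞ (fun q => tX q X) p := fun X =>
    contDiffAt_const.sub ((cd_conj (hc 0)).mul contDiffAt_const)
  have ho : ContDiffAt ℝ ∞ (fun q => om q X Y) p := by
    simp only [om, div_eq_mul_inv]
    exact (contDiffAt_const.mul (ht.inv (t_ne hp.1))).add
      (((htX X).mul (cd_conj (htX Y))).mul ((ht.pow 2).inv (pow_ne_zero 2 (t_ne hp.1))))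
  have hs : ContDiffAt ℝ ∞ (si Ψ) p :=
    (ofRealCLM.contDiff.contDiffAt.comp p (h.cd_sig hp.1)).inv (sig_ne hp)
  have hn : ∀ X, ContDiffAt ℝ ∞ (fun q => nn Ψ q X) p := fun X =>
    contDiffAt_const.add ((hc 2).mul (cd_d (h.cd_Pc hp.1) X))
  have he : ContDiffAt ℝ ∞ (ee Ψ) p :=
    (Complex.contDiff_exp (𝕜 := ℝ)).contDiffAt.comp p (h.cd_Pc hp.1)
  refine ContDiffAt.congr_of_eventuallyEq ?_
    (congr_on h.isOpen_MM (fun q hq => hm_eq A hq X Y) hp)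
  exact ((contDiffAt_const.mul ho).add ((hs.sub contDiffAt_const).mul
    (cd_d (cd_db (h.cd_Pc hp.1) Y) X))).add ((he.mul (hs.mul hs)).mul ((hn X).mul (cd_conj (hn Y))))

end Good

theorem nu_nonneg (p X : E) : 0 ≤ nu p X := Real.sqrt_nonneg _

theorem omG_le {p : E} (hp : p ∈ BB) (X Z Y : E) :
    ‖om p (GG p X Z) Y‖ ≤ 2 * (nu p X * nu p Z * nu p Y) := by
  rw [om_GG]
  refine (norm_add_le _ _).trans ?_
  rw [norm_mul, norm_mul]
  have a1 := mul_le_mul (rr_le hp Z) (om_le hp X Y) (norm_nonneg _) (nu_nonneg _ _)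
  have a2 := mul_le_mul (rr_le hp X) (om_le hp Z Y) (norm_nonneg _) (nu_nonneg _ _)
  linarith

theorem omGG_le {p : E} (hp : p ∈ BB) (X Z Y W : E) :
    ‖om p (GG p X Z) (GG p Y W)‖ ≤ 4 * (nu p X * nu p Z * nu p Y * nu p W) := by
  rw [GG.eq_1 p Y W, (herm_om p).add', (herm_om p).smul', (herm_om p).smul']
  refine (norm_add_le _ _).trans ?_
  rw [norm_mul, norm_mul, norm_conj, norm_conj]
  have a1 := mul_le_mul (rr_le hp W) (omG_le hp X Z Y) (norm_nonneg _) (nu_nonneg _ _)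
  have a2 := mul_le_mul (rr_le hp Y) (omG_le hp X Z W) (norm_nonneg _) (nu_nonneg _ _)
  linarith

/-- The pointwise data at a point of the Hartogs domain. -/
noncomputable def Good.jet (h : Good Ψ C) {p : E} (hp : p ∈ MM Ψ) : Jet (|C| + 1) (|C| + 6) where
  om := om p
  H := HH Ψ p
  P := PP Ψ p
  Y := YY Ψ p
  r := rr p
  m := mm Ψ p
  a := aa Ψ p
  w := cexp (Pc Ψ p / 2) * p 2
  hom := herm_om p
  hH := h.herm_HH hp.1
  om_nonneg := om_nonneg hp.1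
  om_le x := by
    rw [h.HH_eq hp.1, add_re]
    linarith [h.psh p hp.1 x]
  H_le x := by
    have h1 := (re_le_norm _).trans (h.b2 p hp.1 x x)
    have h2 := om_nonneg hp.1 x
    rw [mul_assoc, nu, Real.mul_self_sqrt h2] at h1
    rw [h.HH_eq hp.1, add_re]
    nlinarith [le_abs_self C]
  P_symm := h.PP_symm hp.1
  P_add x x' z y := d_addv _ _ _ _
  P_smul c x z y := d_smulv _ _ _ _
  P_add' x z y y' := by simp only [← h.db_F2 hp.1, db_addv]
  P_smul' c x z y := by simp only [← h.db_F2 hp.1, db_smulv]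
  P_le x z y := by
    have h1 := h.b3 p hp.1 x z y
    have h2 := omG_le hp.1 z x y
    have h3 : 0 ≤ nu p x * nu p z * nu p y :=
      mul_nonneg (mul_nonneg (nu_nonneg _ _) (nu_nonneg _ _)) (nu_nonneg _ _)
    rw [h.PP_eq hp.1]
    refine (norm_add_le _ _).trans ?_
    change _ ≤ _ * nu p x * nu p z * nu p y
    nlinarith [le_abs_self C]
  Y_symm x z y v := d_d (cd_db (cd_db (h.cd_Pc hp.1) v) y) x z
  Y_cj := h.YY_cj hp.1
  Y_add x x' z y v := d_addv _ _ _ _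
  Y_smul c x z y v := d_smulv _ _ _ _
  Y_le x z y v := by
    have h1 := h.b4 p hp.1 x z y v
    have h2 := omGG_le hp.1 z x y v
    have h3 : 0 ≤ nu p x * nu p z * nu p y * nu p v := mul_nonneg
      (mul_nonneg (mul_nonneg (nu_nonneg _ _) (nu_nonneg _ _)) (nu_nonneg _ _)) (nu_nonneg _ _)
    have h4 := mul_le_mul (om_le hp.1 z y) (om_le hp.1 x v) (norm_nonneg _)
      (mul_nonneg (nu_nonneg _ _) (nu_nonneg _ _))
    have h5 := mul_le_mul (om_le hp.1 z v) (om_le hp.1 x y) (norm_nonneg _)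
      (mul_nonneg (nu_nonneg _ _) (nu_nonneg _ _))
    rw [h.YY_eq hp.1]
    refine (norm_add_le _ _).trans ((add_le_add_left norm_add₃_le _).trans ?_)
    rw [norm_mul, norm_mul]
    change _ ≤ _ * nu p x * nu p z * nu p y * nu p v
    nlinarith [le_abs_self C]
  r_add x y := by simp [rr, tX]; ring
  r_smul c x := by simp [rr, tX]; ring
  r_le := rr_le hp.1
  m_add x y := by simp only [mm, d_addv, Pi.add_apply]; ring
  m_smul c x := by simp only [mm, d_smulv, Pi.smul_apply, smul_eq_mul]; ring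
  a_nonneg := by
    have := (mem_MM.1 hp).2
    unfold aa; positivity
  w_sq := by
    have h1 := (mem_MM.1 hp).2.ne'
    have h2 : ‖cexp (Pc Ψ p / 2)‖ ^ 2 = Real.exp (Phi Ψ p) := by
      rw [norm_exp, ← Real.exp_nat_mul, Pc]
      congr 1
      simp
      ring
    rw [norm_mul, mul_pow, h2, aa]
    field_simp
    rw [sig]; ring

theorem sec_den {n : ℕ} {M : Set (Fin n → ℂ)} (K : KahlerMetric M) {p X Y : Fin n → ℂ}
    (hp : p ∈ M) (hl : LinearIndependent ℝ ![X, Y]) :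
    0 < K.g p X X * K.g p Y Y - K.g p X Y ^ 2 := by
  rw [LinearIndependent.pair_iff] at hl
  have hX : X ≠ 0 := fun h => by simpa [h] using hl 1 0
  have h1 := K.pos p hp X hX
  have h2 := K.pos p hp ((-K.g p X Y) • X + K.g p X X • Y) fun h => h1.ne' (hl _ _ h).2
  rw [K.add p hp, K.smul p hp, K.smul p hp, K.symm p hp X (_ + _), K.symm p hp Y (_ + _),
    K.add p hp, K.add p hp,
    K.smul p hp, K.smul p hp, K.smul p hp, K.smul p hp, K.symm p hp Y X] at h2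
  by_contra hc
  nlinarith [mul_nonneg h1.le (not_lt.1 hc |> neg_nonneg.2)]

theorem Good.exists_pinched (h : Good Ψ C) : ∃ K : KahlerMetric (MM Ψ), K.NegPinched ∧
    ContDiffOn ℝ 1 (fun x : E × E => K.Γ x.1 x.2 x.2) (MM Ψ ×ˢ Set.univ) ∧
    ∀ p ∈ MM Ψ, ∀ X, (om p X X).re + ‖mm Ψ p X‖ ^ 2 ≤ K.g p X X := by
  obtain ⟨A, c₁, c₂, hA, hc, hc', halg⟩ := alg_main (Λ := |C| + 1) (C := |C| + 6)
    (by linarith [abs_nonneg C]) (by linarith [abs_nonneg C])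
  have hh : ∀ p ∈ MM Ψ, Herm (hm A Ψ p) := fun p hp =>
    ⟨fun x y z => by
      simp only [hm, (herm_om p).add, (h.herm_HH hp.1).add]
      rw [show mm Ψ p (x + y) = _ from (h.jet hp).m_add x y]
      change _ + (mm Ψ p x + mm Ψ p y) * _ = _
      ring,
    fun c x z => by
      simp only [hm, (herm_om p).smul, (h.herm_HH hp.1).smul]
      rw [show mm Ψ p (c • x) = _ from (h.jet hp).m_smul c x]
      change _ + (c * mm Ψ p x) * _ = _
      ring,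
    fun x y => by
      simp only [hm, map_add, map_mul, conj_ofReal, conj_conj, ← (herm_om p).cj,
        ← (h.herm_HH hp.1).cj]
      ring⟩
  have hlow : ∀ p ∈ MM Ψ, ∀ X, (om p X X).re + ‖mm Ψ p X‖ ^ 2 ≤ (hm A Ψ p X X).re := by
    intro p hp X
    have a1 := om_nonneg hp.1 X
    have a2 : (om p X X).re ≤ (HH Ψ p X X).re := (h.jet hp).om_le X
    have a3 : 0 ≤ aa Ψ p := (h.jet hp).a_nonneg
    simp only [hm, add_re, re_ofReal_mul, mul_conj, normSq_eq_norm_sq, ofReal_re]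
    nlinarith [mul_nonneg a3 (a1.trans a2)]
  have hpos : ∀ p ∈ MM Ψ, ∀ X, X ≠ 0 → 0 < (hm A Ψ p X X).re := by
    intro p hp X hX
    refine lt_of_lt_of_le ?_ (hlow p hp X)
    have ht : 0 < tR p := hp.1
    by_contra hc
    rw [om_re] at hc
    have a1 : 0 ≤ ‖X 0‖ ^ 2 / tR p := by positivity
    have a2 : 0 ≤ ‖tX p X‖ ^ 2 / tR p ^ 2 := by positivity
    have a3 : 0 ≤ ‖mm Ψ p X‖ ^ 2 := by positivity
    have b1 : X 0 = 0 := by simpa [ht.ne'] using show ‖X 0‖ ^ 2 / tR p = 0 by linarith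
    have b2 : tX p X = 0 := by simpa [ht.ne'] using show ‖tX p X‖ ^ 2 / tR p ^ 2 = 0 by linarith
    have b3 : mm Ψ p X = 0 := by simpa using show ‖mm Ψ p X‖ ^ 2 = 0 by linarith
    have b4 : X 1 = 0 := by simpa [tX, b1] using b2
    have b5 : X = X 2 • Pi.single 2 1 := by
      funext i; fin_cases i <;> simp [b1, b4]
    rw [mm, b5, d_smulv, h.d_vert hp.1] at b3
    simp [(mem_MM.1 hp).2.ne'] at b3
    exact hX (by rw [b5, b3, zero_smul])
  obtain ⟨K, k1, k2, k3, k4⟩ := exists_kahler h.isOpen_MM hh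
    (fun X Y p hp => (h.cd_hm hp A X Y).contDiffWithinAt) hpos
    fun p hp X Z Y => by rw [h.d_hm hp, h.d_hm hp, h.TT_symm hp]
  refine ⟨K, ⟨c₁, c₂, hc, hc', fun p hp X Y hl => ?_⟩, k3, fun p hp X => (k1 p X X) ▸ hlow p hp X⟩
  have hE : cexp (Pc Ψ p / 2) * si Ψ p ≠ 0 := mul_ne_zero (exp_ne_zero _) (inv_ne_zero (sig_ne hp))
  have hv : ∀ v, hm A Ψ p v (Pi.single 2 1) = mm Ψ p v * (cexp (Pc Ψ p / 2) * si Ψ p) := fun v => by
    rw [hm, om_vert, h.HH_vert hp.1, mm_eq p (Pi.single 2 1), nn, h.d_vert hp.1]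
    simp [cj_half, cj_si]
  have hK : ∀ u, ∃ v, ∀ y, (h.jet hp).h A v y = HH Ψ p u y := fun u => by
    obtain ⟨v, hv'⟩ := (hh p hp).solve (hpos p hp) (f := HH Ψ p u)
      (fun x y => (h.herm_HH hp.1).add' x y u) fun c x => (h.herm_HH hp.1).smul' c x u
    have h0 := hv' (Pi.single 2 1)
    rw [hv, h.HH_vert hp.1] at h0
    refine ⟨v, fun y => ?_⟩
    rw [← hv' y, hm, (mul_eq_zero.1 h0).resolve_right hE, zero_mul, add_zero]
    rfl
  choose Kf hKf using hK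
  have hmΓ : ∀ x z, mm Ψ p (K.Γ p x z) = cexp (Pc Ψ p / 2) * si Ψ p * bb Ψ p x z := fun x z => by
    have h0 := k2 p hp x z (Pi.single 2 1)
    rw [hv, h.d_hm hp, TT, om_vert, h.HH_vert hp.1, h.HH_vert hp.1, h.PP_vert hp.1,
      nn.eq_1 Ψ p (Pi.single 2 1), h.d_vert hp.1, ee_half] at h0
    refine mul_right_cancel₀ hE (h0.trans ?_)
    simp
    ring
  have ha := aa_eq hp
  have hu : ∀ x z y, HH Ψ p ((h.jet hp).u x z) y = mm Ψ p z * HH Ψ p x y + mm Ψ p x * HH Ψ p z y :=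
    fun x z y => by rw [Jet.u, (h.herm_HH hp.1).add, (h.herm_HH hp.1).smul, (h.herm_HH hp.1).smul]; rfl
  have hΓ : ∀ x z y, (h.jet hp).h A (K.Γ p x z) y = A * (h.jet hp).om ((h.jet hp).G x z) y +
      (h.jet hp).a * (h.jet hp).P x z y + (1 + (h.jet hp).a) * conj (h.jet hp).w *
      (h.jet hp).H ((h.jet hp).u x z) y := fun x z y => by
    have h0 := k2 p hp x z y
    rw [h.d_hm hp, hm, hmΓ, TT, mm_eq, ee_half] at h0
    change A * om p _ y + aa Ψ p * HH Ψ p _ y = A * om p (GG p x z) y + aa Ψ p * PP Ψ p x z y +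
      (1 + aa Ψ p) * conj (cexp (Pc Ψ p / 2) * p 2) * HH Ψ p ((h.jet hp).u x z) y
    simp only [map_mul, cj_half, cj_si] at h0
    rw [hu, mm_eq, mm_eq, map_mul, cj_half]
    rw [ha] at h0 ⊢
    linear_combination h0
  have hS : ∀ x z y v, db v (d z fun q => hm A Ψ q x y) p - hm A Ψ p (K.Γ p x z) (K.Γ p y v) =
      (h.jet hp).S A (K.Γ p) x z y v := fun x z y v => by
    have hP : ∀ x z y v, PP Ψ p x z ((h.jet hp).u y v) =
        conj (mm Ψ p v) * PP Ψ p x z y + conj (mm Ψ p y) * PP Ψ p x z v := fun x z y v =>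
      ((h.jet hp).P_add' x z _ _).trans
        (by rw [(h.jet hp).P_smul', (h.jet hp).P_smul']; rfl)
    have hu' : HH Ψ p ((h.jet hp).u x z) ((h.jet hp).u y v) =
        conj (mm Ψ p v) * HH Ψ p ((h.jet hp).u x z) y +
        conj (mm Ψ p y) * HH Ψ p ((h.jet hp).u x z) v := by
      rw [Jet.u.eq_1 _ y v, (h.herm_HH hp.1).add', (h.herm_HH hp.1).smul',
        (h.herm_HH hp.1).smul']; rfl
    rw [db_congr (congr_on h.isOpen_MM (fun q hq => h.d_hm hq A x z y) hp), h.db_TT hp, hm, hmΓ, hmΓ]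
    change _ = A * (om p x y * om p z v + om p x v * om p z y + om p (GG p x z) (GG p y v)) +
      aa Ψ p * YY Ψ p x z y v + aa Ψ p * (1 + aa Ψ p) * (HH Ψ p x y * HH Ψ p z v +
      HH Ψ p x v * HH Ψ p z y) + (1 + 2 * aa Ψ p) * HH Ψ p ((h.jet hp).u x z) ((h.jet hp).u y v) +
      2 * mm Ψ p x * mm Ψ p z * conj (mm Ψ p y) * conj (mm Ψ p v) +
      (1 + aa Ψ p) * (conj (cexp (Pc Ψ p / 2) * p 2) * conj (PP Ψ p y v ((h.jet hp).u x z)) +
      cexp (Pc Ψ p / 2) * p 2 * PP Ψ p x z ((h.jet hp).u y v)) -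
      (A * om p (K.Γ p x z) (K.Γ p y v) + aa Ψ p * HH Ψ p (K.Γ p x z) (K.Γ p y v))
    rw [hu', hu, hu, hP, hP, ha, ee_half]
    simp only [mm_eq, map_add, map_mul, cj_half, cj_si, conj_conj]
    ring
  have := halg (h.jet hp) Kf (K.Γ p) hKf hΓ X Y
  have hd := sec_den K hp hl
  have hg : ∀ x y, ((h.jet hp).g A x y).re = K.g p x y := fun x y => (k1 p x y).symm
  rw [hg, hg, hg, ← hS, ← hS] at this
  rw [KahlerMetric.sec, k4 p hp, le_div_iff₀ hd, div_le_iff₀ hd]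
  constructor <;> linarith [this.1, this.2]

end Vale.Agent.P250
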