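import Mathlib

/-!
Kähler metrics on open subsets of `ℂⁿ`: Levi-Civita connection, sectional curvature, geodesic
completeness.
-/

namespace Vale.Agent.P250

open scoped ContDiff

/-- A Kähler metric `g` on an open set `M ⊆ ℂⁿ`, together with the Christoffel map `Γ` of its
Levi-Civita connection (which is uniquely determined on `M` by the Koszul formula). -/
structure KahlerMetric {n : ℕ} (M : Set (Fin n → ℂ)) where
  g : (Fin n → ℂ) → (Fin n → ℂ) → (Fin n → ℂ) → ℝ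
  Γ : (Fin n → ℂ) → (Fin n → ℂ) → (Fin n → ℂ) → (Fin n → ℂ)
  smooth : ∀ X Y, ContDiffOn ℝ ∞ (fun p => g p X Y) M
  add : ∀ p ∈ M, ∀ X Y Z, g p (X + Y) Z = g p X Z + g p Y Z
  smul : ∀ p ∈ M, ∀ (c : ℝ) X Y, g p (c • X) Y = c * g p X Y
  symm : ∀ p ∈ M, ∀ X Y, g p X Y = g p Y X
  pos : ∀ p ∈ M, ∀ X, X ≠ 0 → 0 < g p X X
  hermitian : ∀ p ∈ M, ∀ X Y, g p (Complex.I • X) (Complex.I • Y) = g p X Y
  closed : ∀ p ∈ M, ∀ X Y Z, fderiv ℝ (fun q => g q (Complex.I • Y) Z) p X +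
    fderiv ℝ (fun q => g q (Complex.I • Z) X) p Y +
    fderiv ℝ (fun q => g q (Complex.I • X) Y) p Z = 0
  koszul : ∀ p ∈ M, ∀ X Y Z, g p (Γ p X Y) Z = (fderiv ℝ (fun q => g q Y Z) p X +
    fderiv ℝ (fun q => g q X Z) p Y - fderiv ℝ (fun q => g q X Y) p Z) / 2

namespace KahlerMetric

variable {n : ℕ} {M : Set (Fin n → ℂ)} (K : KahlerMetric M)

/-- The Riemann curvature tensor `R(X, Y) Z = ∇_X ∇_Y Z - ∇_Y ∇_X Z` (constant vector fields). -/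
noncomputable def riem (p X Y Z : Fin n → ℂ) : Fin n → ℂ :=
  fderiv ℝ (fun q => K.Γ q Y Z) p X - fderiv ℝ (fun q => K.Γ q X Z) p Y +
    K.Γ p X (K.Γ p Y Z) - K.Γ p Y (K.Γ p X Z)

/-- The sectional curvature of the real plane spanned by `X` and `Y`. -/
noncomputable def sec (p X Y : Fin n → ℂ) : ℝ :=
  K.g p (K.riem p X Y Y) X / (K.g p X X * K.g p Y Y - K.g p X Y ^ 2)

/-- All real sectional curvatures lie in `[-b, -a]` for some `0 < a ≤ b`. -/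
def NegPinched : Prop :=
  ∃ a b : ℝ, 0 < a ∧ a ≤ b ∧ ∀ p ∈ M, ∀ X Y, LinearIndependent ℝ ![X, Y] →
    -b ≤ K.sec p X Y ∧ K.sec p X Y ≤ -a

/-- Geodesic completeness: every initial condition gives a geodesic defined on all of `ℝ`. -/
def Complete : Prop :=
  ∀ p ∈ M, ∀ v, ∃ γ γ' : ℝ → Fin n → ℂ, γ 0 = p ∧ γ' 0 = v ∧ ∀ t, γ t ∈ M ∧
    HasDerivAt γ (γ' t) t ∧ HasDerivAt γ' (-K.Γ (γ t) (γ' t) (γ' t)) t

end KahlerMetric

/-- `M` is biholomorphic to `Ω`. -/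
def Biholomorphic {n : ℕ} (M Ω : Set (Fin n → ℂ)) : Prop :=
  ∃ F G : (Fin n → ℂ) → (Fin n → ℂ), DifferentiableOn ℂ F M ∧ DifferentiableOn ℂ G Ω ∧
    Set.MapsTo F M Ω ∧ Set.MapsTo G Ω M ∧ (∀ p ∈ M, G (F p) = p) ∧ ∀ q ∈ Ω, F (G q) = q

end Vale.Agent.P250
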