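import Vale.Agent.P250.Calc

/-!
The Hartogs domain and the Calabi ansatz metric.
-/

namespace Vale.Agent.P250

open scoped ContDiff ComplexConjugate
open Complex Filter Topology

/-- The weight as a complex valued function. -/
noncomputable def Pc (Ψ : E → ℝ) (p : E) : ℂ := Phi Ψ p

/-- `σ = 1 - |w|² e^Φ`. -/
noncomputable def sig (Ψ : E → ℝ) (p : E) : ℝ := 1 - ‖p 2‖ ^ 2 * Real.exp (Phi Ψ p)

/-- The vertical component of a tangent vector. -/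
noncomputable def mm (Ψ : E → ℝ) (p X : E) : ℂ :=
  cexp (Pc Ψ p / 2) * (X 2 + p 2 * d X (Pc Ψ) p) / sig Ψ p

/-- The moment map coordinate. -/
noncomputable def aa (Ψ : E → ℝ) (p : E) : ℝ := ‖p 2‖ ^ 2 * Real.exp (Phi Ψ p) / sig Ψ p

/-- The complex Hessian of the weight. -/
noncomputable def HH (Ψ : E → ℝ) (p X Y : E) : ℂ := d X (db Y (Pc Ψ)) p

/-- The Calabi ansatz metric `∂∂bar (A ρ - log σ)`. -/
noncomputable def hm (A : ℝ) (Ψ : E → ℝ) (p X Y : E) : ℂ :=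
  A * om p X Y + aa Ψ p * HH Ψ p X Y + mm Ψ p X * conj (mm Ψ p Y)

variable {Ψ : E → ℝ} {C : ℝ}

theorem cd_tR : ContDiff ℝ ∞ tR := by
  have h0 : ContDiff ℝ ∞ fun p : E => p 0 := contDiff_apply ℝ ℂ 0
  have h1 : ContDiff ℝ ∞ fun p : E => p 1 := contDiff_apply ℝ ℂ 1
  exact (reCLM.contDiff.comp h1).sub ((contDiff_norm_sq ℝ).comp h0)

theorem Good.cd_Phi (h : Good Ψ C) {p : E} (hp : p ∈ BB) : ContDiffAt ℝ ∞ (Phi Ψ) p :=
  (cd_tR.contDiffAt.log (ne_of_gt hp)).neg.add (h.smooth.contDiffAt (isOpen_BB.mem_nhds hp))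

theorem Good.cd_Pc (h : Good Ψ C) {p : E} (hp : p ∈ BB) : ContDiffAt ℝ ∞ (Pc Ψ) p :=
  ofRealCLM.contDiff.contDiffAt.comp p (h.cd_Phi hp)

theorem Good.cd_sig (h : Good Ψ C) {p : E} (hp : p ∈ BB) : ContDiffAt ℝ ∞ (sig Ψ) p :=
  contDiffAt_const.sub ((((contDiff_norm_sq ℝ).comp (contDiff_apply ℝ ℂ (2 : Fin 3))).contDiffAt).mul
    (h.cd_Phi hp).exp)

theorem mem_MM {p : E} : p ∈ MM Ψ ↔ p ∈ BB ∧ 0 < sig Ψ p := by
  simp only [MM, sig, Set.mem_ofPred_eq, sub_pos]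

theorem Good.isOpen_MM (h : Good Ψ C) : IsOpen (MM Ψ) := by
  refine isOpen_iff_mem_nhds.2 fun p hp => ?_
  obtain ⟨h1, h2⟩ := mem_MM.1 hp
  filter_upwards [isOpen_BB.mem_nhds h1, (h.cd_sig h1).continuousAt.eventually (lt_mem_nhds h2)]
    with q a b using mem_MM.2 ⟨a, b⟩

end Vale.Agent.P250
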