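import Vale.Agent.P250.Dom

/-!
Topology of the Hartogs domain: exhaustion function and simple connectivity.

Plan. `u = -log (sig) - log (tR) + 2 log ‖1 + p 1‖`. With the calculus of `Calc.lean`:
`d X tR = tX p X`, `d X sig = -exp Φ conj (p 2) (X 2 + p 2 d X Φ)`, so `‖d X (log sig)‖ ≤ ‖mm X‖`
(as `‖p 2‖² e^Φ < 1`); for real `f`, `fderiv f X = 2 re (d X f)`; `‖X 1‖ ≤ 2 ‖1 + p 1‖ nu p X`
because `X 1 = 2 tX + 2 conj (p 0) X 0` and `tR + ‖p 0‖² = re (p 1)`. Sublevel sets: `sig ≥ e^(-c)`,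
`‖1 + p 1‖ ≤ e^c`, `tR ≥ e^(-c)`; `Phi` only depends on `p 0, p 1` and is bounded on compact sets.
Simple connectivity: `p ↦ ![p 0, p 1, p 2 * exp (Phi / 2)]` is a homeomorphism onto the convex set
`{p ∈ BB | ‖p 2‖ < 1}` (`Convex.contractibleSpace`, `Homeomorph.contractibleSpace`).
-/

namespace Vale.Agent.P250

open scoped ContDiff ComplexConjugate
open Complex Filter Topology

theorem exh_fderiv_le {f : E → ℝ} {p : E} (hf : DifferentiableAt ℝ f p) (X : E) :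
    |fderiv ℝ f p X| ≤ 2 * ‖d X (fun q => (f q : ℂ)) p‖ := by
  have h : ∀ Y : E, fderiv ℝ (fun q => (f q : ℂ)) p Y = (fderiv ℝ f p Y : ℝ) := by
    intro Y
    have h1 : HasFDerivAt (fun q => (f q : ℂ)) (ofRealCLM.comp (fderiv ℝ f p)) p :=
      ofRealCLM.hasFDerivAt.comp p hf.hasFDerivAt
    rw [h1.fderiv]
    rfl
  have h2 : fderiv ℝ f p X = 2 * (d X (fun q => (f q : ℂ)) p).re := by
    rw [d, h, h]
    simp
    ring
  rw [h2, abs_mul, abs_two]
  exact mul_le_mul_of_nonneg_left (abs_re_le_norm _) zero_le_two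

theorem exh_d_tR (p X : E) : d X (fun q => (tR q : ℂ)) p = tX p X := by
  have e : (fun q : E => (tR q : ℂ)) =
      fun q => (2 : ℂ)⁻¹ * (q 1 + conj (q 1)) - q 0 * conj (q 0) := by
    funext q
    rw [add_conj, mul_conj, normSq_eq_norm_sq, tR]
    push_cast
    ring
  have h := (((hw_coord 1 p).add (hw_coord 1 p).cj).cmul (2 : ℂ)⁻¹).sub
    ((hw_coord 0 p).mul (hw_coord 0 p).cj)
  rw [e, h.d_eq, tX]
  simp
  ring

theorem exh_d_nR (p X : E) :
    d X (fun q => ((‖1 + q 1‖ ^ 2 : ℝ) : ℂ)) p = X 1 * conj (1 + p 1) := by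
  have e : (fun q : E => ((‖1 + q 1‖ ^ 2 : ℝ) : ℂ)) = fun q => (1 + q 1) * conj (1 + q 1) := by
    funext q
    rw [mul_conj, normSq_eq_norm_sq]
  have h0 := (hw_const 1 p).add (hw_coord 1 p)
  have h := h0.mul h0.cj
  rw [e, h.d_eq]
  simp

theorem exh_d_sig {Ψ : E → ℝ} {C : ℝ} (h : Good Ψ C) {p : E} (hp : p ∈ BB) (X : E) :
    d X (fun q => (sig Ψ q : ℂ)) p =
      -(conj (p 2) * cexp (Pc Ψ p) * (X 2 + p 2 * d X (Pc Ψ) p)) := by
  have e : (fun q : E => (sig Ψ q : ℂ)) = fun q => 1 - q 2 * conj (q 2) * cexp (Pc Ψ q) := by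
    funext q
    rw [mul_conj, normSq_eq_norm_sq, sig, Pc]
    push_cast
    ring
  have h1 := (hw_const 1 p).sub (((hw_coord 2 p).mul (hw_coord 2 p).cj).mul
    (hw_self (cd_diff (h.cd_Pc hp))).exp)
  rw [e, h1.d_eq]
  simp
  ring

theorem exh_norm_ge {p : E} (hp : p ∈ BB) : 1 + tR p + ‖p 0‖ ^ 2 ≤ ‖1 + p 1‖ := by
  have h := re_le_norm (1 + p 1)
  simp only [add_re, one_re] at h
  simp only [tR]
  linarith

/-- The exhaustion function. -/
noncomputable def exhU (Ψ : E → ℝ) (p : E) : ℝ :=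
  -Real.log (sig Ψ p) - Real.log (tR p) + Real.log (‖1 + p 1‖ ^ 2)

theorem exh_cd_nR : ContDiff ℝ ∞ fun q : E => ‖1 + q 1‖ ^ 2 :=
  (contDiff_norm_sq ℝ).comp (contDiff_const.add (contDiff_apply ℝ ℂ (1 : Fin 3)))

theorem exh_hasFDerivAt {Ψ : E → ℝ} {C : ℝ} (h : Good Ψ C) {p : E} (hp : p ∈ MM Ψ) :
    HasFDerivAt (exhU Ψ) (-((sig Ψ p)⁻¹ • fderiv ℝ (sig Ψ) p) - (tR p)⁻¹ • fderiv ℝ tR p +
      (‖1 + p 1‖ ^ 2)⁻¹ • fderiv ℝ (fun q : E => ‖1 + q 1‖ ^ 2) p) p := by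
  obtain ⟨h1, h2⟩ := mem_MM.1 hp
  have h3 : 0 < tR p := h1
  have h4 : 0 < ‖1 + p 1‖ := by
    have := exh_norm_ge h1
    nlinarith [sq_nonneg ‖p 0‖]
  have a1 := ((h.cd_sig h1).differentiableAt (by simp)).hasFDerivAt.log h2.ne'
  have a2 := (cd_tR.differentiable (by simp) p).hasFDerivAt.log h3.ne'
  have a3 := (exh_cd_nR.differentiable (by simp) p).hasFDerivAt.log (pow_pos h4 2).ne'
  exact (a1.neg.sub a2).add a3

theorem exh_bound {Ψ : E → ℝ} {C : ℝ} (h : Good Ψ C) {p : E} (hp : p ∈ MM Ψ) (X : E) :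
    fderiv ℝ (exhU Ψ) p X ^ 2 ≤ 108 * ((om p X X).re + ‖mm Ψ p X‖ ^ 2) := by
  obtain ⟨h1, h2⟩ := mem_MM.1 hp
  have h3 : 0 < tR p := h1
  have h5 := exh_norm_ge h1
  have h4 : 0 < ‖1 + p 1‖ := by nlinarith [sq_nonneg ‖p 0‖]
  have b1 := exh_fderiv_le ((h.cd_sig h1).differentiableAt (by simp)) X
  have b2 := exh_fderiv_le (cd_tR.differentiable (by simp) p) X
  have b3 := exh_fderiv_le (exh_cd_nR.differentiable (by simp) p) X
  rw [exh_d_sig h h1] at b1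
  rw [exh_d_tR] at b2
  rw [exh_d_nR] at b3
  -- the vertical term
  have c1 : |(sig Ψ p)⁻¹ * fderiv ℝ (sig Ψ) p X| ≤ 2 * ‖mm Ψ p X‖ := by
    have e1 : ‖cexp (Pc Ψ p / 2)‖ = Real.exp (Phi Ψ p / 2) := by
      rw [norm_exp, Pc]; simp
    have e2 : ‖cexp (Pc Ψ p)‖ = Real.exp (Phi Ψ p / 2) * Real.exp (Phi Ψ p / 2) := by
      rw [norm_exp, Pc, ← Real.exp_add]; simp
    have e3 : ‖p 2‖ * Real.exp (Phi Ψ p / 2) ≤ 1 := by
      have h6 := hp.2
      have e4 : Real.exp (Phi Ψ p) = Real.exp (Phi Ψ p / 2) * Real.exp (Phi Ψ p / 2) := by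
        rw [← Real.exp_add]; simp
      rw [e4] at h6
      have h7 : 0 ≤ ‖p 2‖ * Real.exp (Phi Ψ p / 2) := by positivity
      nlinarith
    rw [abs_mul, abs_inv, abs_of_pos h2, mm, norm_div, norm_mul, e1, norm_real,
      Real.norm_of_nonneg h2.le, inv_mul_le_iff₀ h2]
    rw [norm_neg, norm_mul, norm_mul, e2, norm_conj] at b1
    have h8 : 0 ≤ Real.exp (Phi Ψ p / 2) * ‖X 2 + p 2 * d X (Pc Ψ) p‖ := by positivity
    have h9 := mul_le_mul_of_nonneg_right e3 h8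
    calc |fderiv ℝ (sig Ψ) p X| ≤ _ := b1
      _ ≤ 2 * (Real.exp (Phi Ψ p / 2) * ‖X 2 + p 2 * d X (Pc Ψ) p‖) := by nlinarith
      _ = _ := by field_simp
  have c2 : |(tR p)⁻¹ * fderiv ℝ tR p X| ≤ 2 * (‖tX p X‖ / tR p) := by
    rw [abs_mul, abs_inv, abs_of_pos h3, inv_mul_le_iff₀ h3]
    calc |fderiv ℝ tR p X| ≤ _ := b2
      _ = _ := by field_simp
  have c3 : |(‖1 + p 1‖ ^ 2)⁻¹ * fderiv ℝ (fun q : E => ‖1 + q 1‖ ^ 2) p X| ≤
      4 * (‖tX p X‖ / tR p) + 4 * (‖p 0‖ * ‖X 0‖ / ‖1 + p 1‖) := by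
    have e1 : X 1 = 2 * tX p X + 2 * (conj (p 0) * X 0) := by rw [tX]; ring
    have e2 : ‖X 1‖ ≤ 2 * ‖tX p X‖ + 2 * (‖p 0‖ * ‖X 0‖) := by
      rw [e1]
      refine (norm_add_le _ _).trans (le_of_eq ?_)
      simp
    have e3 : ‖tX p X‖ / ‖1 + p 1‖ ≤ ‖tX p X‖ / tR p :=
      div_le_div_of_nonneg_left (norm_nonneg _) h3 (by nlinarith [sq_nonneg ‖p 0‖])
    rw [norm_mul, norm_conj] at b3
    rw [abs_mul, abs_inv, abs_of_pos (pow_pos h4 2)]
    calc (‖1 + p 1‖ ^ 2)⁻¹ * |fderiv ℝ (fun q : E => ‖1 + q 1‖ ^ 2) p X|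
        ≤ (‖1 + p 1‖ ^ 2)⁻¹ * (2 * ((2 * ‖tX p X‖ + 2 * (‖p 0‖ * ‖X 0‖)) * ‖1 + p 1‖)) := by
          refine mul_le_mul_of_nonneg_left (b3.trans ?_) (by positivity)
          gcongr
      _ = 4 * (‖tX p X‖ / ‖1 + p 1‖) + 4 * (‖p 0‖ * ‖X 0‖ / ‖1 + p 1‖) := by
          field_simp
          ring
      _ ≤ _ := by gcongr
  have c4 : (‖p 0‖ * ‖X 0‖ / ‖1 + p 1‖) ^ 2 ≤ ‖X 0‖ ^ 2 / tR p := by
    rw [div_pow, div_le_div_iff₀ (pow_pos h4 2) h3]
    have e1 : ‖p 0‖ ^ 2 * tR p ≤ ‖1 + p 1‖ ^ 2 := by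
      rw [sq ‖1 + p 1‖]
      exact mul_le_mul (by linarith) (by nlinarith [sq_nonneg ‖p 0‖]) h3.le h4.le
    nlinarith [mul_le_mul_of_nonneg_left e1 (sq_nonneg ‖X 0‖)]
  rw [(exh_hasFDerivAt h hp).fderiv, om_re, ← div_pow]
  simp only [ContinuousLinearMap.add_apply, ContinuousLinearMap.sub_apply,
    ContinuousLinearMap.neg_apply, ContinuousLinearMap.smul_apply, smul_eq_mul]
  generalize (sig Ψ p)⁻¹ * fderiv ℝ (sig Ψ) p X = x1 at c1 ⊢
  generalize (tR p)⁻¹ * fderiv ℝ tR p X = x2 at c2 ⊢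
  generalize (‖1 + p 1‖ ^ 2)⁻¹ * fderiv ℝ (fun q : E => ‖1 + q 1‖ ^ 2) p X = x3 at c3 ⊢
  generalize ‖tX p X‖ / tR p = y at c2 c3 ⊢
  generalize ‖p 0‖ * ‖X 0‖ / ‖1 + p 1‖ = z at c3 c4 ⊢
  generalize ‖mm Ψ p X‖ = m at c1 ⊢
  generalize ‖X 0‖ ^ 2 / tR p = w at c4 ⊢
  have f1 : |-x1 - x2 + x3| ≤ 2 * m + 6 * y + 4 * z := by
    have := abs_le.1 c1
    have := abs_le.1 c2
    have := abs_le.1 c3
    rw [abs_le]
    constructor <;> linarith [this.1, this.2]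
  have f2 : (-x1 - x2 + x3) ^ 2 ≤ (2 * m + 6 * y + 4 * z) ^ 2 := by
    rw [← sq_abs]
    exact pow_le_pow_left₀ (abs_nonneg _) f1 2
  nlinarith [sq_nonneg (2 * m - 6 * y), sq_nonneg (2 * m - 4 * z), sq_nonneg (6 * y - 4 * z),
    sq_nonneg m, sq_nonneg z]

theorem exh_Phi_update {Ψ : E → ℝ} {C : ℝ} (h : Good Ψ C) (p : E) (w : ℂ) :
    Phi Ψ (Function.update p 2 w) = Phi Ψ p := by
  have h0 : Function.update p 2 w 0 = p 0 := Function.update_of_ne (by decide) _ _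
  have h1 : Function.update p 2 w 1 = p 1 := Function.update_of_ne (by decide) _ _
  rw [Phi, Phi, h.indep _ p h0 h1, tR, tR, h0, h1]

theorem exh_tR_update (p : E) (w : ℂ) : tR (Function.update p 2 w) = tR p := by
  have h0 : Function.update p 2 w 0 = p 0 := Function.update_of_ne (by decide) _ _
  have h1 : Function.update p 2 w 1 = p 1 := Function.update_of_ne (by decide) _ _
  rw [tR, tR, h0, h1]

theorem exh_compact {Ψ : E → ℝ} {C : ℝ} (h : Good Ψ C) (c : ℝ) :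
    IsCompact {p | p ∈ MM Ψ ∧ exhU Ψ p ≤ c} := by
  have hc := Real.exp_pos (-c)
  have hcont : Continuous fun p : E => ‖1 + p 1‖ := by fun_prop
  -- the base region
  let K : Set E := {p | Real.exp (-c) ≤ tR p ∧ ‖1 + p 1‖ ≤ Real.exp c}
  have hK : IsClosed K :=
    (isClosed_le continuous_const cont_tR).inter (isClosed_le hcont continuous_const)
  have hKB : ∀ p ∈ K, p ∈ BB := fun p hp => hc.trans_le hp.1
  have hb : ∀ p ∈ K, ‖p 0‖ ≤ Real.exp c + 1 ∧ ‖p 1‖ ≤ Real.exp c + 1 := by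
    intro p hp
    have h1 := exh_norm_ge (hKB p hp)
    have h2 : 0 < tR p := hKB p hp
    have h3 := hp.2
    refine ⟨by nlinarith [sq_nonneg (‖p 0‖ - 1)], ?_⟩
    have h4 : ‖p 1‖ ≤ ‖1 + p 1‖ + ‖(1 : ℂ)‖ := by
      simpa using norm_sub_le (1 + p 1) 1
    rw [norm_one] at h4
    linarith
  have hK0 : IsCompact (K ∩ {p | p 2 = 0}) := by
    refine Metric.isCompact_of_isClosed_isBounded
      (hK.inter (isClosed_eq (continuous_apply 2) continuous_const)) ?_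
    refine (Metric.isBounded_closedBall (x := (0 : E)) (r := Real.exp c + 1)).subset ?_
    intro p hp
    rw [mem_closedBall_zero_iff, pi_norm_le_iff_of_nonneg (by positivity)]
    intro i
    fin_cases i
    · exact (hb p hp.1).1
    · exact (hb p hp.1).2
    · have : p 2 = 0 := hp.2
      change ‖p 2‖ ≤ _
      rw [this, norm_zero]
      positivity
  obtain ⟨B, hB⟩ := hK0.exists_bound_of_continuousOn (f := Phi Ψ)
    fun p hp => (h.cd_Phi (hKB p hp.1)).continuousAt.continuousWithinAt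
  have hB' : ∀ p ∈ K, -B ≤ Phi Ψ p := by
    intro p hp
    have h1 : Function.update p 2 0 ∈ K ∩ {p : E | p 2 = 0} := by
      refine ⟨⟨?_, ?_⟩, Function.update_self _ _ _⟩
      · rw [exh_tR_update]; exact hp.1
      · rw [Function.update_of_ne (by decide)]; exact hp.2
    have h2 := hB _ h1
    rw [exh_Phi_update h, Real.norm_eq_abs] at h2
    exact (abs_le.1 h2).1
  let K' : Set E := K ∩ sig Ψ ⁻¹' Set.Ici (Real.exp (-c))
  have hK' : IsClosed K' := ContinuousOn.preimage_isClosed_of_isClosed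
    (fun p hp => (h.cd_sig (hKB p hp)).continuousAt.continuousWithinAt) hK isClosed_Ici
  have hK'M : ∀ p ∈ K', p ∈ MM Ψ := fun p hp => mem_MM.2 ⟨hKB p hp.1, hc.trans_le hp.2⟩
  have e : {p | p ∈ MM Ψ ∧ exhU Ψ p ≤ c} = K' ∩ exhU Ψ ⁻¹' Set.Iic c := by
    ext p
    refine ⟨fun hp => ⟨?_, hp.2⟩, fun hp => ⟨hK'M p hp.1, hp.2⟩⟩
    obtain ⟨h1, h2⟩ := mem_MM.1 hp.1
    have h3 : 0 < tR p := h1
    have h5 := exh_norm_ge h1
    have h6 : 1 ≤ ‖1 + p 1‖ := by nlinarith [sq_nonneg ‖p 0‖]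
    have h4 : 0 < ‖1 + p 1‖ := by linarith
    have h7 : exhU Ψ p ≤ c := hp.2
    rw [exhU, Real.log_pow] at h7
    push_cast at h7
    have l1 : Real.log (sig Ψ p) ≤ 0 := by
      refine Real.log_nonpos h2.le ?_
      rw [sig]
      have : 0 ≤ ‖p 2‖ ^ 2 * Real.exp (Phi Ψ p) := by positivity
      linarith
    have l2 : 0 ≤ Real.log ‖1 + p 1‖ := Real.log_nonneg h6
    have l3 : Real.log (tR p) ≤ Real.log ‖1 + p 1‖ :=
      Real.log_le_log h3 (by nlinarith [sq_nonneg ‖p 0‖])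
    refine ⟨⟨?_, ?_⟩, ?_⟩
    · exact (Real.le_log_iff_exp_le h3).1 (by linarith)
    · exact (Real.log_le_iff_le_exp h4).1 (by linarith)
    · exact (Real.le_log_iff_exp_le h2).1 (by linarith)
  rw [e]
  refine Metric.isCompact_of_isClosed_isBounded (ContinuousOn.preimage_isClosed_of_isClosed
    (fun p hp => (exh_hasFDerivAt h (hK'M p hp)).continuousAt.continuousWithinAt) hK'
    isClosed_Iic) ?_
  refine (Metric.isBounded_closedBall (x := (0 : E)) (r := Real.exp c + 1 + Real.exp B)).subset ?_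
  intro p hp
  have hB0 := Real.exp_pos B
  rw [mem_closedBall_zero_iff, pi_norm_le_iff_of_nonneg (by positivity)]
  intro i
  fin_cases i
  · exact (hb p hp.1.1).1.trans (by linarith)
  · exact (hb p hp.1.1).2.trans (by linarith)
  · change ‖p 2‖ ≤ _
    have h1 := (hK'M p hp.1).2
    have h2 : Real.exp (-B) ≤ Real.exp (Phi Ψ p) := Real.exp_le_exp.2 (hB' p hp.1.1)
    have h3 : ‖p 2‖ ^ 2 * Real.exp (-B) ≤ 1 :=
      (mul_le_mul_of_nonneg_left h2 (sq_nonneg _)).trans h1.le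
    have h4 : ‖p 2‖ ^ 2 ≤ Real.exp B := by
      rw [Real.exp_neg, ← div_eq_mul_inv, div_le_one hB0] at h3
      exact h3
    nlinarith [sq_nonneg (‖p 2‖ - 1), Real.exp_pos c]

theorem exists_exhaustion {Ψ : E → ℝ} {C : ℝ} (h : Good Ψ C) : ∃ (u : E → ℝ) (C' : ℝ),
    0 ≤ C' ∧ DifferentiableOn ℝ u (MM Ψ) ∧
    (∀ p ∈ MM Ψ, ∀ X, fderiv ℝ u p X ^ 2 ≤ C' * ((om p X X).re + ‖mm Ψ p X‖ ^ 2)) ∧
    ∀ c, IsCompact {p | p ∈ MM Ψ ∧ u p ≤ c} :=
  ⟨exhU Ψ, 108, by norm_num,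
    fun _ hp => (exh_hasFDerivAt h hp).differentiableAt.differentiableWithinAt,
    fun _ hp X => exh_bound h hp X, exh_compact h⟩

/-- The convex model of the Hartogs domain. -/
def exhV : Set E := {p | p ∈ BB ∧ ‖p 2‖ < 1}

theorem exh_convex : Convex ℝ exhV := by
  have h1 : Convex ℝ BB := by
    intro p hp q hq a b ha hb hab
    have h2 : 0 < tR p := hp
    have h3 : 0 < tR q := hq
    change 0 < tR (a • p + b • q)
    simp only [tR, Pi.add_apply, Pi.smul_apply, add_re, smul_re, smul_eq_mul] at h2 h3 ⊢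
    have h4 : ‖a • p 0 + b • q 0‖ ≤ a * ‖p 0‖ + b * ‖q 0‖ := by
      refine (norm_add_le _ _).trans (le_of_eq ?_)
      rw [norm_smul, norm_smul, Real.norm_of_nonneg ha, Real.norm_of_nonneg hb]
    have h5 : ‖a • p 0 + b • q 0‖ ^ 2 ≤ (a * ‖p 0‖ + b * ‖q 0‖) ^ 2 :=
      pow_le_pow_left₀ (norm_nonneg _) h4 2
    have h6 : (a * ‖p 0‖ + b * ‖q 0‖) ^ 2 ≤ a * ‖p 0‖ ^ 2 + b * ‖q 0‖ ^ 2 := by
      obtain rfl : b = 1 - a := by linarith
      nlinarith [mul_nonneg (mul_nonneg ha hb) (sq_nonneg (‖p 0‖ - ‖q 0‖))]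
    have h7 := convex_Ioi (𝕜 := ℝ) (0 : ℝ) (Set.mem_Ioi.2 h2) (Set.mem_Ioi.2 h3) ha hb hab
    simp only [Set.mem_Ioi, smul_eq_mul] at h7
    nlinarith
  have h2 : Convex ℝ {p : E | ‖p 2‖ < 1} := by
    have := (convex_ball (0 : ℂ) 1).linear_preimage
      (LinearMap.proj (R := ℝ) (φ := fun _ : Fin 3 => ℂ) 2)
    have e : {p : E | ‖p 2‖ < 1} = LinearMap.proj (R := ℝ) (φ := fun _ : Fin 3 => ℂ) 2 ⁻¹'
        Metric.ball (0 : ℂ) 1 := by
      ext p
      simp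
    rw [e]
    exact this
  exact h1.inter h2

theorem exh_cont_scale {Ψ : E → ℝ} {C : ℝ} (h : Good Ψ C) (t : ℝ) {S : Set E}
    (hS : ∀ p ∈ S, p ∈ BB) : Continuous fun p : S =>
      Function.update (p : E) 2 ((p : E) 2 * (Real.exp (t * Phi Ψ p) : ℝ)) := by
  have h1 : Continuous fun p : S => Phi Ψ p :=
    ContinuousOn.restrict fun p hp => (h.cd_Phi (hS p hp)).continuousAt.continuousWithinAt
  refine continuous_subtype_val.update 2 ?_
  exact ((continuous_apply 2).comp continuous_subtype_val).mul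
    (continuous_ofReal.comp (Real.continuous_exp.comp (continuous_const.mul h1)))

theorem simplyConnected_MM {Ψ : E → ℝ} {C : ℝ} (h : Good Ψ C) : SimplyConnectedSpace (MM Ψ) := by
  have hsq : ∀ x : ℝ, Real.exp (2⁻¹ * x) ^ 2 = Real.exp x := fun x => by
    rw [← Real.exp_nat_mul]; congr 1; push_cast; ring
  have hinv : ∀ x : ℝ, Real.exp (2⁻¹ * x) * Real.exp (-2⁻¹ * x) = 1 := fun x => by
    rw [← Real.exp_add]; simp
  let e : MM Ψ ≃ₜ exhV :=
    { toFun := fun p => ⟨Function.update (p : E) 2 ((p : E) 2 * (Real.exp (2⁻¹ * Phi Ψ p) : ℝ)), by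
        refine ⟨?_, ?_⟩
        · change 0 < tR _
          rw [exh_tR_update]
          exact p.2.1
        · rw [Function.update_self, norm_mul, norm_real, Real.norm_of_nonneg (Real.exp_pos _).le]
          have h1 := p.2.2
          rw [← hsq, ← mul_pow] at h1
          exact (pow_lt_one_iff_of_nonneg (by positivity) two_ne_zero).1 h1⟩
      invFun := fun p => ⟨Function.update (p : E) 2 ((p : E) 2 * (Real.exp (-2⁻¹ * Phi Ψ p) : ℝ)), by
        refine ⟨?_, ?_⟩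
        · change 0 < tR _
          rw [exh_tR_update]
          exact p.2.1
        · rw [Function.update_self, norm_mul, norm_real, Real.norm_of_nonneg (Real.exp_pos _).le,
            exh_Phi_update h, ← hsq (Phi Ψ p), ← mul_pow, mul_assoc, mul_comm (Real.exp _), hinv, mul_one]
          exact (pow_lt_one_iff_of_nonneg (by positivity) two_ne_zero).2 p.2.2⟩
      left_inv := fun p => by
        apply Subtype.ext
        simp only [Function.update_self, Function.update_idem, exh_Phi_update h]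
        rw [mul_assoc, ← ofReal_mul, hinv]
        simp
      right_inv := fun p => by
        apply Subtype.ext
        simp only [Function.update_self, Function.update_idem, exh_Phi_update h]
        rw [mul_assoc, ← ofReal_mul, mul_comm (Real.exp _), hinv]
        simp
      continuous_toFun := continuous_induced_rng.2 (exh_cont_scale h 2⁻¹ fun p hp => hp.1)
      continuous_invFun := continuous_induced_rng.2 (exh_cont_scale h (-2⁻¹) fun p hp => hp.1) }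
  have hne : exhV.Nonempty := by
    refine ⟨![0, 1, 0], ?_, ?_⟩
    · change 0 < tR _
      simp [tR]
    · simp
  haveI := exh_convex.contractibleSpace hne
  haveI := e.contractibleSpace
  infer_instance

end Vale.Agent.P250
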