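import Vale.Agent.P250.Series

/-!
The weight `Psi` is smooth, plurisubharmonic and of bounded geometry.

Plan. Let `G` be the class of `g : ℂ → ℂ` with `ContDiff ℝ ∞ g` and `g 0 = 0`; such `g` satisfies
`‖g ζ‖ ≤ C_g ‖ζ‖` on the closed unit disc. Put `θ g ζ = ζ * ∂g ζ`, `θ' g ζ = conj ζ * ∂bar g ζ`
(one variable Wirtinger derivatives); they preserve `G`. Let `L i X` be the linear piece of
`ell Q i`, so `L (n,c) X = -2 Q^(2n) tX p X + 2 conj (cc c - Q^n p 0) Q^n X 0`, hence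
`‖L i X‖ ≤ 2 √(τ κ) nu p X` with `τ = Q^(2n) tR p`, `κ = -(ell Q i p).re ≥ τ` (`re_ell`).
For weights `k : ℕ × ℤ × ℤ → ℂ` with `‖k (n,c)‖ ≤ A (Q^(2n) + Q^n ‖cc c‖)^j` put
`S g k p = ∑' i, k i * g (exp (ell Q i p))`. On a small ball around a point of `BB`
(`tR ≥ t₀/2`, `‖p 0‖ ≤ R`) one has `‖exp (ell (n,c) p)‖ ≤ exp (-Q^(2n) t₀/4 - δ ‖cc c‖²)`, so
`hasFDerivAt_tsum_of_isPreconnected` gives `d X (S g k) = S (θ g) (k * L · X)` and
`db X (S g k) = S (θ' g) (k * conj (L · X))` on `BB`. Induction on the order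
(`contDiffOn_succ_iff_fderiv_of_isOpen` or `contDiffOn_succ_iff_fderiv_apply`, `d_add_db`) gives
smoothness. Bounds: `exp (-κ) (4 τ κ)^(m/2) ≤ C √τ exp (-κ/2)` for `m ≥ 1`, then `lattice_sum` and
`level_sum` (with `y = √(tR p)`). Positivity: `θ (θ' psi) ζ = ‖ζ‖² e^50 η / (‖1 - e^25 ζ‖² + η)²`.
-/

namespace Vale.Agent.P250

open scoped ContDiff ComplexConjugate
open Complex Filter Topology

namespace Gd

/-- The class of profiles. -/
structure G (g : ℂ → ℂ) : Prop where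
  cd : ContDiff ℝ ∞ g
  zero : g 0 = 0

/-- `ζ ∂g`. -/
noncomputable def th (g : ℂ → ℂ) (ζ : ℂ) : ℂ := (fderiv ℝ g ζ ζ - I * fderiv ℝ g ζ (I * ζ)) / 2

/-- `conj ζ ∂bar g`. -/
noncomputable def thb (g : ℂ → ℂ) (ζ : ℂ) : ℂ := (fderiv ℝ g ζ ζ + I * fderiv ℝ g ζ (I * ζ)) / 2

theorem G.cd_fderiv {g : ℂ → ℂ} (h : G g) : ContDiff ℝ ∞ (fderiv ℝ g) :=
  h.cd.fderiv_right (m := ∞) (by simp)

theorem G.th {g : ℂ → ℂ} (h : G g) : G (th g) :=
  ⟨((h.cd_fderiv.clm_apply contDiff_id).sub (contDiff_const.mul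
    (h.cd_fderiv.clm_apply (contDiff_const.mul contDiff_id)))).div_const 2, by simp [Gd.th]⟩

theorem G.thb {g : ℂ → ℂ} (h : G g) : G (thb g) :=
  ⟨((h.cd_fderiv.clm_apply contDiff_id).add (contDiff_const.mul
    (h.cd_fderiv.clm_apply (contDiff_const.mul contDiff_id)))).div_const 2, by simp [Gd.thb]⟩

theorem fderiv_mul (g : ℂ → ℂ) (ζ l : ℂ) :
    fderiv ℝ g ζ (ζ * l) = th g ζ * l + thb g ζ * conj l := by
  have h1 : ζ * l = l.re • ζ + l.im • (I * ζ) := by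
    conv_lhs => rw [← re_add_im l]
    simp only [real_smul]; ring
  have h2 : l = l.re + l.im * I := (re_add_im l).symm
  have h3 : conj l = l.re - l.im * I := by apply Complex.ext <;> simp
  rw [h1, map_add, map_smul, map_smul, real_smul, real_smul, th, thb, h3]
  linear_combination (-(fderiv ℝ g ζ ζ - I * fderiv ℝ g ζ (I * ζ)) / 2) * h2 +
    (l.im * fderiv ℝ g ζ (I * ζ)) * I_mul_I

theorem G.bound {g : ℂ → ℂ} (h : G g) : ∃ C, 0 ≤ C ∧ ∀ ζ : ℂ, ‖ζ‖ ≤ 1 →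
    ‖fderiv ℝ g ζ‖ ≤ C ∧ ‖g ζ‖ ≤ C * ‖ζ‖ := by
  obtain ⟨C, hC⟩ := (isCompact_closedBall (0 : ℂ) 1).exists_bound_of_continuousOn
    h.cd_fderiv.continuous.continuousOn
  refine ⟨C, (norm_nonneg _).trans (hC 0 (by simp)), fun ζ hζ => ⟨hC ζ (by simpa using hζ), ?_⟩⟩
  have := (convex_closedBall (0 : ℂ) 1).norm_image_sub_le_of_norm_fderiv_le (𝕜 := ℝ) (f := g)
    (fun x _ => h.cd.differentiable (by simp) x) hC (x := 0) (y := ζ) (by simp) (by simpa using hζ)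
  simpa [h.zero] using this

variable {Q : ℝ}

/-- The linear piece of `ell`. -/
noncomputable def LL (Q : ℝ) (i : ℕ × ℤ × ℤ) : E →L[ℝ] ℂ :=
  (-(Q : ℂ) ^ (2 * i.1)) • ContinuousLinearMap.proj (R := ℝ) (φ := fun _ : Fin 3 => ℂ) 1 +
    (2 * conj (cc i.2) * (Q : ℂ) ^ i.1) • ContinuousLinearMap.proj (R := ℝ) (φ := fun _ : Fin 3 => ℂ) 0

theorem LL_apply (i : ℕ × ℤ × ℤ) (X : E) :
    LL Q i X = -(Q : ℂ) ^ (2 * i.1) * X 1 + 2 * conj (cc i.2) * (Q : ℂ) ^ i.1 * X 0 := by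
  simp [LL]

theorem LL_I (i : ℕ × ℤ × ℤ) (X : E) : LL Q i (I • X) = I * LL Q i X := by
  simp only [LL_apply, Pi.smul_apply, smul_eq_mul]; ring

theorem hasFDerivAt_ell (i : ℕ × ℤ × ℤ) (p : E) : HasFDerivAt (ell Q i) (LL Q i) p := by
  have : ell Q i = fun q => LL Q i q - ((‖cc i.2‖ ^ 2 : ℝ) : ℂ) := by
    funext q; rw [LL_apply, ell]
  rw [this]
  exact (LL Q i).hasFDerivAt.sub_const _

/-- The size of an index. -/
noncomputable def ms (Q : ℝ) (i : ℕ × ℤ × ℤ) : ℝ := Q ^ (2 * i.1) + ‖cc i.2‖ ^ 2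

theorem ms_nonneg (i : ℕ × ℤ × ℤ) : 0 ≤ ms Q i := by
  rw [ms, pow_mul']; positivity

theorem norm_LL_apply (i : ℕ × ℤ × ℤ) (X : E) : ‖LL Q i X‖ ≤ 2 * ms Q i * ‖X‖ := by
  rw [LL_apply]
  refine (norm_add_le _ _).trans ?_
  have h0 := norm_le_pi_norm X 0
  have h1 := norm_le_pi_norm X 1
  simp only [norm_mul, norm_neg, norm_pow, Complex.norm_real, Real.norm_eq_abs, RCLike.norm_conj,
    Complex.norm_ofNat, ms, pow_mul']
  rw [← sq_abs (Q ^ i.1), abs_pow]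
  generalize |Q| ^ i.1 = a
  have h2 : 2 * ‖cc i.2‖ * a * ‖X 0‖ ≤ (a ^ 2 + ‖cc i.2‖ ^ 2) * ‖X‖ :=
    mul_le_mul (by nlinarith [sq_nonneg (a - ‖cc i.2‖)]) h0 (norm_nonneg _) (by positivity)
  have h3 : a ^ 2 * ‖X 1‖ ≤ (a ^ 2 + ‖cc i.2‖ ^ 2) * ‖X‖ :=
    mul_le_mul (by nlinarith [sq_nonneg ‖cc i.2‖]) h1 (norm_nonneg _) (by positivity)
  linarith

theorem norm_LL (i : ℕ × ℤ × ℤ) : ‖LL Q i‖ ≤ 2 * ms Q i :=
  ContinuousLinearMap.opNorm_le_bound _ (by have := ms_nonneg (Q := Q) i; positivity)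
    (norm_LL_apply i)

/-- The class of weights. -/
def W (Q : ℝ) (k : ℕ × ℤ × ℤ → ℂ) : Prop :=
  ∀ δ : ℝ, 0 < δ → Summable fun i => ‖k i‖ * Real.exp (-(δ * ms Q i))

theorem W.mul_ms {k : ℕ × ℤ × ℤ → ℂ} (hk : W Q k) {δ : ℝ} (hδ : 0 < δ) :
    Summable fun i => ‖k i‖ * ms Q i * Real.exp (-(δ * ms Q i)) := by
  refine ((hk (δ / 2) (by positivity)).mul_left (2 / δ)).of_nonneg_of_le
    (fun i => by have := ms_nonneg (Q := Q) i; positivity) fun i => ?_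
  have h0 := ms_nonneg (Q := Q) i
  have h1 : ms Q i ≤ 2 / δ * Real.exp (δ / 2 * ms Q i) := by
    have := Real.add_one_le_exp (δ / 2 * ms Q i)
    calc ms Q i = 2 / δ * (δ / 2 * ms Q i) := by field_simp
      _ ≤ _ := by gcongr; linarith
  calc ‖k i‖ * ms Q i * Real.exp (-(δ * ms Q i))
      ≤ ‖k i‖ * (2 / δ * Real.exp (δ / 2 * ms Q i)) * Real.exp (-(δ * ms Q i)) := by gcongr
    _ = 2 / δ * (‖k i‖ * (Real.exp (δ / 2 * ms Q i) * Real.exp (-(δ * ms Q i)))) := by ring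
    _ = _ := by rw [← Real.exp_add]; congr 3; ring

theorem W.mul {k l : ℕ × ℤ × ℤ → ℂ} (hk : W Q k) {B : ℝ} (hl : ∀ i, ‖l i‖ ≤ B * ms Q i) :
    W Q fun i => k i * l i := by
  intro δ hδ
  refine ((hk.mul_ms hδ).mul_left B).of_nonneg_of_le (fun i => by positivity) fun i => ?_
  rw [norm_mul]
  calc ‖k i‖ * ‖l i‖ * Real.exp (-(δ * ms Q i))
      ≤ ‖k i‖ * (B * ms Q i) * Real.exp (-(δ * ms Q i)) := by gcongr; exact hl i
    _ = _ := by ring

theorem W.mulL {k : ℕ × ℤ × ℤ → ℂ} (hk : W Q k) (X : E) : W Q fun i => k i * LL Q i X :=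
  hk.mul (B := 2 * ‖X‖) fun i => (norm_LL_apply i X).trans_eq (by ring)

theorem W.mulLc {k : ℕ × ℤ × ℤ → ℂ} (hk : W Q k) (X : E) : W Q fun i => k i * conj (LL Q i X) :=
  hk.mul (B := 2 * ‖X‖) fun i => by
    rw [RCLike.norm_conj]; exact (norm_LL_apply i X).trans_eq (by ring)

theorem summable_nat {δ : ℝ} (hδ : 0 < δ) : Summable fun n : ℕ => Real.exp (-(δ * n)) := by
  refine (summable_geometric_of_lt_one (Real.exp_pos (-δ)).le
    (Real.exp_lt_one_iff.2 (by linarith))).congr fun n => ?_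
  rw [← Real.exp_nat_mul]; congr 1; ring

theorem summable_int {δ : ℝ} (hδ : 0 < δ) : Summable fun j : ℤ => Real.exp (-(δ * (j : ℝ) ^ 2)) := by
  have h : Summable fun n : ℕ => Real.exp (-(δ * (n : ℝ) ^ 2)) := by
    refine (summable_nat hδ).of_nonneg_of_le (fun _ => (Real.exp_pos _).le) fun n => ?_
    have : (n : ℝ) ≤ (n : ℝ) ^ 2 := by exact_mod_cast Nat.le_self_pow two_ne_zero n
    gcongr
  refine Summable.of_nat_of_neg ?_ ?_ <;> simpa using h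

theorem W_const (hQ : 2 ≤ Q) (c : ℂ) : W Q fun _ => c := by
  intro δ hδ
  refine Summable.mul_left _ ?_
  have h1 : Summable fun n : ℕ => Real.exp (-(δ * Q ^ (2 * n))) := by
    refine (summable_nat hδ).of_nonneg_of_le (fun _ => (Real.exp_pos _).le) fun n => ?_
    have h2 : (n : ℝ) ≤ 2 ^ (2 * n) := by
      exact_mod_cast (show n ≤ 2 * n by omega).trans (Nat.lt_two_pow_self).le
    have h3 : (2 : ℝ) ^ (2 * n) ≤ Q ^ (2 * n) := by gcongr
    gcongr; linarith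
  have h2 := (summable_int hδ).mul_of_nonneg (summable_int hδ) (fun _ => (Real.exp_pos _).le)
    fun _ => (Real.exp_pos _).le
  refine (h1.mul_of_nonneg h2 (fun _ => (Real.exp_pos _).le) fun _ => by positivity).congr
    fun i => ?_
  rw [← Real.exp_add, ← Real.exp_add, ms, ← normSq_eq_norm_sq, normSq_apply]
  congr 1
  simp [cc]
  ring

theorem loc {p₀ : E} (hp : p₀ ∈ BB) : ∃ r > 0, ∃ δ > 0, ∀ p ∈ Metric.ball p₀ r, ∀ i,
    (ell Q i p).re ≤ -(δ * ms Q i) := by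
  have ht : 0 < tR p₀ := hp
  have h1 : ∀ᶠ p in 𝓝 p₀, tR p₀ / 2 < tR p :=
    cont_tR.continuousAt.eventually (lt_mem_nhds (by linarith))
  have h2 : ∀ᶠ p in 𝓝 p₀, ‖p 0‖ < ‖p₀ 0‖ + 1 :=
    (continuous_apply 0).norm.continuousAt.eventually (gt_mem_nhds (by linarith))
  obtain ⟨r, hr, h⟩ := Metric.eventually_nhds_iff_ball.1 (h1.and h2)
  set R := ‖p₀ 0‖ + 1
  have hR : 0 < 1 + 2 * R ^ 2 := by positivity
  refine ⟨r, hr, min (1 / 2) (tR p₀ / 2 / (1 + 2 * R ^ 2)), by positivity, fun p hp i => ?_⟩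
  obtain ⟨n, c⟩ := i
  obtain ⟨h3, h4⟩ := h p hp
  set δ := min (1 / 2) (tR p₀ / 2 / (1 + 2 * R ^ 2))
  have hδ0 : 0 ≤ δ := by positivity
  have hδ1 : δ ≤ 1 / 2 := min_le_left _ _
  have hδ2 : δ * (1 + 2 * R ^ 2) ≤ tR p := by
    have := (le_div_iff₀ hR).1 (min_le_right (1 / 2) (tR p₀ / 2 / (1 + 2 * R ^ 2)))
    linarith
  rw [re_ell, neg_le_neg_iff, ms]
  simp only [pow_mul']
  have h5 : ‖cc c‖ ≤ |Q ^ n| * R + ‖(Q : ℂ) ^ n * p 0 - cc c‖ := by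
    have h6 : ‖(Q : ℂ) ^ n * p 0‖ ≤ |Q ^ n| * R := by
      rw [norm_mul, norm_pow, Complex.norm_real, Real.norm_eq_abs, abs_pow]
      gcongr
    have h7 := norm_sub_le ((Q : ℂ) ^ n * p 0) ((Q : ℂ) ^ n * p 0 - cc c)
    rw [sub_sub_cancel] at h7
    linarith
  rw [← sq_abs (Q ^ n)]
  generalize ‖(Q : ℂ) ^ n * p 0 - cc c‖ = u at *
  generalize |Q ^ n| = a at *
  have h8 : ‖cc c‖ ^ 2 ≤ 2 * (a ^ 2 * R ^ 2) + 2 * u ^ 2 := by
    have := pow_le_pow_left₀ (norm_nonneg _) h5 2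
    nlinarith [sq_nonneg (a * R - u)]
  have h9 := mul_le_mul_of_nonneg_left h8 hδ0
  have h10 := mul_le_mul_of_nonneg_left hδ2 (sq_nonneg a)
  have h11 := mul_le_mul_of_nonneg_right hδ1 (sq_nonneg u)
  nlinarith

/-- The weighted series. -/
noncomputable def S (Q : ℝ) (g : ℂ → ℂ) (k : ℕ × ℤ × ℤ → ℂ) (p : E) : ℂ :=
  ∑' i, k i * g (cexp (ell Q i p))

theorem exp_le {z : ℂ} {x : ℝ} (h : z.re ≤ -x) (hx : 0 ≤ x) :
    ‖cexp z‖ ≤ Real.exp (-x) ∧ ‖cexp z‖ ≤ 1 := by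
  rw [norm_exp]
  exact ⟨Real.exp_le_exp.2 h, Real.exp_le_one_iff.2 (by linarith)⟩

theorem summable_term {g : ℂ → ℂ} {k : ℕ × ℤ × ℤ → ℂ} (hg : G g) (hk : W Q k) {p : E}
    (hp : p ∈ BB) : Summable fun i => k i * g (cexp (ell Q i p)) := by
  obtain ⟨r, hr, δ, hδ, h⟩ := loc (Q := Q) hp
  obtain ⟨C, hC0, hC⟩ := hg.bound
  refine ((hk δ hδ).mul_left C).of_norm_bounded fun i => ?_
  obtain ⟨h1, h2⟩ := exp_le (h p (Metric.mem_ball_self hr) i)
    (mul_nonneg hδ.le (ms_nonneg i))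
  have h3 := (hC _ h2).2
  rw [norm_mul]
  calc ‖k i‖ * ‖g (cexp (ell Q i p))‖ ≤ ‖k i‖ * (C * Real.exp (-(δ * ms Q i))) := by
        gcongr; exact h3.trans (by gcongr)
    _ = _ := by ring

theorem fderiv_S {g : ℂ → ℂ} {k : ℕ × ℤ × ℤ → ℂ} (hg : G g) (hk : W Q k) {p : E} (hp : p ∈ BB) :
    DifferentiableAt ℝ (S Q g k) p ∧ ∀ X, fderiv ℝ (S Q g k) p X =
      S Q (th g) (fun i => k i * LL Q i X) p + S Q (thb g) (fun i => k i * conj (LL Q i X)) p := by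
  obtain ⟨r, hr, δ, hδ, h⟩ := loc (Q := Q) hp
  obtain ⟨C, hC0, hC⟩ := hg.bound
  let f' : ℕ × ℤ × ℤ → E → E →L[ℝ] ℂ := fun i q =>
    k i • (fderiv ℝ g (cexp (ell Q i q))).comp (cexp (ell Q i q) • LL Q i)
  have hf : ∀ i q, HasFDerivAt (fun q => k i * g (cexp (ell Q i q))) (f' i q) q := fun i q =>
    ((hg.cd.differentiable (by simp) _).hasFDerivAt.comp q (hasFDerivAt_ell i q).cexp).const_mul _
  have hu := (hk.mul_ms hδ).mul_left (2 * C)
  have hb : ∀ i q, q ∈ Metric.ball p r →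
      ‖f' i q‖ ≤ 2 * C * (‖k i‖ * ms Q i * Real.exp (-(δ * ms Q i))) := by
    intro i q hq
    obtain ⟨h1, h2⟩ := exp_le (h q hq i) (mul_nonneg hδ.le (ms_nonneg i))
    have h3 := (hC _ h2).1
    have h4 := norm_LL (Q := Q) i
    have h5 := ms_nonneg (Q := Q) i
    calc ‖f' i q‖ ≤ ‖k i‖ * (‖fderiv ℝ g (cexp (ell Q i q))‖ * (‖cexp (ell Q i q)‖ * ‖LL Q i‖)) := by
          simp only [f', norm_smul]
          gcongr
          refine (ContinuousLinearMap.opNorm_comp_le _ _).trans ?_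
          rw [norm_smul]
      _ ≤ ‖k i‖ * (C * (Real.exp (-(δ * ms Q i)) * (2 * ms Q i))) := by gcongr
      _ = _ := by ring
  have hd : HasFDerivAt (S Q g k) (∑' i, f' i p) p :=
    hasFDerivAt_tsum_of_isPreconnected hu Metric.isOpen_ball (convex_ball p r).isPreconnected
      (fun i q _ => hf i q) hb (Metric.mem_ball_self hr) (summable_term hg hk hp)
      (Metric.mem_ball_self hr)
  refine ⟨hd.differentiableAt, fun X => ?_⟩
  have hs : Summable fun i => f' i p :=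
    hu.of_norm_bounded fun i => hb i p (Metric.mem_ball_self hr)
  rw [hd.fderiv, S, S, ← (summable_term hg.th (hk.mulL X) hp).tsum_add
    (summable_term hg.thb (hk.mulLc X) hp)]
  have := (ContinuousLinearMap.apply ℝ ℂ X).map_tsum hs
  rw [ContinuousLinearMap.apply_apply] at this
  rw [this]
  refine tsum_congr fun i => ?_
  simp only [f', ContinuousLinearMap.apply_apply, smul_apply,
    ContinuousLinearMap.comp_apply, smul_eq_mul, fderiv_mul]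
  ring

theorem S_mul (g : ℂ → ℂ) (c : ℂ) {k l : ℕ × ℤ × ℤ → ℂ} (h : ∀ i, l i = c * k i) (p : E) :
    S Q g l p = c * S Q g k p := by
  simp only [S, h, mul_assoc, tsum_mul_left]

theorem hw_S {g : ℂ → ℂ} {k : ℕ × ℤ × ℤ → ℂ} (hg : G g) (hk : W Q k) {p : E} (hp : p ∈ BB) :
    HW (S Q g k) p (fun X => S Q (th g) (fun i => k i * LL Q i X) p)
      fun X => S Q (thb g) (fun i => k i * conj (LL Q i X)) p := by
  obtain ⟨h1, h2⟩ := fderiv_S hg hk hp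
  have h3 : ∀ X, fderiv ℝ (S Q g k) p (I • X) = I * S Q (th g) (fun i => k i * LL Q i X) p +
      -I * S Q (thb g) (fun i => k i * conj (LL Q i X)) p := by
    intro X
    rw [h2]
    congr 1
    · exact S_mul _ _ (fun i => by rw [LL_I]; ring) p
    · exact S_mul _ _ (fun i => by rw [LL_I, map_mul, conj_I]; ring) p
  refine ⟨h1, fun X => ?_, fun X => ?_⟩
  · rw [d, h3, h2]
    linear_combination (-(S Q (th g) (fun i => k i * LL Q i X) p -
      S Q (thb g) (fun i => k i * conj (LL Q i X)) p) / 2) * I_mul_I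
  · rw [db, h3, h2]
    linear_combination ((S Q (th g) (fun i => k i * LL Q i X) p -
      S Q (thb g) (fun i => k i * conj (LL Q i X)) p) / 2) * I_mul_I

theorem cd_S_nat (n : ℕ) : ∀ {g : ℂ → ℂ} {k : ℕ × ℤ × ℤ → ℂ}, G g → W Q k →
    ContDiffOn ℝ n (S Q g k) BB := by
  induction n with
  | zero =>
    intro g k hg hk
    exact contDiffOn_zero.2 fun p hp => (fderiv_S hg hk hp).1.continuousAt.continuousWithinAt
  | succ n ih =>
    intro g k hg hk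
    rw [Nat.cast_succ, contDiffOn_succ_iff_fderiv_of_isOpen isOpen_BB]
    refine ⟨fun p hp => (fderiv_S hg hk hp).1.differentiableWithinAt, by simp, ?_⟩
    refine contDiffOn_clm_apply.2 fun X => ?_
    exact ((ih hg.th (hk.mulL X)).add (ih hg.thb (hk.mulLc X))).congr
      fun p hp => (fderiv_S hg hk hp).2 X

/-- `f` is represented by a weighted series. -/
structure Rep (Q : ℝ) (f : E → ℂ) (g : ℂ → ℂ) (k : ℕ × ℤ × ℤ → ℂ) : Prop where
  hg : G g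
  hk : W Q k
  eq : ∀ q ∈ BB, f q = S Q g k q

theorem Rep.d {f : E → ℂ} {g : ℂ → ℂ} {k : ℕ × ℤ × ℤ → ℂ} (h : Rep Q f g k) (X : E) :
    Rep Q (d X f) (th g) fun i => k i * LL Q i X :=
  ⟨h.hg.th, h.hk.mulL X, fun _ hq =>
    (d_congr (congr_on isOpen_BB h.eq hq) X).trans ((hw_S h.hg h.hk hq).d_eq X)⟩

theorem Rep.db {f : E → ℂ} {g : ℂ → ℂ} {k : ℕ × ℤ × ℤ → ℂ} (h : Rep Q f g k) (X : E) :
    Rep Q (db X f) (thb g) fun i => k i * conj (LL Q i X) :=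
  ⟨h.hg.thb, h.hk.mulLc X, fun _ hq =>
    (db_congr (congr_on isOpen_BB h.eq hq) X).trans ((hw_S h.hg h.hk hq).db_eq X)⟩

/-- The exponent of decay. -/
noncomputable def kap (Q : ℝ) (i : ℕ × ℤ × ℤ) (p : E) : ℝ :=
  (Q ^ i.1 * √(tR p)) ^ 2 + ‖(Q : ℂ) ^ i.1 * p 0 - cc i.2‖ ^ 2

theorem kap_nonneg (i : ℕ × ℤ × ℤ) (p : E) : 0 ≤ kap Q i p := by unfold kap; positivity

theorem re_ell' (i : ℕ × ℤ × ℤ) {p : E} (hp : p ∈ BB) : (ell Q i p).re = -kap Q i p := by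
  rw [kap, mul_pow, Real.sq_sqrt (le_of_lt hp), ← pow_mul']
  exact re_ell Q i.1 i.2 p

theorem nu_nonneg (p X : E) : 0 ≤ nu p X := Real.sqrt_nonneg _

theorem LL_le (hQ : 2 ≤ Q) (i : ℕ × ℤ × ℤ) {p : E} (hp : p ∈ BB) (X : E) :
    ‖LL Q i X‖ ≤ Q ^ i.1 * √(tR p) * (1 + kap Q i p) * nu p X ∧
      ‖LL Q i X‖ ≤ 3 * (1 + kap Q i p) * nu p X := by
  have ht : 0 < tR p := hp
  set s := √(tR p) with hs
  have hs0 : 0 < s := Real.sqrt_pos.2 ht
  have hs2 : tR p = s ^ 2 := (Real.sq_sqrt ht.le).symm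
  have hn0 := nu_nonneg p X
  have hn : nu p X ^ 2 = (‖X 0‖ / s) ^ 2 + (‖tX p X‖ / s ^ 2) ^ 2 := by
    rw [nu, Real.sq_sqrt (by rw [om_re]; positivity), om_re, hs2, div_pow, div_pow]
  have e : LL Q i X = -2 * (Q : ℂ) ^ (2 * i.1) * tX p X -
      2 * conj ((Q : ℂ) ^ i.1 * p 0 - cc i.2) * (Q : ℂ) ^ i.1 * X 0 := by
    simp only [LL_apply, tX, map_sub, map_mul, map_pow, conj_ofReal]
    ring
  have hQ0 : 0 ≤ Q := by linarith
  have h1 : ‖LL Q i X‖ ≤ 2 * (Q ^ i.1 * s) * ((Q ^ i.1 * s) * (‖tX p X‖ / s ^ 2) +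
      ‖(Q : ℂ) ^ i.1 * p 0 - cc i.2‖ * (‖X 0‖ / s)) := by
    rw [e]
    refine (norm_sub_le _ _).trans_eq ?_
    simp only [norm_mul, norm_neg, norm_pow, Complex.norm_real, Real.norm_of_nonneg hQ0,
      RCLike.norm_conj, Complex.norm_ofNat]
    field_simp
    ring
  rw [kap, ← hs]
  have hy : 0 ≤ Q ^ i.1 * s := by positivity
  have hu := norm_nonneg ((Q : ℂ) ^ i.1 * p 0 - cc i.2)
  have ha : 0 ≤ ‖X 0‖ / s := by positivity
  have hb : 0 ≤ ‖tX p X‖ / s ^ 2 := by positivity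
  generalize Q ^ i.1 * s = y at *
  generalize ‖(Q : ℂ) ^ i.1 * p 0 - cc i.2‖ = u at *
  generalize ‖X 0‖ / s = a at *
  generalize ‖tX p X‖ / s ^ 2 = b at *
  generalize nu p X = v at *
  have h2 : 2 * (y * b + u * a) ≤ (1 + (y ^ 2 + u ^ 2)) * v := by
    refine (pow_le_pow_iff_left₀ (by positivity) (by positivity) two_ne_zero).1 ?_
    rw [mul_pow, mul_pow, hn]
    have h3 : (y * b + u * a) ^ 2 ≤ (y ^ 2 + u ^ 2) * (a ^ 2 + b ^ 2) := by
      nlinarith [sq_nonneg (y * a - u * b)]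
    have h4 : 4 * (y ^ 2 + u ^ 2) ≤ (1 + (y ^ 2 + u ^ 2)) ^ 2 := by
      nlinarith [sq_nonneg (1 - (y ^ 2 + u ^ 2))]
    have h5 := mul_le_mul_of_nonneg_right h4 (by positivity : 0 ≤ a ^ 2 + b ^ 2)
    nlinarith
  have hav : a ≤ v := by
    refine (pow_le_pow_iff_left₀ ha hn0 two_ne_zero).1 ?_
    rw [hn]; nlinarith [sq_nonneg b]
  have hbv : b ≤ v := by
    refine (pow_le_pow_iff_left₀ hb hn0 two_ne_zero).1 ?_
    rw [hn]; nlinarith [sq_nonneg a]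
  refine ⟨h1.trans ?_, h1.trans ?_⟩
  · nlinarith [mul_le_mul_of_nonneg_left h2 hy]
  · have h3 : y * (y * b + u * a) ≤ (y ^ 2 + y * u) * v := by
      nlinarith [mul_le_mul_of_nonneg_left hbv (sq_nonneg y),
        mul_le_mul_of_nonneg_left hav (mul_nonneg hy hu)]
    have h4 : 2 * (y ^ 2 + y * u) ≤ 3 * (1 + (y ^ 2 + u ^ 2)) := by nlinarith [sq_nonneg (y - u)]
    nlinarith [mul_le_mul_of_nonneg_right h4 hn0]

/-- The majorant. -/
noncomputable def vv (Q y : ℝ) (z : ℂ) (i : ℕ × ℤ × ℤ) : ℝ :=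
  Q ^ i.1 * y * Real.exp (-(Q ^ i.1 * y) ^ 2 / 2) * Real.exp (-‖(Q : ℂ) ^ i.1 * z - cc i.2‖ ^ 2 / 2)

theorem vv_sum (hQ : 2 ≤ Q) : ∃ D, 0 ≤ D ∧ ∀ y z, 0 ≤ y →
    Summable (vv Q y z) ∧ ∑' i, vv Q y z i ≤ D := by
  obtain ⟨D, hD⟩ := lattice_sum
  have hD0 : 0 ≤ D := (tsum_nonneg fun _ => (Real.exp_pos _).le).trans (hD 0).2
  refine ⟨7 * D, by positivity, fun y z hy => ?_⟩
  obtain ⟨l1, l2⟩ := level_sum hQ hy
  have hQ0 : 0 ≤ Q := by linarith
  have hv0 : 0 ≤ vv Q y z := fun i => by simp only [vv, Pi.zero_apply]; positivity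
  have h1 : ∀ n, Summable fun c => vv Q y z (n, c) := fun n => by
    simp only [vv]
    exact (hD ((Q : ℂ) ^ n * z)).1.mul_left _
  have h2 : ∀ n, ∑' c, vv Q y z (n, c) ≤ Q ^ n * y * Real.exp (-(Q ^ n * y) ^ 2 / 2) * D :=
    fun n => by
      simp only [vv]
      rw [tsum_mul_left]
      exact mul_le_mul_of_nonneg_left (hD _).2 (by positivity)
  have h3 : Summable fun n => ∑' c, vv Q y z (n, c) :=
    (l1.mul_right D).of_nonneg_of_le (fun n => tsum_nonneg fun c => hv0 _) h2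
  have hv : Summable (vv Q y z) := (summable_prod_of_nonneg hv0).2 ⟨h1, h3⟩
  refine ⟨hv, ?_⟩
  rw [hv.tsum_prod]
  refine (h3.tsum_le_tsum h2 (l1.mul_right D)).trans ?_
  rw [tsum_mul_right]
  exact mul_le_mul_of_nonneg_right l2 hD0

theorem vv_eq (i : ℕ × ℤ × ℤ) (p : E) : vv Q √(tR p) (p 0) i =
    Q ^ i.1 * √(tR p) * (Real.exp (kap Q i p / 8) ^ 4 * Real.exp (-kap Q i p)) := by
  rw [vv, mul_assoc, ← Real.exp_add, ← Real.exp_nat_mul, ← Real.exp_add, kap]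
  congr 2
  push_cast
  ring

theorem S_bound (hQ : 2 ≤ Q) {g : ℂ → ℂ} (hg : G g) : ∃ C, 0 ≤ C ∧ ∀ p ∈ BB,
    ∀ (k : ℕ × ℤ × ℤ → ℂ) (a : ℝ), 0 ≤ a →
      (∀ i, ‖k i‖ ≤ a * (Q ^ i.1 * √(tR p)) * (1 + kap Q i p) ^ 4) → ‖S Q g k p‖ ≤ C * a := by
  obtain ⟨C, hC0, hC⟩ := hg.bound
  obtain ⟨D, hD0, hD⟩ := vv_sum hQ
  refine ⟨C * 8 ^ 4 * D, by positivity, fun p hp k a ha hk => ?_⟩
  obtain ⟨hv, h4⟩ := hD √(tR p) (p 0) (Real.sqrt_nonneg _)
  have hQ0 : 0 ≤ Q := by linarith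
  have h5 : ∀ i, ‖k i * g (cexp (ell Q i p))‖ ≤ C * 8 ^ 4 * a * vv Q √(tR p) (p 0) i := by
    intro i
    have hκ := kap_nonneg (Q := Q) i p
    obtain ⟨e1, e2⟩ := exp_le (re_ell' (Q := Q) i hp).le hκ
    have e3 := (hC _ e2).2.trans (mul_le_mul_of_nonneg_left e1 hC0)
    have e4 : 1 + kap Q i p ≤ 8 * Real.exp (kap Q i p / 8) := by
      linarith [Real.add_one_le_exp (kap Q i p / 8)]
    have e6 : ‖k i‖ ≤ a * (Q ^ i.1 * √(tR p)) * (8 * Real.exp (kap Q i p / 8)) ^ 4 :=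
      (hk i).trans (by gcongr)
    rw [norm_mul, vv_eq]
    exact (mul_le_mul e6 e3 (norm_nonneg _) (by positivity)).trans_eq (by ring)
  refine (tsum_of_norm_bounded (hv.mul_left (C * 8 ^ 4 * a)).hasSum h5).trans ?_
  rw [tsum_mul_left]
  exact (mul_le_mul_of_nonneg_left h4 (by positivity)).trans_eq (by ring)

variable {η : ℝ}

/-- The profile as a complex valued function. -/
noncomputable def pc (η : ℝ) (ζ : ℂ) : ℂ := psi η ζ

theorem G_pc (hη : 0 < η) : G (pc η) := by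
  refine ⟨ofRealCLM.contDiff.comp (ContDiff.log ?_ fun ζ => by positivity), ?_⟩
  · exact (((contDiff_norm_sq ℝ).comp (contDiff_const.sub (contDiff_const.mul contDiff_id))).add
      contDiff_const).div_const _
  · simp [pc, psi, div_self (by positivity : (1 + η) ≠ 0)]

theorem th_of {g : ℂ → ℂ} {ζ : ℂ} (hg : DifferentiableAt ℝ g ζ) {L L' : E → ℂ}
    (h : HW (fun q => g (q 0)) (fun _ => ζ) L L') :
    th g ζ = L (fun _ => ζ) ∧ thb g ζ = L' fun _ => ζ := by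
  have h1 : HasFDerivAt (fun q : E => g (q 0))
      ((fderiv ℝ g ζ).comp (ContinuousLinearMap.proj (R := ℝ) (φ := fun _ : Fin 3 => ℂ) 0))
      (fun _ => ζ) :=
    HasFDerivAt.comp (fun _ => ζ : E) (f := fun q : E => q 0) hg.hasFDerivAt
      (ContinuousLinearMap.proj (R := ℝ) (φ := fun _ : Fin 3 => ℂ) 0).hasFDerivAt
  rw [← h.d_eq, ← h.db_eq, d, db, h1.fderiv]
  exact ⟨rfl, rfl⟩

/-- The denominator. -/
noncomputable def DD (η : ℝ) (ζ : ℂ) : ℂ := (1 - cexp 25 * ζ) * conj (1 - cexp 25 * ζ) + η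

theorem DD_eq (ζ : ℂ) : DD η ζ = ((‖1 - cexp 25 * ζ‖ ^ 2 + η : ℝ) : ℂ) := by
  rw [DD, mul_conj, normSq_eq_norm_sq]; push_cast; rfl

theorem DD_ne (hη : 0 < η) (ζ : ℂ) : DD η ζ ≠ 0 := by
  rw [DD_eq]; exact ofReal_ne_zero.2 (by positivity)

theorem hw_lin (p : E) : HW (fun q => 1 - cexp 25 * q 0) p (fun X => -cexp 25 * X 0) fun _ => 0 :=
  ((hw_const 1 p).sub ((hw_coord 0 p).cmul (cexp 25))).congr (by simp) (by simp)

theorem hw_DD (p : E) : HW (fun q => DD η (q 0)) p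
    (fun X => -cexp 25 * X 0 * conj (1 - cexp 25 * p 0))
    fun X => (1 - cexp 25 * p 0) * conj (-cexp 25 * X 0) :=
  (((hw_lin p).mul (hw_lin p).cj).add (hw_const η p)).congr (by simp) (by simp)

theorem thb_pc (hη : 0 < η) : thb (pc η) = fun ζ =>
    (1 - cexp 25 * ζ) * conj (-cexp 25 * ζ) * (DD η ζ)⁻¹ := by
  funext ζ
  have h1 : ((1 + η : ℝ) : ℂ) ≠ 0 := ofReal_ne_zero.2 (by positivity)
  have e : ∀ z, pc η z = Complex.log (((1 + η : ℝ) : ℂ)⁻¹ * DD η z) := by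
    intro z
    rw [pc, psi, ofReal_log (by positivity), DD_eq, ofReal_div, div_eq_inv_mul]
  have hs : ((1 + η : ℝ) : ℂ)⁻¹ * DD η ζ ∈ slitPlane := by
    rw [DD_eq, ← ofReal_inv, ← ofReal_mul]
    exact ofReal_mem_slitPlane.2 (by positivity)
  have h2 := ((hw_DD (η := η) fun _ => ζ).cmul ((1 + η : ℝ) : ℂ)⁻¹).comp (hasDerivAt_log hs)
  simp only [← e] at h2
  rw [(th_of ((G_pc hη).cd.differentiable (by simp) ζ) h2).2]
  have := DD_ne hη ζ
  field_simp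

theorem th_thb_pc (hη : 0 < η) (ζ : ℂ) : th (thb (pc η)) ζ =
    ((‖cexp 25 * ζ‖ ^ 2 * η / (‖1 - cexp 25 * ζ‖ ^ 2 + η) ^ 2 : ℝ) : ℂ) := by
  have h0 := (G_pc hη).thb.cd.differentiable (by simp) ζ
  have h1 := ((hw_lin fun _ => ζ).mul ((hw_coord 0 fun _ => ζ).cmul (-cexp 25)).cj).mul
    ((hw_DD (η := η) fun _ => ζ).inv (DD_ne hη ζ))
  rw [thb_pc hη] at h0 ⊢
  rw [(th_of h0 h1).1, ofReal_div, ofReal_pow, ← DD_eq, ofReal_mul, ← normSq_eq_norm_sq,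
    ← mul_conj]
  have h2 := DD_ne hη ζ
  have h3 : (η : ℂ) = DD η ζ - (1 - cexp 25 * ζ) * conj (1 - cexp 25 * ζ) := by rw [DD]; ring
  generalize DD η ζ = D at *
  rw [h3]
  simp only [map_zero, map_mul, map_neg]
  field_simp
  ring

theorem rep_Psi (hη : 0 < η) (hQ : 2 ≤ Q) (N : ℝ) :
    Rep Q (fun q => (Psi η Q N q : ℂ)) (pc η) fun _ => N :=
  ⟨G_pc hη, W_const hQ _, fun q _ => by
    simp only [Psi, S, pc, ofReal_mul, ofReal_tsum, tsum_mul_left]⟩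

end Gd

open Gd in
theorem good_Psi {η Q N : ℝ} (hη : 0 < η) (hQ : 2 ≤ Q) (hN : 0 ≤ N) :
    ∃ C, Good (Psi η Q N) C := by
  have R := rep_Psi hη hQ N
  obtain ⟨C2, c2, h2⟩ := S_bound hQ R.hg.thb.th
  obtain ⟨C3, c3, h3⟩ := S_bound hQ R.hg.thb.th.th
  obtain ⟨C4, c4, h4⟩ := S_bound hQ R.hg.thb.thb.th.th
  have hQ0 : 0 ≤ Q := by linarith
  refine ⟨27 * N * (C2 + C3 + C4), ?_, ?_, ?_, ?_, ?_, ?_⟩
  · exact (reCLM.contDiff.comp_contDiffOn
      (contDiffOn_infty.2 fun n => cd_S_nat n R.hg R.hk)).congr fun p hp => by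
        simp [← R.eq p hp]
  · intro p q h0 h1
    simp only [Psi, ell, h0, h1]
  · intro p hp X
    rw [((R.db X).d X).eq p hp, S]
    simp only [th_thb_pc hη, mul_assoc (N : ℂ), ← normSq_eq_conj_mul_self, ← ofReal_mul,
      ← ofReal_tsum, ofReal_re]
    exact tsum_nonneg fun i => by have := normSq_nonneg (LL Q i X); positivity
  · intro p hp X Y
    have n1 := nu_nonneg p X
    have n2 := nu_nonneg p Y
    rw [((R.db Y).d X).eq p hp]
    refine (h2 p hp _ (3 * N * nu p X * nu p Y) (by positivity) fun i => ?_).trans ?_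
    · have k0 := kap_nonneg (Q := Q) i p
      have k1 : 1 ≤ (1 + kap Q i p) ^ 2 := one_le_pow₀ (by linarith)
      simp only [norm_mul, RCLike.norm_conj, Complex.norm_real, Real.norm_of_nonneg hN]
      calc N * ‖LL Q i Y‖ * ‖LL Q i X‖ ≤ N * (3 * (1 + kap Q i p) * nu p Y) *
            (Q ^ i.1 * √(tR p) * (1 + kap Q i p) * nu p X) := by
            gcongr
            exacts [(LL_le hQ i hp Y).2, (LL_le hQ i hp X).1]
        _ = 3 * N * nu p X * nu p Y * (Q ^ i.1 * √(tR p)) * (1 + kap Q i p) ^ 2 * 1 := by ring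
        _ ≤ 3 * N * nu p X * nu p Y * (Q ^ i.1 * √(tR p)) * (1 + kap Q i p) ^ 2 *
            (1 + kap Q i p) ^ 2 := by gcongr
        _ = _ := by ring
    · have : 0 ≤ N * nu p X * nu p Y := by positivity
      nlinarith [mul_nonneg c2 this, mul_nonneg c3 this, mul_nonneg c4 this]
  · intro p hp X Z Y
    have n1 := nu_nonneg p X
    have n2 := nu_nonneg p Y
    have n3 := nu_nonneg p Z
    rw [(((R.db Y).d Z).d X).eq p hp]
    refine (h3 p hp _ (9 * N * nu p X * nu p Z * nu p Y) (by positivity) fun i => ?_).trans ?_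
    · have k0 := kap_nonneg (Q := Q) i p
      have k1 : 1 ≤ 1 + kap Q i p := by linarith
      simp only [norm_mul, RCLike.norm_conj, Complex.norm_real, Real.norm_of_nonneg hN]
      calc N * ‖LL Q i Y‖ * ‖LL Q i Z‖ * ‖LL Q i X‖ ≤ N * (3 * (1 + kap Q i p) * nu p Y) *
            (3 * (1 + kap Q i p) * nu p Z) * (Q ^ i.1 * √(tR p) * (1 + kap Q i p) * nu p X) := by
            gcongr
            exacts [(LL_le hQ i hp Y).2, (LL_le hQ i hp Z).2, (LL_le hQ i hp X).1]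
        _ = 9 * N * nu p X * nu p Z * nu p Y * (Q ^ i.1 * √(tR p)) * (1 + kap Q i p) ^ 3 * 1 := by
            ring
        _ ≤ 9 * N * nu p X * nu p Z * nu p Y * (Q ^ i.1 * √(tR p)) * (1 + kap Q i p) ^ 3 *
            (1 + kap Q i p) := by gcongr
        _ = _ := by ring
    · have : 0 ≤ N * nu p X * nu p Z * nu p Y := by positivity
      nlinarith [mul_nonneg c2 this, mul_nonneg c3 this, mul_nonneg c4 this]
  · intro p hp X Z Y V
    have n1 := nu_nonneg p X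
    have n2 := nu_nonneg p Y
    have n3 := nu_nonneg p Z
    have n4 := nu_nonneg p V
    rw [((((R.db V).db Y).d Z).d X).eq p hp]
    refine (h4 p hp _ (27 * N * nu p X * nu p Z * nu p Y * nu p V) (by positivity)
      fun i => ?_).trans ?_
    · have k0 := kap_nonneg (Q := Q) i p
      simp only [norm_mul, RCLike.norm_conj, Complex.norm_real, Real.norm_of_nonneg hN]
      calc N * ‖LL Q i V‖ * ‖LL Q i Y‖ * ‖LL Q i Z‖ * ‖LL Q i X‖ ≤
            N * (3 * (1 + kap Q i p) * nu p V) * (3 * (1 + kap Q i p) * nu p Y) *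
            (3 * (1 + kap Q i p) * nu p Z) * (Q ^ i.1 * √(tR p) * (1 + kap Q i p) * nu p X) := by
            gcongr
            exacts [(LL_le hQ i hp V).2, (LL_le hQ i hp Y).2, (LL_le hQ i hp Z).2,
              (LL_le hQ i hp X).1]
        _ = _ := by ring
    · have : 0 ≤ N * nu p X * nu p Z * nu p Y * nu p V := by positivity
      nlinarith [mul_nonneg c2 this, mul_nonneg c3 this, mul_nonneg c4 this]

end Vale.Agent.P250
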