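import Vale.Agent.P250.Dom

/-!
The Jacobian along the zero section of a bounded holomorphic immersion.

Plan. `π p = ![p 0, p 1, 0] ∈ MM Ψ` for `p ∈ BB`. `J p = det (fderiv ℂ F (π p))` (determinant of the
matrix `(i, j) ↦ fderiv ℂ F (π p) (e j) i`), nonzero by injectivity. Holomorphy along lines: for
`F` complex differentiable on an open set, `l ↦ fderiv ℂ F (a + l • X) v` is holomorphic (locally
uniform limit of difference quotients, or Cauchy integral formula in the direction `v`).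
Bound: the determinant equals `det (F' e₁, F' e₂, F' e₃)` for `e₁ = ![1, 2 conj (p 0), 0]`,
`e₂ = ![0, 1, 0]`, `e₃ = ![0, 0, 1]`; the discs `π p + l • e₁` (`‖l‖² < tR p`, depth
`tR p - ‖l‖²`), `π p + l • e₂` (`‖l‖ < tR p`), `π p + l • e₃` (`‖l‖ < exp (-Phi / 2)`) lie in
`MM Ψ`; Schwarz lemma (`Complex.norm_deriv_le_div_of_mapsTo_ball`).
-/

namespace Vale.Agent.P250

open scoped ContDiff ComplexConjugate
open Complex Filter Topology

open Metric Set in
theorem line_diff {U : Set E} (hU : IsOpen U) {F : E → E} (hF : DifferentiableOn ℂ F U)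
    {a v : E} {μ : ℂ} (h : a + μ • v ∈ U) :
    HasDerivAt (fun l : ℂ => F (a + l • v)) (fderiv ℂ F (a + μ • v) v) μ := by
  have h1 : HasDerivAt (fun l : ℂ => a + l • v) v μ := by
    simpa using ((hasDerivAt_id μ).smul_const v).const_add a
  exact (hF.differentiableAt (hU.mem_nhds h)).hasFDerivAt.comp_hasDerivAt μ h1

open Metric Set in
theorem line_maps {U : Set E} {F : E → E} {R : ℝ} (hR : ∀ p ∈ U, ‖F p‖ ≤ R) {a v : E} {r : ℝ}
    (hr : 0 < r) (h : ∀ μ : ℂ, ‖μ‖ < r → a + μ • v ∈ U) :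
    MapsTo (fun l : ℂ => F (a + l • v)) (ball 0 r)
      (closedBall ((fun l : ℂ => F (a + l • v)) 0) (2 * R)) := by
  intro l hl
  have h1 := hR _ (h l (by simpa using hl))
  have h2 := hR _ (h 0 (by simpa using hr))
  rw [mem_closedBall, dist_eq_norm]
  exact (norm_sub_le _ _).trans (by linarith)

open Metric Set in
theorem schwarz_line {U : Set E} (hU : IsOpen U) {F : E → E} (hF : DifferentiableOn ℂ F U) {R : ℝ}
    (hR : ∀ p ∈ U, ‖F p‖ ≤ R) {a v : E} {r : ℝ} (hr : 0 < r)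
    (h : ∀ μ : ℂ, ‖μ‖ < r → a + μ • v ∈ U) : ‖fderiv ℂ F a v‖ ≤ 2 * R / r := by
  have hd : DifferentiableOn ℂ (fun l : ℂ => F (a + l • v)) (ball 0 r) := fun l hl =>
    (line_diff hU hF (h l (by simpa using hl))).differentiableAt.differentiableWithinAt
  have h1 := norm_deriv_le_div_of_mapsTo_ball hd (line_maps hR hr h) hr
  rw [(line_diff hU hF (h 0 (by simpa using hr))).deriv] at h1
  simpa using h1

open Metric Set in
theorem quot_line {U : Set E} (hU : IsOpen U) {F : E → E} (hF : DifferentiableOn ℂ F U) {R : ℝ}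
    (hR : ∀ p ∈ U, ‖F p‖ ≤ R) {a v : E} {r : ℝ} (hr : 0 < r)
    (h : ∀ μ : ℂ, ‖μ‖ < r → a + μ • v ∈ U) {μ : ℂ} (h0 : μ ≠ 0) (hμ : ‖μ‖ < r) :
    dist (fderiv ℂ F a v) (μ⁻¹ • (F (a + μ • v) - F a)) ≤ 2 * (2 * R / r) / r * ‖μ‖ := by
  have hd : DifferentiableOn ℂ (fun l : ℂ => F (a + l • v)) (ball 0 r) := fun l hl =>
    (line_diff hU hF (h l (by simpa using hl))).differentiableAt.differentiableWithinAt
  have hb := fun z (hz : z ∈ ball (0 : ℂ) r) =>
    norm_dslope_le_div_of_mapsTo_ball hd (line_maps hR hr h) hz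
  have h1 := dist_le_div_mul_dist_of_mapsTo_ball (R₂ := 2 * (2 * R / r))
    ((differentiableOn_dslope (ball_mem_nhds (0 : ℂ) hr)).2 hd) (fun z hz => by
      rw [mem_closedBall, dist_eq_norm]
      have := hb z hz
      have := hb 0 (mem_ball_self hr)
      exact (norm_sub_le _ _).trans (by linarith)) (z := μ) (by simpa using hμ)
  rw [dslope_same, dslope_of_ne _ h0, (line_diff hU hF (h 0 (by simpa using hr))).deriv,
    slope_def_module, dist_comm] at h1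
  simpa using h1

open Metric Set in
theorem holo_line {U : Set E} (hU : IsOpen U) {F : E → E} (hF : DifferentiableOn ℂ F U) {R : ℝ}
    (hR : ∀ p ∈ U, ‖F p‖ ≤ R) (a X v : E) {l₀ : ℂ} (h : a + l₀ • X ∈ U) :
    DifferentiableAt ℂ (fun l : ℂ => fderiv ℂ F (a + l • X) v) l₀ := by
  have hc : Continuous fun q : ℂ × ℂ => a + q.1 • X + q.2 • v := by fun_prop
  obtain ⟨r, hr, hs⟩ := Metric.isOpen_iff.1 (hU.preimage hc) (l₀, 0) (by simpa using h)
  have hm : ∀ l ∈ ball l₀ r, ∀ μ : ℂ, ‖μ‖ < r → a + l • X + μ • v ∈ U := fun l hl μ hμ =>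
    hs (show (l, μ) ∈ ball (l₀, (0 : ℂ)) r by
      rw [← ball_prod_same]; exact ⟨hl, by simpa using hμ⟩)
  have hev : ∀ᶠ μ in 𝓝[≠] (0 : ℂ), μ ≠ 0 ∧ ‖μ‖ < r := by
    refine (eventually_mem_nhdsWithin.mono fun μ hμ => hμ).and ?_
    exact mem_nhdsWithin_of_mem_nhds (by
      filter_upwards [ball_mem_nhds (0 : ℂ) hr] with μ hμ using by simpa using hμ)
  have hu : TendstoUniformlyOn (fun (μ : ℂ) (l : ℂ) => μ⁻¹ • (F (a + l • X + μ • v) - F (a + l • X)))
      (fun l : ℂ => fderiv ℂ F (a + l • X) v) (𝓝[≠] (0 : ℂ)) (ball l₀ r) := by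
    rw [Metric.tendstoUniformlyOn_iff]
    intro ε hε
    have ht : Tendsto (fun μ : ℂ => 2 * (2 * R / r) / r * ‖μ‖) (𝓝[≠] (0 : ℂ)) (𝓝 0) := by
      have : Continuous fun μ : ℂ => 2 * (2 * R / r) / r * ‖μ‖ := by fun_prop
      simpa using (this.tendsto 0).mono_left nhdsWithin_le_nhds
    filter_upwards [hev, ht.eventually (gt_mem_nhds hε)] with μ h1 h2 l hl
    exact (quot_line hU hF hR hr (hm l hl) h1.1 h1.2).trans_lt h2
  refine (hu.tendstoLocallyUniformlyOn.differentiableOn ?_ isOpen_ball).differentiableAt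
    (ball_mem_nhds _ hr)
  filter_upwards [hev] with μ hμ l hl
  have h1 : a + μ • v + l • X ∈ U := by rw [add_right_comm]; exact hm l hl μ hμ.2
  have h2 : a + l • X ∈ U := by simpa using hm l hl 0 (by simpa using hr)
  have h3 := (line_diff hU hF h1).differentiableAt
  simp only [add_right_comm a (μ • v)] at h3
  exact ((h3.sub (line_diff hU hF h2).differentiableAt).const_smul μ⁻¹).differentiableWithinAt

/-- The determinant of three vectors. -/
def det3 (u v w : E) : ℂ :=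
  u 0 * v 1 * w 2 - u 0 * v 2 * w 1 - u 1 * v 0 * w 2 + u 1 * v 2 * w 0 + u 2 * v 0 * w 1 -
    u 2 * v 1 * w 0

theorem norm_det3 (u v w : E) : ‖det3 u v w‖ ≤ 6 * (‖u‖ * ‖v‖ * ‖w‖) := by
  have key : ∀ i j k, ‖u i * v j * w k‖ ≤ ‖u‖ * ‖v‖ * ‖w‖ := fun i j k => by
    rw [norm_mul, norm_mul]
    gcongr <;> exact norm_le_pi_norm _ _
  have h1 := norm_sub_le (u 0 * v 1 * w 2 - u 0 * v 2 * w 1 - u 1 * v 0 * w 2 + u 1 * v 2 * w 0 +
    u 2 * v 0 * w 1) (u 2 * v 1 * w 0)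
  have h2 := norm_add_le (u 0 * v 1 * w 2 - u 0 * v 2 * w 1 - u 1 * v 0 * w 2 + u 1 * v 2 * w 0)
    (u 2 * v 0 * w 1)
  have h3 := norm_add_le (u 0 * v 1 * w 2 - u 0 * v 2 * w 1 - u 1 * v 0 * w 2) (u 1 * v 2 * w 0)
  have h4 := norm_sub_le (u 0 * v 1 * w 2 - u 0 * v 2 * w 1) (u 1 * v 0 * w 2)
  have h5 := norm_sub_le (u 0 * v 1 * w 2) (u 0 * v 2 * w 1)
  unfold det3
  linarith [key 0 1 2, key 0 2 1, key 1 0 2, key 1 2 0, key 2 0 1, key 2 1 0]

theorem det3_ne {L : E →L[ℂ] E} (hL : Function.Injective L) :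
    det3 (L ![1, 0, 0]) (L ![0, 1, 0]) (L ![0, 0, 1]) ≠ 0 := by
  intro h0
  let M : Matrix (Fin 3) (Fin 3) ℂ := Matrix.of ![L ![1, 0, 0], L ![0, 1, 0], L ![0, 0, 1]]
  have hM : M.det = 0 := by
    rw [Matrix.det_fin_three, ← h0]
    simp [M, det3]
  obtain ⟨c, hc, hv⟩ := Matrix.exists_vecMul_eq_zero_iff.2 hM
  refine hc (hL ?_)
  have e : c = c 0 • ![1, 0, 0] + c 1 • ![0, 1, 0] + c 2 • ![0, 0, 1] := by
    ext i; fin_cases i <;> simp
  rw [map_zero, e, map_add, map_add, map_smul, map_smul, map_smul, ← hv]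
  ext i
  simp [M, Matrix.vecMul, dotProduct, Fin.sum_univ_three]

theorem zero_mem_MM {Ψ : E → ℝ} {q : E} (h : 0 < tR q) (h2 : q 2 = 0) : q ∈ MM Ψ :=
  ⟨h, by simp [h2]⟩

theorem exists_jac {Ψ : E → ℝ} {C : ℝ} (h : Good Ψ C) {F : E → E}
    (hF : DifferentiableOn ℂ F (MM Ψ)) (hb : Bornology.IsBounded (F '' MM Ψ))
    (hi : ∀ p ∈ MM Ψ, Function.Injective (fderiv ℂ F p)) : ∃ (J : E → ℂ) (C' : ℝ),
    (∀ p X : E, DifferentiableOn ℂ (fun l : ℂ => J (p + l • X)) {l | p + l • X ∈ BB}) ∧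
    (∀ p ∈ BB, J p ≠ 0) ∧
    ∀ p ∈ BB, ‖J p‖ ^ 2 ≤ C' * (tR p)⁻¹ ^ 4 * Real.exp (Ψ p) := by
  obtain ⟨R, hR0⟩ := hb.exists_norm_le
  have hR : ∀ p ∈ MM Ψ, ‖F p‖ ≤ R := fun p hp => hR0 _ ⟨p, hp, rfl⟩
  have hU := h.isOpen_MM
  have hπ : ∀ p ∈ BB, (![p 0, p 1, 0] : E) ∈ MM Ψ := fun p hp => zero_mem_MM hp rfl
  refine ⟨fun p => det3 (fderiv ℂ F ![p 0, p 1, 0] ![1, 0, 0]) (fderiv ℂ F ![p 0, p 1, 0] ![0, 1, 0])
    (fderiv ℂ F ![p 0, p 1, 0] ![0, 0, 1]), (6 * (2 * R) ^ 3) ^ 2, fun p X l hl => ?_,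
    fun p hp => det3_ne (hi _ (hπ p hp)), fun p hp => ?_⟩
  · have e : ∀ l : ℂ, (![(p + l • X) 0, (p + l • X) 1, 0] : E) =
        ![p 0, p 1, 0] + l • ![X 0, X 1, 0] := fun l => by
      ext i; fin_cases i <;> simp
    have hl' : (![p 0, p 1, 0] : E) + l • ![X 0, X 1, 0] ∈ MM Ψ := e l ▸ hπ _ hl
    have key := fun v i => differentiableAt_pi.1 (holo_line hU hF hR _ _ v hl') i
    simp only [e, det3]
    refine DifferentiableAt.differentiableWithinAt ?_
    exact ((((((key _ _).mul (key _ _)).mul (key _ _)).sub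
      (((key _ _).mul (key _ _)).mul (key _ _))).sub
      (((key _ _).mul (key _ _)).mul (key _ _))).add
      (((key _ _).mul (key _ _)).mul (key _ _))).add
      (((key _ _).mul (key _ _)).mul (key _ _)) |>.sub
      (((key _ _).mul (key _ _)).mul (key _ _))
  · have ht : 0 < tR p := hp
    have hs : 0 < Real.sqrt (tR p) := Real.sqrt_pos.2 ht
    have h1 : ‖fderiv ℂ F ![p 0, p 1, 0] ![1, 2 * conj (p 0), 0]‖ ≤ 2 * R / Real.sqrt (tR p) := by
      refine schwarz_line hU hF hR hs fun μ hμ => zero_mem_MM ?_ (by simp)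
      have h2 : ‖μ‖ ^ 2 < tR p := by
        rw [← Real.sq_sqrt ht.le]
        gcongr
      have h3 : tR (![p 0, p 1, 0] + μ • ![1, 2 * conj (p 0), 0]) = tR p - ‖μ‖ ^ 2 := by
        simp [tR, Complex.sq_norm, normSq_apply]
        ring
      linarith
    have h2 : ‖fderiv ℂ F ![p 0, p 1, 0] ![0, 1, 0]‖ ≤ 2 * R / tR p := by
      refine schwarz_line hU hF hR ht fun μ hμ => zero_mem_MM ?_ (by simp)
      have h3 : tR (![p 0, p 1, 0] + μ • ![0, 1, 0]) = tR p + μ.re := by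
        simp [tR]
        ring
      have := (abs_le.1 (abs_re_le_norm μ)).1
      linarith
    have h3 : ‖fderiv ℂ F ![p 0, p 1, 0] ![0, 0, 1]‖ ≤ 2 * R / Real.exp (-Phi Ψ p / 2) := by
      refine schwarz_line hU hF hR (Real.exp_pos _) fun μ hμ => ?_
      have h4 : tR (![p 0, p 1, 0] + μ • ![0, 0, 1]) = tR p := by simp [tR]
      have h5 : Phi Ψ (![p 0, p 1, 0] + μ • ![0, 0, 1]) = Phi Ψ p := by
        rw [Phi, Phi, h4, h.indep _ p (by simp) (by simp)]
      refine ⟨by rw [BB, Set.mem_ofPred_eq, h4]; exact ht, ?_⟩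
      have h6 : Real.exp (-Phi Ψ p / 2) ^ 2 * Real.exp (Phi Ψ p) = 1 := by
        rw [← Real.exp_nat_mul, ← Real.exp_add, ← Real.exp_zero]
        congr 1
        push_cast
        ring
      rw [h5, ← h6]
      have h7 : (![p 0, p 1, 0] + μ • ![0, 0, 1] : E) 2 = μ := by simp
      rw [h7]
      gcongr
    have e : (![1, 2 * conj (p 0), 0] : E) = ![1, 0, 0] + (2 * conj (p 0)) • ![0, 1, 0] := by
      ext i; fin_cases i <;> simp
    have e2 : det3 (fderiv ℂ F ![p 0, p 1, 0] ![1, 0, 0]) (fderiv ℂ F ![p 0, p 1, 0] ![0, 1, 0])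
        (fderiv ℂ F ![p 0, p 1, 0] ![0, 0, 1]) =
        det3 (fderiv ℂ F ![p 0, p 1, 0] ![1, 2 * conj (p 0), 0])
          (fderiv ℂ F ![p 0, p 1, 0] ![0, 1, 0]) (fderiv ℂ F ![p 0, p 1, 0] ![0, 0, 1]) := by
      rw [e, map_add, map_smul]
      simp only [det3, Pi.add_apply, Pi.smul_apply, smul_eq_mul]
      ring
    have hR' : 0 ≤ R := (norm_nonneg _).trans (hR _ (hπ p hp))
    have h8 : Real.exp (-Phi Ψ p / 2) = Real.sqrt (tR p) * (Real.exp (Ψ p / 2))⁻¹ := by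
      rw [Phi, Real.sqrt_eq_rpow, Real.rpow_def_of_pos ht, ← Real.exp_neg, ← Real.exp_add]
      congr 1
      ring
    have h9 : Real.exp (Ψ p) = Real.exp (Ψ p / 2) ^ 2 := by
      rw [← Real.exp_nat_mul]
      congr 1
      push_cast
      ring
    dsimp only
    rw [e2]
    calc _ ≤ (6 * (2 * R / Real.sqrt (tR p) * (2 * R / tR p) *
          (2 * R / Real.exp (-Phi Ψ p / 2)))) ^ 2 := by
          refine pow_le_pow_left₀ (norm_nonneg _) ((norm_det3 _ _ _).trans ?_) 2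
          gcongr
      _ = _ := by
          rw [h8, h9]
          have h10 := Real.sq_sqrt ht.le
          have h11 := Real.exp_pos (Ψ p / 2)
          generalize Real.sqrt (tR p) = s at *
          rw [← h10]
          field_simp

end Vale.Agent.P250
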