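import Vale.Agent.P250.Dom

/-!
Jets of the depth function, of the base metric and of the weight.
-/

namespace Vale.Agent.P250

open scoped ContDiff ComplexConjugate
open Complex Filter Topology

namespace Herm

variable {B : E → E → ℂ} (hB : Herm B)
include hB

theorem add' (x y z : E) : B z (x + y) = B z x + B z y := by
  rw [hB.cj, hB.add, map_add, ← hB.cj, ← hB.cj]

theorem smul' (c : ℂ) (x z : E) : B z (c • x) = conj c * B z x := by
  rw [hB.cj, hB.smul, map_mul, ← hB.cj]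

theorem self (x : E) : B x x = (B x x).re := by
  have := hB.cj x x
  exact (conj_eq_iff_re.1 this.symm).symm

theorem cs (h0 : ∀ x, 0 ≤ (B x x).re) (x y : E) : ‖B x y‖ ≤ √(B x x).re * √(B y y).re := by
  rw [← Real.sqrt_mul (h0 x)]
  refine Real.le_sqrt_of_sq_le ?_
  have key : ∀ t : ℝ, 0 ≤ (‖B x y‖ ^ 2 * (B y y).re) * (t * t) + (-2 * ‖B x y‖ ^ 2) * t +
      (B x x).re := by
    intro t
    have h1 := h0 (x + (-(t * B x y)) • y)
    rw [hB.add, hB.add', hB.add', hB.smul, hB.smul, hB.smul', hB.smul', hB.cj x y, hB.self x,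
      hB.self y] at h1
    rw [← normSq_eq_norm_sq, normSq_apply]
    simp at h1
    nlinarith
  have := discrim_le_zero key
  rw [discrim] at this
  by_cases h : ‖B x y‖ = 0
  · rw [h]; simpa using mul_nonneg (h0 x) (h0 y)
  · have h2 : 0 < ‖B x y‖ ^ 2 := by positivity
    nlinarith

end Herm

theorem tR_eq (q : E) : (tR q : ℂ) = (q 1 + conj (q 1)) * 2⁻¹ - q 0 * conj (q 0) := by
  rw [mul_conj, add_conj, tR, normSq_eq_norm_sq]
  push_cast
  ring

theorem hw_t (p : E) : HW (fun q => (tR q : ℂ)) p (tX p) fun X => conj (tX p X) := by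
  simp only [tR_eq]
  refine ((((hw_coord 1 p).add (hw_coord 1 p).cj).mul (hw_const _ p)).sub
    ((hw_coord 0 p).mul (hw_coord 0 p).cj)).congr (fun X => ?_) fun X => ?_
  · simp [tX]; ring
  · simp [tX, map_ofNat]; ring

theorem hw_tX (p X : E) : HW (fun q => tX q X) p (fun _ => 0) fun Y => -conj (Y 0) * X 0 :=
  ((hw_const _ p).sub ((hw_coord 0 p).cj.mul (hw_const _ p))).congr (by simp) (by simp)

/-- The derivative of the potential of the base. -/
noncomputable def rr (p X : E) : ℂ := -tX p X / tR p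

/-- The Christoffel symbols of the base. -/
noncomputable def GG (p X Z : E) : E := rr p Z • X + rr p X • Z

theorem herm_om (p : E) : Herm (om p) where
  add x y z := by simp [om, tX]; ring
  smul c x z := by simp [om, tX]; ring
  cj x y := by simp [om]; ring

theorem om_nonneg {p : E} (hp : p ∈ BB) (X : E) : 0 ≤ (om p X X).re := by
  have : 0 < tR p := hp
  rw [om_re]; positivity

theorem rr_le {p : E} (hp : p ∈ BB) (X : E) : ‖rr p X‖ ≤ nu p X := by
  have : 0 < tR p := hp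
  refine Real.le_sqrt_of_sq_le ?_
  rw [om_re, rr, norm_div, norm_neg, norm_real, Real.norm_eq_abs, div_pow, sq_abs]
  have : 0 ≤ ‖X 0‖ ^ 2 / tR p := by positivity
  linarith

theorem om_le {p : E} (hp : p ∈ BB) (X Y : E) : ‖om p X Y‖ ≤ nu p X * nu p Y :=
  (herm_om p).cs (om_nonneg hp) X Y

theorem t_ne {p : E} (hp : p ∈ BB) : (tR p : ℂ) ≠ 0 := ofReal_ne_zero.2 (ne_of_gt hp)

theorem hw_rr {p : E} (hp : p ∈ BB) (X : E) :
    HW (fun q => rr q X) p (fun Z => rr p Z * rr p X) fun W => om p X W := by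
  have := t_ne hp
  simp only [rr, div_eq_mul_inv]
  refine ((hw_tX p X).neg.mul ((hw_t p).inv this)).congr (fun Z => ?_) fun W => ?_
  · field_simp; ring
  · simp only [om]; field_simp

theorem hw_om {p : E} (hp : p ∈ BB) (X Y : E) :
    HW (fun q => om q X Y) p (fun Z => om p (GG p X Z) Y) fun W => om p X (GG p Y W) := by
  have := t_ne hp
  have hi := (hw_t p).inv this
  have e : (fun q => om q X Y) = fun q => X 0 * conj (Y 0) * (tR q : ℂ)⁻¹ +
      tX q X * conj (tX q Y) * ((tR q : ℂ)⁻¹ * (tR q : ℂ)⁻¹) := by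
    funext q; simp only [om, div_eq_mul_inv, sq, mul_inv]
  rw [e]
  refine ((hi.cmul _).add (((hw_tX p X).mul (hw_tX p Y).cj).mul (hi.mul hi))).congr
    (fun Z => ?_) fun W => ?_
  · simp only [GG, (herm_om p).add, (herm_om p).smul]
    simp [om, rr]; field_simp; ring
  · simp only [GG, (herm_om p).add', (herm_om p).smul']
    simp [om, rr]; field_simp; ring

theorem om_GG (p X Z Y : E) : om p (GG p X Z) Y = rr p Z * om p X Y + rr p X * om p Z Y := by
  rw [GG, (herm_om p).add, (herm_om p).smul, (herm_om p).smul]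

theorem hw_omG {p : E} (hp : p ∈ BB) (X Z Y : E) : ∃ L, HW (fun q => om q (GG q X Z) Y) p L
    fun W => om p X Y * om p Z W + om p X W * om p Z Y + om p (GG p X Z) (GG p Y W) := by
  simp only [om_GG]
  refine ⟨_, (((hw_rr hp Z).mul (hw_om hp X Y)).add ((hw_rr hp X).mul (hw_om hp Z Y))).congr
    (fun _ => rfl) fun W => by ring⟩

theorem hw_rho {p : E} (hp : p ∈ BB) : HW (fun q => ((-Real.log (tR q) : ℝ) : ℂ)) p (rr p)
    fun X => conj (rr p X) := by
  have h := ((hw_t p).comp (hasDerivAt_log (ofReal_mem_slitPlane.2 hp))).neg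
  refine (h.of_eq (congr_on isOpen_BB (fun q hq => ?_) hp)).congr (fun X => ?_) fun X => ?_
  · rw [ofReal_neg, ofReal_log (le_of_lt hq)]
  · rw [rr]; ring
  · simp [rr]; ring

variable {Ψ : E → ℝ} {C : ℝ}

/-- Third order jets. -/
noncomputable def PP (Ψ : E → ℝ) (p X Z Y : E) : ℂ := d X (d Z (db Y (Pc Ψ))) p

/-- Fourth order jets. -/
noncomputable def YY (Ψ : E → ℝ) (p X Z Y W : E) : ℂ := d X (d Z (db Y (db W (Pc Ψ)))) p

theorem db_real (f : E → ℝ) (X : E) :
    db X (fun q => (f q : ℂ)) = fun p => conj (d X (fun q => (f q : ℂ)) p) := by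
  funext p
  rw [← db_conj]
  simp

theorem db_Pc (X : E) : db X (Pc Ψ) = fun p => conj (d X (Pc Ψ) p) := db_real _ X

namespace Good

variable (h : Good Ψ C) {p : E} (hp : p ∈ BB)
include h hp

theorem cd_Psi : ContDiffAt ℝ ∞ (fun q => (Ψ q : ℂ)) p :=
  ofRealCLM.contDiff.contDiffAt.comp p (h.smooth.contDiffAt (isOpen_BB.mem_nhds hp))

theorem herm_HH : Herm (HH Ψ p) where
  add x y z := d_addv _ _ _ _
  smul c x z := d_smulv _ _ _ _
  cj x y := by rw [HH, HH, db_Pc x, d_conj, d_db (h.cd_Pc hp)]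

theorem PP_symm (X Z Y : E) : PP Ψ p X Z Y = PP Ψ p Z X Y := d_d (cd_db (h.cd_Pc hp) Y) X Z

theorem db_F2 (X Z W : E) : db W (d X (d Z (Pc Ψ))) p = PP Ψ p X Z W := by
  rw [← d_db (cd_d (h.cd_Pc hp) Z), PP]
  exact d_congr (congr_on isOpen_BB (fun q hq => (d_db (h.cd_Pc hq) Z W).symm) hp) X

theorem hw_phi (X : E) :
    HW (d X (Pc Ψ)) p (fun Z => d Z (d X (Pc Ψ)) p) fun W => HH Ψ p X W :=
  (hw_self (cd_diff (cd_d (h.cd_Pc hp) X))).congr (fun _ => rfl)
    fun W => (d_db (h.cd_Pc hp) X W).symm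

theorem hw_F2 (X Z : E) : ∃ L, HW (d X (d Z (Pc Ψ))) p L fun W => PP Ψ p X Z W :=
  ⟨_, (hw_self (cd_diff (cd_d (cd_d (h.cd_Pc hp) Z) X))).congr (fun _ => rfl) (h.db_F2 hp X Z)⟩

theorem hw_HH (X Y : E) :
    HW (fun q => HH Ψ q X Y) p (fun Z => PP Ψ p X Z Y) fun W => conj (PP Ψ p Y W X) := by
  refine (hw_self (cd_diff (cd_d (cd_db (h.cd_Pc hp) Y) X))).congr (fun Z => h.PP_symm hp Z X Y)
    fun W => ?_
  change db W (fun q => HH Ψ q X Y) p = _
  rw [db_congr (congr_on isOpen_BB (g := fun q => conj (HH Ψ q Y X))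
    (fun q hq => (h.herm_HH hq).cj Y X) hp), db_conj, h.PP_symm hp]
  rfl

theorem db_PP (X Z Y W : E) : db W (fun q => PP Ψ q X Z Y) p = YY Ψ p X Z Y W := by
  refine (d_db (cd_d (cd_db (h.cd_Pc hp) Y) Z) X W).symm.trans
    (d_congr (congr_on isOpen_BB (fun q hq => ?_) hp) X)
  refine (d_db (cd_db (h.cd_Pc hq) Y) Z W).symm.trans
    (d_congr (congr_on isOpen_BB (fun q hq => ?_) hq) Z)
  exact db_db (h.cd_Pc hq) W Y

theorem hw_PP (X Z Y : E) : ∃ L, HW (fun q => PP Ψ q X Z Y) p L fun W => YY Ψ p X Z Y W :=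
  ⟨_, (hw_self (cd_diff (cd_d (cd_d (cd_db (h.cd_Pc hp) Y) Z) X))).congr (fun _ => rfl)
    (h.db_PP hp X Z Y)⟩

theorem YY_cj (X Z Y W : E) : YY Ψ p Y W X Z = conj (YY Ψ p X Z Y W) := by
  rw [← h.db_PP hp X Z Y W, ← d_conj, ← h.db_PP hp, db_congr (congr_on isOpen_BB
    (g := d W fun q => HH Ψ q Y X) (fun q hq => ((h.hw_HH hq Y X).d_eq W).symm) hp)]
  refine (d_db (cd_d (cd_db (h.cd_Pc hp) X) Y) W Z).symm.trans ?_
  exact d_congr (congr_on isOpen_BB (fun q hq => (h.hw_HH hq Y X).db_eq Z) hp) W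

theorem db_Pc_eq (Y : E) : db Y (Pc Ψ) p = conj (rr p Y) + db Y (fun q => (Ψ q : ℂ)) p := by
  have := ((hw_rho hp).add (hw_self (cd_diff (h.cd_Psi hp)))).db_eq Y
  simp only [← ofReal_add] at this
  exact this

theorem HH_eq (X Y : E) : HH Ψ p X Y = om p X Y + d X (db Y fun q => (Ψ q : ℂ)) p := by
  rw [HH, d_congr (congr_on isOpen_BB (fun q hq => h.db_Pc_eq hq Y) hp),
    ((hw_rr hp Y).cj.add (hw_self (cd_diff (cd_db (h.cd_Psi hp) Y)))).d_eq, ← (herm_om p).cj]

theorem PP_eq (X Z Y : E) :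
    PP Ψ p X Z Y = om p (GG p Z X) Y + d X (d Z (db Y fun q => (Ψ q : ℂ))) p := by
  have := d_congr (congr_on isOpen_BB (fun q hq => h.HH_eq hq Z Y) hp) X
  rw [((hw_om hp Z Y).add (hw_self (cd_diff (cd_d (cd_db (h.cd_Psi hp) Y) Z)))).d_eq] at this
  exact this

theorem YY_eq (X Z Y W : E) : YY Ψ p X Z Y W = om p Z Y * om p X W + om p Z W * om p X Y +
    om p (GG p Z X) (GG p Y W) + d X (d Z (db Y (db W fun q => (Ψ q : ℂ)))) p := by
  obtain ⟨L, hL⟩ := hw_omG hp Z X Y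
  rw [← h.db_PP hp, db_congr (congr_on isOpen_BB (fun q hq => h.PP_eq hq X Z Y) hp),
    (hL.add (hw_self (cd_diff (cd_d (cd_d (cd_db (h.cd_Psi hp) Y) Z) X)))).db_eq]
  congr 1
  refine (d_db (cd_d (cd_db (h.cd_Psi hp) Y) Z) X W).symm.trans
    (d_congr (congr_on isOpen_BB (fun q hq => ?_) hp) X)
  refine (d_db (cd_db (h.cd_Psi hq) Y) Z W).symm.trans
    (d_congr (congr_on isOpen_BB (fun q hq => ?_) hq) Z)
  exact db_db (h.cd_Psi hq) W Y

theorem fderiv_vert (c : ℂ) : fderiv ℝ (Pc Ψ) p (c • Pi.single 2 1) = 0 := by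
  have h1 := (cd_diff (h.cd_Pc hp)).hasFDerivAt.hasLineDerivAt (c • Pi.single 2 1)
  have h2 : HasLineDerivAt ℝ (Pc Ψ) 0 p (c • Pi.single 2 1) := by
    have : (fun t : ℝ => Pc Ψ (p + t • c • Pi.single 2 1)) = fun _ => Pc Ψ p := by
      funext t
      rw [Pc, Pc, Phi, Phi, h.indep (p + t • c • Pi.single 2 1) p (by simp) (by simp)]
      simp [tR]
    rw [HasLineDerivAt, this]
    exact hasDerivAt_const _ _
  exact h1.unique h2

theorem d_vert : d (Pi.single 2 1) (Pc Ψ) p = 0 := by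
  have := h.fderiv_vert hp 1
  rw [one_smul] at this
  simp [d, this, h.fderiv_vert hp I]

theorem HH_vert (X : E) : HH Ψ p X (Pi.single 2 1) = 0 := by
  rw [HH, d_congr (congr_on isOpen_BB (g := fun _ => 0) (fun q hq => by
    rw [db_Pc]; simp [h.d_vert hq]) hp), (hw_const 0 p).d_eq]

theorem PP_vert (X Z : E) : PP Ψ p X Z (Pi.single 2 1) = 0 := by
  exact (d_congr (congr_on isOpen_BB (g := fun _ => 0) (fun q hq => h.HH_vert hq Z) hp) X).trans
    ((hw_const 0 p).d_eq X)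

end Good

theorem om_vert (p X : E) : om p X (Pi.single 2 1) = 0 := by simp [om, tX]

end Vale.Agent.P250
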