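import Vale.Agent.P250.Obstr2

/-!
The weight `4 ρ + Psi` has no pluriharmonic minorant.

Plan. `κ = e^25`. (a) `psi η ζ ≤ c₀ ‖ζ‖` for `‖ζ‖ ≤ 1`, `c₀ = 2κ + κ²` independent of `η`;
(b) `psi η (e^(-25)) = log (η / (1 + η)) = -M`; (c) `psi η` is `L_η`-Lipschitz on the unit disc and
vanishes at `0` (summability via `re_ell`, `lattice_sum`, `level_sum`). Let
`φ n p = ∑' c, psi η (exp (ell Q (n,c) p)) ≤ C₀ exp (-Q^(2n) tR p)`, `C₀ = c₀ C_lattice`.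
Choose `η` with `M / 3 ≥ C₀ + 2`, then `Q ≥ 100` large, then `N = 8 log Q + 1`.
Let `Σ n = {tR = 25 / Q^(2n)}`. STEP: if `‖J y‖² ≤ exp (N ∑_{m ≤ n} φ m y + a)` on `Σ (n+1)` then
`‖J x‖² ≤ exp (N ∑_{m < n} φ m x + a - N)` on `Σ n`. Proof: take `c` with `‖Q^n x 0 - cc c‖ ≤ 1`,
`q = (cc c / Q^n, (25 + ‖cc c‖² + 2 π i k) / Q^(2n), 0)` with `k` chosen so that
`σ = x 1 - q 1 - 2 conj (q 0) (x 0 - q 0)` has `|Im σ| ≤ π / Q^(2n)` (`Re σ = ‖x 0 - q 0‖²`).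
For `‖μ‖ ≤ 2` the point `p' = x + μ • (q - x)` has `Q^(2n) tR p' ∈ [1, 40]`; the affine disc
`p' + l • ![1, 2 conj (p' 0), 0]` has depth `tR p' - ‖l‖²`, so a circle of it lies in `Σ (n+1)`.
For `y` on such a circle `‖y 0 - x 0‖ ≤ 9 / Q^n` and `‖y 1 - x 1 - 2 conj (x 0) (y 0 - x 0)‖ ≤
42 / Q^(2n)`, so for `m < n`, `ε = Q^m / Q^n`, `β = ‖Q^m x 0 - cc c'‖`:
`‖ell (m,c') y - ell (m,c') x‖ ≤ 42 ε² + 18 ε β`, whence `|∑_{m<n} φ m y - ∑_{m<n} φ m x| ≤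
C_η / Q ≤ 1`. Maximum modulus (`Complex.norm_le_of_forall_mem_frontier_norm_le`) gives
`‖J p'‖² ≤ e^B`, `B = N ∑_{m<n} φ m x + a + N (1 + C₀)`, and `‖J q‖² ≤ e^(B - N M)` because
`ell (n,c)` is constant `= -25 - 2 π i k` on the disc through `q`. Harnack on the disc `‖μ‖ < 2`
(holomorphic logarithm and Schwarz lemma for `(f - f 0) / (f + conj (f 0))`, `re f > 0`) gives
`‖J x‖² ≤ e^(B - N M / 3)`. START: on `Σ n` the levels `m ≥ n` sum to at most `7 C₀`. Iterating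
down to `Σ 0` gives `‖J x‖² ≤ C exp (7 N C₀ + n (8 log Q - N)) → 0`.
-/

namespace Vale.Agent.P250

open scoped ContDiff ComplexConjugate
open Complex Filter Topology

theorem mem_BB_of {Q a : ℝ} (hQ : 0 < Q) (ha : 0 < a) {n : ℕ} {p : E}
    (hp : a ≤ Q ^ (2 * n) * tR p) : p ∈ BB := by
  have hq : 0 < Q ^ (2 * n) := by positivity
  show 0 < tR p
  by_contra hh
  nlinarith [mul_nonneg hq.le (neg_nonneg.2 (not_lt.1 hh))]

theorem exists_cc (ζ : ℂ) : ∃ c : ℤ × ℤ, ‖cc c - ζ‖ ≤ 1 := by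
  refine ⟨(round ζ.re, round ζ.im), (norm_le_abs_re_add_abs_im _).trans ?_⟩
  have h1 := abs_sub_round ζ.re
  have h2 := abs_sub_round ζ.im
  rw [abs_sub_comm] at h1 h2
  simp only [cc, sub_re, sub_im, add_re, add_im, intCast_re, intCast_im, mul_re, mul_im, I_re, I_im,
    mul_zero, mul_one, sub_zero, add_zero, zero_add]
  linarith

theorem exists_center {Q : ℝ} (hQ : 0 < Q) (n : ℕ) {x : E} (hx : Q ^ (2 * n) * tR x = 25) :
    ∃ (c : ℤ × ℤ) (δ τ : ℂ), Q ^ n * ‖δ‖ ≤ 1 ∧ Q ^ (2 * n) * ‖τ‖ ≤ 5 ∧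
      (Q : ℂ) ^ n * (x 0 + δ) = cc c ∧
      cexp (ell Q (n, c) x + (-(Q : ℂ) ^ (2 * n) * τ +
        2 * conj (cc c - (Q : ℂ) ^ n * x 0) * ((Q : ℂ) ^ n * δ))) = cexp (-25) := by
  obtain ⟨c, hc⟩ := exists_cc ((Q : ℂ) ^ n * x 0)
  have hq : (Q : ℂ) ≠ 0 := by exact_mod_cast hQ.ne'
  set b := cc c - (Q : ℂ) ^ n * x 0 with hb
  set k := round ((ell Q (n, c) x).im / (2 * Real.pi)) with hk
  have hk1 : |(ell Q (n, c) x).im - k * (2 * Real.pi)| ≤ Real.pi := by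
    have h1 := abs_sub_round ((ell Q (n, c) x).im / (2 * Real.pi))
    have h2 : (ell Q (n, c) x).im - k * (2 * Real.pi) =
        ((ell Q (n, c) x).im / (2 * Real.pi) - k) * (2 * Real.pi) := by
      field_simp
    rw [h2, abs_mul, abs_of_pos Real.two_pi_pos]
    nlinarith [Real.pi_pos]
  set s := ell Q (n, c) x + 2 * conj b * b + 25 - k * (2 * Real.pi * I) with hs
  have hre : s.re = ‖b‖ ^ 2 := by
    have h1 := re_ell Q n c x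
    rw [hx, norm_sub_rev, ← hb] at h1
    rw [hs, mul_assoc, conj_mul', ← ofReal_pow]
    simp only [add_re, sub_re, h1, mul_re, mul_im, ofReal_re, ofReal_im, re_ofNat, im_ofNat,
      intCast_re, intCast_im, I_re, I_im]
    ring
  have him : s.im = (ell Q (n, c) x).im - k * (2 * Real.pi) := by
    rw [hs, mul_assoc, conj_mul', ← ofReal_pow]
    simp only [add_im, sub_im, mul_re, mul_im, ofReal_re, ofReal_im, re_ofNat, im_ofNat,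
      intCast_re, intCast_im, I_re, I_im]
    ring
  refine ⟨c, b / (Q : ℂ) ^ n, s / (Q : ℂ) ^ (2 * n), ?_, ?_, ?_, ?_⟩
  · rw [norm_div, norm_pow, norm_real, Real.norm_of_nonneg hQ.le, mul_div_cancel₀ _ (by positivity)]
    exact hc
  · rw [norm_div, norm_pow, norm_real, Real.norm_of_nonneg hQ.le, mul_div_cancel₀ _ (by positivity)]
    refine (norm_le_abs_re_add_abs_im _).trans ?_
    rw [hre, him, abs_of_nonneg (sq_nonneg _)]
    nlinarith [Real.pi_le_four, norm_nonneg b]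
  · rw [mul_add, mul_div_cancel₀ _ (pow_ne_zero _ hq), hb]
    ring
  · rw [mul_div_cancel₀ _ (pow_ne_zero _ hq), neg_mul, mul_div_cancel₀ _ (pow_ne_zero _ hq),
      Complex.exp_eq_exp_iff_exists_int]
    exact ⟨k, by rw [hs]; ring⟩

theorem geom_le {Q : ℝ} (hQ : 2 ≤ Q) (n : ℕ) : ∑ m ∈ Finset.range n, Q ^ m / Q ^ n ≤ 2 / Q := by
  have h : ∀ n : ℕ, Q * ∑ m ∈ Finset.range n, Q ^ m ≤ 2 * Q ^ n := by
    intro n
    induction n with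
    | zero => simp
    | succ n ih =>
      rw [Finset.sum_range_succ, mul_add, pow_succ]
      have : 0 < Q ^ n := by positivity
      nlinarith
  rw [← Finset.sum_div, div_le_div_iff₀ (by positivity) (by positivity)]
  linarith [h n]

/-- The direction from a point to the nearest center. -/
noncomputable def vec (x : E) (δ τ : ℂ) : E := ![δ, τ + 2 * conj (x 0) * δ, 0]

theorem circ0 (x : E) (δ τ μ l : ℂ) :
    (x + μ • vec x δ τ + l • hor (x + μ • vec x δ τ)) 0 - x 0 = μ * δ + l := by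
  simp only [vec, hor, Pi.add_apply, Pi.smul_apply, smul_eq_mul, Matrix.cons_val_zero]
  ring

theorem circ1 (x : E) (δ τ μ l : ℂ) :
    (x + μ • vec x δ τ + l • hor (x + μ • vec x δ τ)) 1 - x 1 - 2 * conj (x 0) *
      ((x + μ • vec x δ τ + l • hor (x + μ • vec x δ τ)) 0 - x 0) =
      μ * τ + 2 * l * conj (μ * δ) := by
  rw [circ0]
  simp only [vec, hor, Pi.add_apply, Pi.smul_apply, smul_eq_mul, Matrix.cons_val_zero,
    Matrix.cons_val_one, map_add]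
  ring

theorem mul_two_le {R a : ℝ} {μ δ : ℂ} (hR : 0 ≤ R) (hμ : ‖μ‖ ≤ 2) (h : R * ‖δ‖ ≤ a) :
    R * ‖μ * δ‖ ≤ 2 * a := by
  rw [norm_mul, mul_left_comm]
  exact mul_le_mul hμ h (by positivity) (by norm_num)

theorem depth {R : ℝ} (hR : 0 < R) {x : E} {δ τ μ : ℂ} (hx : R ^ 2 * tR x = 25)
    (hδ : R * ‖δ‖ ≤ 1) (hτ : R ^ 2 * ‖τ‖ ≤ 5) (hμ : ‖μ‖ ≤ 2) :
    11 ≤ R ^ 2 * tR (x + μ • vec x δ τ) ∧ R ^ 2 * tR (x + μ • vec x δ τ) ≤ 35 := by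
  have e : tR (x + μ • vec x δ τ) = tR x + (μ * τ).re - ‖μ * δ‖ ^ 2 := by
    have e0 := circ0 x δ τ μ 0
    have e1 := circ1 x δ τ μ 0
    simp only [zero_smul, add_zero, mul_zero, zero_mul] at e0 e1
    rw [tR_shift x, e1, e0]
  have h1 := mul_two_le (sq_nonneg R) hμ hτ
  have h2 := mul_two_le hR.le hμ hδ
  have h3 : (R * ‖μ * δ‖) ^ 2 ≤ (2 * 1) ^ 2 := by gcongr
  have h4 := abs_le.1 (abs_re_le_norm (μ * τ))
  have h5 := mul_le_mul_of_nonneg_left h4.1 (sq_nonneg R)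
  have h6 := mul_le_mul_of_nonneg_left h4.2 (sq_nonneg R)
  rw [e]
  constructor <;> nlinarith [sq_nonneg (R * ‖μ * δ‖)]

theorem circ_bounds {R : ℝ} (hR : 0 < R) {δ τ μ l : ℂ} (hδ : R * ‖δ‖ ≤ 1) (hτ : R ^ 2 * ‖τ‖ ≤ 5)
    (hμ : ‖μ‖ ≤ 2) (hl : R ^ 2 * ‖l‖ ^ 2 ≤ 35) :
    R * ‖μ * δ + l‖ ≤ 8 ∧ R ^ 2 * ‖μ * τ + 2 * l * conj (μ * δ)‖ ≤ 40 := by
  have hl6 : R * ‖l‖ ≤ 6 := by nlinarith
  have h1 := mul_two_le (sq_nonneg R) hμ hτ
  have h2 := mul_two_le hR.le hμ hδ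
  constructor
  · nlinarith [norm_add_le (μ * δ) l]
  · have h3 := norm_add_le (μ * τ) (2 * l * conj (μ * δ))
    rw [norm_mul (2 * l), norm_mul 2, norm_conj, norm_ofNat] at h3
    have h4 : (R * ‖l‖) * (R * ‖μ * δ‖) ≤ 6 * (2 * 1) := by gcongr
    nlinarith [mul_le_mul_of_nonneg_left h3 (sq_nonneg R)]

theorem sum_lip {K L η Q : ℝ} (h : Lat K) (hη : 0 < η) (hL0 : 0 ≤ L)
    (hL : ∀ ζ ζ' : ℂ, ‖ζ‖ ≤ 1 → ‖ζ'‖ ≤ 1 → psi η ζ ≤ psi η ζ' + L * ‖ζ - ζ'‖)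
    (hQ : 40 ≤ Q) (hQL : L * Real.exp 146 * K * (2 / Q) ≤ 1) (n : ℕ) {x y : E} (hx : x ∈ BB)
    (hy : y ∈ BB) (b0 : Q ^ n * ‖y 0 - x 0‖ ≤ 8)
    (b1 : (Q ^ n) ^ 2 * ‖y 1 - x 1 - 2 * conj (x 0) * (y 0 - x 0)‖ ≤ 40) :
    ∑ m ∈ Finset.range n, phi η Q m y ≤ ∑ m ∈ Finset.range n, phi η Q m x + 1 := by
  have hQ0 : 0 < Q := by linarith
  have hR0 : 0 < Q ^ n := by positivity
  have h5 : ∑ m ∈ Finset.range n, phi η Q m y ≤
      ∑ m ∈ Finset.range n, (phi η Q m x + L * Real.exp 146 * K * (Q ^ m / Q ^ n)) := by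
    refine Finset.sum_le_sum fun m hm => h.phi_lip hη hL0 hL hQ0.le m hx hy (by positivity)
      ?_ ?_ ?_
    · have h6 : Q ^ (m + 1) ≤ Q ^ n := pow_le_pow_right₀ (by linarith) (Finset.mem_range.1 hm)
      rw [div_le_div_iff₀ hR0 (by norm_num)]
      rw [pow_succ] at h6
      nlinarith [pow_pos hQ0 m]
    · rw [mul_div_assoc', le_div_iff₀ hR0]
      nlinarith [pow_pos hQ0 m]
    · rw [div_pow, mul_div_assoc', le_div_iff₀ (by positivity), ← pow_mul Q m, mul_comm m]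
      nlinarith [pow_pos hQ0 (2 * m)]
  rw [Finset.sum_add_distrib, ← Finset.mul_sum] at h5
  have h6 := geom_le (show 2 ≤ Q by linarith) n
  have h7 : 0 ≤ L * Real.exp 146 * K := by have := h.nonneg; positivity
  linarith [mul_le_mul_of_nonneg_left h6 h7]

theorem circ {K L η Q N a : ℝ} (h : Lat K) (hη : 0 < η) (hL0 : 0 ≤ L)
    (hL : ∀ ζ ζ' : ℂ, ‖ζ‖ ≤ 1 → ‖ζ'‖ ≤ 1 → psi η ζ ≤ psi η ζ' + L * ‖ζ - ζ'‖)
    (hQ : 40 ≤ Q) (hQL : L * Real.exp 146 * K * (2 / Q) ≤ 1) (hN : 1 ≤ N) {J : E → ℂ}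
    (hJ : ∀ p X : E, DifferentiableOn ℂ (fun l : ℂ => J (p + l • X)) {l | p + l • X ∈ BB}) (n : ℕ)
    (H : ∀ y, Q ^ (2 * (n + 1)) * tR y = 25 →
      ‖J y‖ ^ 2 ≤ Real.exp (N * ∑ m ∈ Finset.range (n + 1), phi η Q m y + a))
    {x : E} (hx : (Q ^ n) ^ 2 * tR x = 25) {δ τ μ : ℂ} (hδ : Q ^ n * ‖δ‖ ≤ 1)
    (hτ : (Q ^ n) ^ 2 * ‖τ‖ ≤ 5) (hμ : ‖μ‖ ≤ 2) {b : ℝ}
    (hb : ∀ l : ℂ, x + μ • vec x δ τ + l • hor (x + μ • vec x δ τ) ∈ BB →
      phi η Q n (x + μ • vec x δ τ + l • hor (x + μ • vec x δ τ)) ≤ b) :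
    ‖J (x + μ • vec x δ τ)‖ ^ 2 ≤
      Real.exp (N * ∑ m ∈ Finset.range n, phi η Q m x + a + N * (1 + b)) := by
  have hQ0 : 0 < Q := by linarith
  have hR0 : 0 < Q ^ n := by positivity
  have hR2 : Q ^ (2 * n) = (Q ^ n) ^ 2 := by rw [← pow_mul, mul_comm]
  have hxB : x ∈ BB := mem_BB_of (n := n) hQ0 (by norm_num) (hR2 ▸ hx.ge)
  have hs0 : 0 < 25 / (Q ^ 2 * (Q ^ n) ^ 2) := by positivity
  have hs1 : (Q ^ n) ^ 2 * (25 / (Q ^ 2 * (Q ^ n) ^ 2)) ≤ 1 := by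
    rw [show (Q ^ n) ^ 2 * (25 / (Q ^ 2 * (Q ^ n) ^ 2)) = 25 / Q ^ 2 by field_simp,
      div_le_one (by positivity)]
    nlinarith
  obtain ⟨d1, d2⟩ := depth hR0 hx hδ hτ hμ
  refine maxmod hJ hs0 (lt_of_mul_lt_mul_left (by linarith) (sq_nonneg (Q ^ n))) fun l hl => ?_
  have hty : tR (x + μ • vec x δ τ + l • hor (x + μ • vec x δ τ)) = 25 / (Q ^ 2 * (Q ^ n) ^ 2) := by
    rw [tR_hor, hl]; ring
  have hyB : x + μ • vec x δ τ + l • hor (x + μ • vec x δ τ) ∈ BB := by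
    show 0 < tR _
    rwa [hty]
  refine (H _ (by rw [hty, mul_add, pow_add, hR2]; field_simp)).trans (Real.exp_le_exp.2 ?_)
  obtain ⟨b0, b1⟩ := circ_bounds hR0 hδ hτ hμ (l := l) (by
    rw [hl, mul_sub]
    linarith [mul_pos (sq_pos_of_pos hR0) hs0])
  rw [← circ0 x δ τ] at b0
  rw [← circ1 x δ τ] at b1
  have hsum := sum_lip h hη hL0 hL hQ hQL n hxB hyB b0 b1
  rw [Finset.sum_range_succ]
  have := mul_le_mul_of_nonneg_left (add_le_add hsum (hb l hyB)) (show 0 ≤ N by linarith)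
  linarith

theorem step {K c₀ L η Q N a : ℝ} (h : Lat K) (hη : 0 < η) (h0 : 0 ≤ c₀)
    (hc : ∀ ζ : ℂ, ‖ζ‖ ≤ 1 → psi η ζ ≤ c₀ * ‖ζ‖) (hL0 : 0 ≤ L)
    (hL : ∀ ζ ζ' : ℂ, ‖ζ‖ ≤ 1 → ‖ζ'‖ ≤ 1 → psi η ζ ≤ psi η ζ' + L * ‖ζ - ζ'‖)
    (hQ : 40 ≤ Q) (hQL : L * Real.exp 146 * K * (2 / Q) ≤ 1) (hN : 1 ≤ N)
    (hM : Real.log (η / (1 + η)) ≤ -(3 * (c₀ * K + 3))) {J : E → ℂ}
    (hJ : ∀ p X : E, DifferentiableOn ℂ (fun l : ℂ => J (p + l • X)) {l | p + l • X ∈ BB})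
    (hJ0 : ∀ p ∈ BB, J p ≠ 0) (n : ℕ)
    (H : ∀ y, Q ^ (2 * (n + 1)) * tR y = 25 →
      ‖J y‖ ^ 2 ≤ Real.exp (N * ∑ m ∈ Finset.range (n + 1), phi η Q m y + a))
    (x : E) (hx : Q ^ (2 * n) * tR x = 25) :
    ‖J x‖ ^ 2 ≤ Real.exp (N * ∑ m ∈ Finset.range n, phi η Q m x + (a - N)) := by
  have hQ0 : 0 < Q := by linarith
  obtain ⟨c, δ, τ, hδ, hτ, hcen, hexp⟩ := exists_center hQ0 n hx
  have hR0 : 0 < Q ^ n := by positivity
  have hR2 : Q ^ (2 * n) = (Q ^ n) ^ 2 := by rw [← pow_mul, mul_comm]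
  rw [hR2] at hx hτ
  have hmem : ∀ μ ∈ Metric.ball (0 : ℂ) 2, x + μ • vec x δ τ ∈ BB := fun μ hμ =>
    mem_BB_of (n := n) hQ0 (by norm_num)
      (hR2 ▸ (depth hR0 hx hδ hτ (mem_ball_zero_iff.1 hμ).le).1)
  have he : ∀ l : ℂ, cexp (ell Q (n, c) (x + (1 : ℂ) • vec x δ τ +
      l • hor (x + (1 : ℂ) • vec x δ τ))) = cexp (-25) := by
    intro l
    rw [← hexp, ell_shift Q n c x, circ1, circ0, ← hcen]
    congr 2
    simp only [map_sub, map_mul, map_add, map_pow, conj_ofReal, map_one]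
    ring
  have hh := harnack (f := fun μ => J (x + μ • vec x δ τ))
    (B := N * ∑ m ∈ Finset.range n, phi η Q m x + a + N * (1 + c₀ * K))
    (D := -(N * Real.log (η / (1 + η)))) ((hJ x _).mono hmem) (fun μ hμ => hJ0 _ (hmem μ hμ))
    (fun μ hμ => circ h hη hL0 hL hQ hQL hN hJ n H hx hδ hτ (mem_ball_zero_iff.1 hμ).le
      fun l hl => h.phi_le' hη h0 hc Q n hl)
    ((circ h hη hL0 hL hQ hQL hN hJ n H hx hδ hτ (by simp)
      fun l hl => h.phi_center hη h0 hc Q n hl (he l)).trans (Real.exp_le_exp.2 (le_of_eq (by ring))))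
  simp only [zero_smul, add_zero] at hh
  refine hh.trans (Real.exp_le_exp.2 ?_)
  have := mul_le_mul_of_nonneg_left hM (show 0 ≤ N by linarith)
  linarith

theorem obstruction : ∃ η Q N : ℝ, 0 < η ∧ 2 ≤ Q ∧ 0 ≤ N ∧ ∀ (J : E → ℂ) (C : ℝ),
    (∀ p X : E, DifferentiableOn ℂ (fun l : ℂ => J (p + l • X)) {l | p + l • X ∈ BB}) →
    (∀ p ∈ BB, J p ≠ 0) →
    (∀ p ∈ BB, ‖J p‖ ^ 2 ≤ C * (tR p)⁻¹ ^ 4 * Real.exp (Psi η Q N p)) → False := by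
  obtain ⟨K, h⟩ : ∃ K, Lat K := lattice_sum
  obtain ⟨c₀, h0, hc⟩ := exists_c0
  set η := Real.exp (-(3 * (c₀ * K + 3))) with hηd
  have hη : 0 < η := Real.exp_pos _
  have hM : Real.log (η / (1 + η)) ≤ -(3 * (c₀ * K + 3)) := by
    rw [Real.log_le_iff_le_exp (by positivity), ← hηd]
    exact div_le_self hη.le (by linarith)
  obtain ⟨L, hL0, hL⟩ := exists_lip hη
  have h7 : 0 ≤ L * Real.exp 146 * K := by have := h.nonneg; positivity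
  set Q := 40 + 2 * (L * Real.exp 146 * K) with hQd
  have hQ : 40 ≤ Q := by linarith
  have hQ0 : 0 < Q := by linarith
  have hQL : L * Real.exp 146 * K * (2 / Q) ≤ 1 := by
    rw [mul_div_assoc', div_le_one hQ0]; linarith
  have hlog : 0 ≤ Real.log Q := Real.log_nonneg (by linarith)
  set N := 8 * Real.log Q + 1 with hNd
  have hN : 1 ≤ N := by linarith
  refine ⟨η, Q, N, hη, by linarith, by linarith, fun J C hJ hJ0 hb => ?_⟩
  have hind : ∀ (n : ℕ) (a : ℝ), (∀ y, Q ^ (2 * n) * tR y = 25 →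
      ‖J y‖ ^ 2 ≤ Real.exp (N * ∑ m ∈ Finset.range n, phi η Q m y + a)) →
      ∀ y, tR y = 25 → ‖J y‖ ^ 2 ≤ Real.exp (a - n * N) := by
    intro n
    induction n with
    | zero => intro a H y hy; simpa using H y (by simpa using hy)
    | succ n ih =>
      intro a H y hy
      refine (ih (a - N) (step h hη h0 (hc η hη) hL0 hL hQ hQL hN hM hJ hJ0 n H) y hy).trans
        (Real.exp_le_exp.2 (le_of_eq ?_))
      push_cast; ring
  set T := c₀ * ((∑' j : ℕ, Real.exp (-(j * 1))) * K) with hT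
  have hstart : ∀ (n : ℕ) y, Q ^ (2 * n) * tR y = 25 → ‖J y‖ ^ 2 ≤
      Real.exp (N * ∑ m ∈ Finset.range n, phi η Q m y + (C + N * T + n * (8 * Real.log Q))) := by
    intro n y hy
    have hyB : y ∈ BB := mem_BB_of hQ0 (by norm_num) hy.ge
    have ht : 0 < tR y := hyB
    have h1 := h.Psi_le hη h0 (hc η hη) (show 2 ≤ Q by linarith) (show 0 ≤ N by linarith) n hy
    have h2 : (tR y)⁻¹ ≤ Q ^ (2 * n) := by
      rw [inv_le_iff_one_le_mul₀ ht, hy]; norm_num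
    have h3 : (tR y)⁻¹ ^ 4 ≤ Real.exp (n * (8 * Real.log Q)) := by
      rw [show (n : ℝ) * (8 * Real.log Q) = Real.log ((Q ^ (2 * n)) ^ 4) by
        rw [Real.log_pow, Real.log_pow]; push_cast; ring, Real.exp_log (by positivity)]
      gcongr
    have h4 : C ≤ Real.exp C := by linarith [Real.add_one_le_exp C]
    calc ‖J y‖ ^ 2 ≤ C * (tR y)⁻¹ ^ 4 * Real.exp (Psi η Q N y) := hb y hyB
      _ ≤ Real.exp C * (tR y)⁻¹ ^ 4 * Real.exp (Psi η Q N y) := by gcongr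
      _ ≤ Real.exp C * Real.exp (n * (8 * Real.log Q)) *
          Real.exp (N * (∑ m ∈ Finset.range n, phi η Q m y + T)) := by gcongr
      _ = _ := by rw [← Real.exp_add, ← Real.exp_add]; congr 1; ring
  have hy : tR ![0, 25, 0] = 25 := by simp [tR]
  have hyB : (![0, 25, 0] : E) ∈ BB := by show 0 < tR _; rw [hy]; norm_num
  have hpos : 0 < ‖J ![0, 25, 0]‖ ^ 2 := pow_pos (norm_pos_iff.2 (hJ0 _ hyB)) 2
  obtain ⟨n, hn⟩ := exists_nat_gt (C + N * T - Real.log (‖J ![0, 25, 0]‖ ^ 2))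
  have h5 := hind n _ (hstart n) _ hy
  rw [← Real.log_le_iff_le_exp hpos] at h5
  nlinarith

end Vale.Agent.P250
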