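import Vale.Agent.P250.Curv
import Vale.Agent.P250.Good
import Vale.Agent.P250.Obstr
import Vale.Agent.P250.Jac
import Vale.Agent.P250.Complete
import Vale.Agent.P250.Exh

/-!
A negatively pinched Kähler threefold without bounded holomorphic coordinates.
-/

namespace Vale.Agent.P250

theorem main : ∃ (M : Set E) (K : KahlerMetric M), IsOpen M ∧ SimplyConnectedSpace M ∧
    K.Complete ∧ K.NegPinched ∧ ∀ F : E → E, DifferentiableOn ℂ F M →
      Bornology.IsBounded (F '' M) → ∃ p ∈ M, ¬ Function.Injective (fderiv ℂ F p) := by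
  obtain ⟨η, Q, N, hη, hQ, hN, hobs⟩ := obstruction
  obtain ⟨C, h⟩ := good_Psi hη hQ hN
  obtain ⟨K, k1, k2, k3⟩ := h.exists_pinched
  obtain ⟨u, C', u0, u1, u2, u3⟩ := exists_exhaustion h
  refine ⟨_, K, h.isOpen_MM, simplyConnected_MM h, K.complete_of_exhaustion h.isOpen_MM k2 u1
    (fun p hp X => (u2 p hp X).trans (mul_le_mul_of_nonneg_left (k3 p hp X) u0)) u3, k1,
    fun F hF hb => ?_⟩
  by_contra hc
  push Not at hc
  obtain ⟨J, C'', j1, j2, j3⟩ := exists_jac h hF hb hc
  exact hobs J C'' j1 j2 j3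

end Vale.Agent.P250
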