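import Vale.Agent.P250.Series

/-!
Auxiliary lemmas for the obstruction: complex analysis on discs and estimates of the profile.
-/

namespace Vale.Agent.P250

open scoped ContDiff ComplexConjugate
open Complex Filter Topology

theorem harnack {f : ℂ → ℂ} (hf : DifferentiableOn ℂ f (Metric.ball 0 2))
    (h0 : ∀ μ ∈ Metric.ball (0 : ℂ) 2, f μ ≠ 0) {B D : ℝ}
    (hB : ∀ μ ∈ Metric.ball (0 : ℂ) 2, ‖f μ‖ ^ 2 ≤ Real.exp B)
    (h1 : ‖f 1‖ ^ 2 ≤ Real.exp (B - D)) : ‖f 0‖ ^ 2 ≤ Real.exp (B - D / 3 + 1) := by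
  have ha := hf.analyticOnNhd Metric.isOpen_ball
  have hh : InnerProductSpace.HarmonicOnNhd (fun z => Real.log ‖f z‖) (Metric.ball (0 : ℂ) 2) :=
    fun z hz => (ha z hz).harmonicAt_log_norm (h0 z hz)
  obtain ⟨F, hF, hre⟩ := hh.exists_analyticOnNhd_ball_re_eq
  have key : ∀ μ ∈ Metric.ball (0 : ℂ) 2, ∀ b : ℝ,
      ‖f μ‖ ^ 2 ≤ Real.exp b ↔ 2 * (F μ).re ≤ b := by
    intro μ hμ b
    have e : (F μ).re = Real.log ‖f μ‖ := hre hμ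
    have hp : 0 < ‖f μ‖ := norm_pos_iff.2 (h0 μ hμ)
    rw [e, ← Real.log_le_iff_le_exp (by positivity), Real.log_pow]
    norm_num
  have m0 : (0 : ℂ) ∈ Metric.ball (0 : ℂ) 2 := by simp
  have m1 : (1 : ℂ) ∈ Metric.ball (0 : ℂ) 2 := by simp
  have b0 := (key 0 m0 B).1 (hB 0 m0)
  have b1 := (key 1 m1 _).1 h1
  rw [key 0 m0]
  have hM : 0 < B / 2 - (F 0).re + 3 / 4 := by linarith
  have hbc := borelCaratheodory_zero (f := fun z => F z - F 0) (R := 2) (z := 1) hM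
    (hF.differentiableOn.sub_const _) (fun z hz => by
      have := (key z hz B).1 (hB z hz)
      simp only [Set.mem_ofPred_eq, sub_re]
      linarith) two_pos m1 (by simp)
  have h2 := abs_re_le_norm (F 1 - F 0)
  rw [sub_re] at h2
  have h3 := neg_abs_le ((F 1).re - (F 0).re)
  norm_num at hbc
  linarith

/-- The horizontal direction. -/
noncomputable def hor (p : E) : E := ![1, 2 * conj (p 0), 0]

theorem tR_shift (x y : E) : tR y = tR x + (y 1 - x 1 - 2 * conj (x 0) * (y 0 - x 0)).re -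
    ‖y 0 - x 0‖ ^ 2 := by
  simp only [tR, ← normSq_eq_norm_sq, normSq_apply]
  simp
  ring

theorem tR_hor (p : E) (l : ℂ) : tR (p + l • hor p) = tR p - ‖l‖ ^ 2 := by
  rw [tR_shift p]
  simp [hor]
  ring

theorem maxmod {J : E → ℂ}
    (hJ : ∀ p X : E, DifferentiableOn ℂ (fun l : ℂ => J (p + l • X)) {l | p + l • X ∈ BB})
    {p : E} {s b : ℝ} (hs : 0 < s) (hp : s < tR p)
    (hb : ∀ l : ℂ, ‖l‖ ^ 2 = tR p - s → ‖J (p + l • hor p)‖ ^ 2 ≤ b) : ‖J p‖ ^ 2 ≤ b := by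
  set r := √(tR p - s) with hr
  have hr0 : 0 < r := Real.sqrt_pos.2 (by linarith)
  have hr2 : r ^ 2 = tR p - s := Real.sq_sqrt (by linarith)
  have hd : DiffContOnCl ℂ (fun l : ℂ => J (p + l • hor p) ^ 2) (Metric.ball 0 r) := by
    refine DifferentiableOn.diffContOnCl ?_
    rw [closure_ball _ hr0.ne']
    refine ((hJ p (hor p)).mono fun l hl => ?_).pow 2
    have h1 : ‖l‖ ≤ r := by simpa using hl
    have h2 : ‖l‖ ^ 2 ≤ r ^ 2 := by gcongr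
    show 0 < tR (p + l • hor p)
    rw [tR_hor]
    linarith
  have := norm_le_of_forall_mem_frontier_norm_le (C := b) Metric.isBounded_ball hd (fun l hl => by
    rw [frontier_ball _ hr0.ne'] at hl
    have h1 : ‖l‖ = r := by simpa using hl
    rw [norm_pow]
    exact hb l (by rw [h1, hr2])) (z := 0) (subset_closure (by simpa using hr0))
  simpa using this

theorem norm_kap : ‖cexp 25‖ = Real.exp 25 := by
  rw [norm_exp]; norm_num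

theorem exists_c0 : ∃ c₀ : ℝ, 0 ≤ c₀ ∧ ∀ η : ℝ, 0 < η → ∀ ζ : ℂ, ‖ζ‖ ≤ 1 →
    psi η ζ ≤ c₀ * ‖ζ‖ := by
  set κ := Real.exp 25 with hκ
  have hk : 0 < κ := Real.exp_pos _
  refine ⟨2 * κ + κ ^ 2, by positivity, fun η hη ζ hζ => ?_⟩
  have h1 : ‖1 - cexp 25 * ζ‖ ≤ 1 + κ * ‖ζ‖ := by
    refine (norm_sub_le _ _).trans ?_
    rw [norm_one, norm_mul, norm_kap]
  have h2 : ‖1 - cexp 25 * ζ‖ ^ 2 ≤ (1 + κ * ‖ζ‖) ^ 2 := by gcongr
  have h3 : 0 ≤ ‖ζ‖ := norm_nonneg _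
  have h4 : ‖ζ‖ ^ 2 ≤ ‖ζ‖ := by nlinarith
  refine (Real.log_le_sub_one_of_pos (by positivity)).trans ?_
  rw [sub_le_iff_le_add, div_le_iff₀ (by positivity)]
  have h5 : 0 ≤ (2 * κ + κ ^ 2) * ‖ζ‖ * η := by positivity
  nlinarith [mul_le_mul_of_nonneg_left h4 (sq_nonneg κ)]

theorem exists_lip {η : ℝ} (hη : 0 < η) : ∃ L : ℝ, 0 ≤ L ∧ ∀ ζ ζ' : ℂ, ‖ζ‖ ≤ 1 → ‖ζ'‖ ≤ 1 →
    psi η ζ ≤ psi η ζ' + L * ‖ζ - ζ'‖ := by
  set κ := Real.exp 25 with hκ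
  have hk : 0 < κ := Real.exp_pos _
  refine ⟨κ * (2 + 2 * κ) / η, by positivity, fun ζ ζ' hζ hζ' => ?_⟩
  have hb : ∀ z : ℂ, ‖z‖ ≤ 1 → ‖1 - cexp 25 * z‖ ≤ 1 + κ := by
    intro z hz
    refine (norm_sub_le _ _).trans ?_
    rw [norm_one, norm_mul, norm_kap]
    nlinarith
  set a := ‖1 - cexp 25 * ζ‖ with ha
  set b := ‖1 - cexp 25 * ζ'‖ with hb'
  have h1 : a - b ≤ κ * ‖ζ - ζ'‖ := by
    refine (norm_sub_norm_le _ _).trans ?_
    rw [show 1 - cexp 25 * ζ - (1 - cexp 25 * ζ') = -(cexp 25 * (ζ - ζ')) by ring, norm_neg,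
      norm_mul, norm_kap]
  have ha1 : a ≤ 1 + κ := hb ζ hζ
  have hb1 : b ≤ 1 + κ := hb ζ' hζ'
  have ha0 : 0 ≤ a := norm_nonneg _
  have hb0 : 0 ≤ b := norm_nonneg _
  have hd : 0 ≤ ‖ζ - ζ'‖ := norm_nonneg _
  have h2 : a ^ 2 - b ^ 2 ≤ κ * (2 + 2 * κ) * ‖ζ - ζ'‖ := by
    have : (a - b) * (a + b) ≤ (κ * ‖ζ - ζ'‖) * (a + b) := by gcongr
    have : (κ * ‖ζ - ζ'‖) * (a + b) ≤ (κ * ‖ζ - ζ'‖) * (2 + 2 * κ) :=
      mul_le_mul_of_nonneg_left (by linarith) (by positivity)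
    nlinarith
  simp only [psi]
  rw [← ha, ← hb', ← sub_le_iff_le_add', ← Real.log_div (by positivity) (by positivity)]
  refine (Real.log_le_sub_one_of_pos (by positivity)).trans ?_
  have e : (a ^ 2 + η) / (1 + η) / ((b ^ 2 + η) / (1 + η)) - 1 = (a ^ 2 - b ^ 2) / (b ^ 2 + η) := by
    field_simp; ring
  rw [e, div_mul_eq_mul_div]
  calc (a ^ 2 - b ^ 2) / (b ^ 2 + η) ≤ κ * (2 + 2 * κ) * ‖ζ - ζ'‖ / (b ^ 2 + η) := by gcongr
    _ ≤ _ := by gcongr; nlinarith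

theorem psi_zero (η : ℝ) (hη : 0 < η) : psi η 0 = 0 := by
  simp [psi, (by positivity : 1 + η ≠ 0)]

theorem psi_center (η : ℝ) : psi η (cexp (-25)) = Real.log (η / (1 + η)) := by
  simp [psi, ← Complex.exp_add]

theorem ell_shift (Q : ℝ) (m : ℕ) (c : ℤ × ℤ) (x y : E) : ell Q (m, c) y = ell Q (m, c) x +
    (-(Q : ℂ) ^ (2 * m) * (y 1 - x 1 - 2 * conj (x 0) * (y 0 - x 0)) +
      2 * conj (cc c - (Q : ℂ) ^ m * x 0) * ((Q : ℂ) ^ m * (y 0 - x 0))) := by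
  simp only [ell, map_sub, map_mul, map_pow, conj_ofReal]
  ring

theorem norm_exp_ell (Q : ℝ) (n : ℕ) (c : ℤ × ℤ) (p : E) : ‖cexp (ell Q (n, c) p)‖ =
    Real.exp (-(Q ^ (2 * n) * tR p)) * Real.exp (-‖(Q : ℂ) ^ n * p 0 - cc c‖ ^ 2) := by
  rw [norm_exp, re_ell, ← Real.exp_add]
  ring_nf

theorem norm_exp_ell_le (Q : ℝ) (n : ℕ) (c : ℤ × ℤ) (p : E) : ‖cexp (ell Q (n, c) p)‖ ≤
    Real.exp (-(Q ^ (2 * n) * tR p)) * Real.exp (-‖(Q : ℂ) ^ n * p 0 - cc c‖ ^ 2 / 2) := by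
  rw [norm_exp_ell]
  gcongr
  nlinarith [sq_nonneg ‖(Q : ℂ) ^ n * p 0 - cc c‖]

theorem norm_exp_ell_le_one (Q : ℝ) (n : ℕ) (c : ℤ × ℤ) {p : E} (hp : p ∈ BB) :
    ‖cexp (ell Q (n, c) p)‖ ≤ 1 := by
  rw [norm_exp, re_ell, Real.exp_le_one_iff]
  have : 0 < tR p := hp
  have h2 : 0 ≤ Q ^ (2 * n) := by rw [pow_mul]; positivity
  have : 0 ≤ Q ^ (2 * n) * tR p := by positivity
  nlinarith [sq_nonneg ‖(Q : ℂ) ^ n * p 0 - cc c‖]

/-- The lattice bound. -/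
def Lat (K : ℝ) : Prop := ∀ ζ : ℂ, Summable (fun c : ℤ × ℤ => Real.exp (-‖ζ - cc c‖ ^ 2 / 2)) ∧
  ∑' c : ℤ × ℤ, Real.exp (-‖ζ - cc c‖ ^ 2 / 2) ≤ K

theorem Lat.nonneg {K : ℝ} (h : Lat K) : 0 ≤ K :=
  (tsum_nonneg fun _ => (Real.exp_pos _).le).trans (h 0).2

theorem Lat.summable_norm {K : ℝ} (h : Lat K) (Q : ℝ) (n : ℕ) (p : E) :
    Summable fun c : ℤ × ℤ => ‖cexp (ell Q (n, c) p)‖ :=
  ((h _).1.mul_left _).of_nonneg_of_le (fun _ => norm_nonneg _) fun c => norm_exp_ell_le Q n c p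

theorem Lat.tsum_norm {K : ℝ} (h : Lat K) (Q : ℝ) (n : ℕ) (p : E) :
    ∑' c : ℤ × ℤ, ‖cexp (ell Q (n, c) p)‖ ≤ Real.exp (-(Q ^ (2 * n) * tR p)) * K := by
  refine ((h.summable_norm Q n p).tsum_le_tsum (fun c => norm_exp_ell_le Q n c p)
    ((h _).1.mul_left _)).trans ?_
  rw [tsum_mul_left]
  exact mul_le_mul_of_nonneg_left (h _).2 (Real.exp_pos _).le

theorem pow_ge_self {Q : ℝ} (hQ : 2 ≤ Q) (n : ℕ) : (n : ℝ) ≤ Q ^ (2 * n) := by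
  have h1 : (n : ℝ) ≤ 2 ^ n := by exact_mod_cast Nat.lt_two_pow_self.le
  calc (n : ℝ) ≤ 2 ^ n := h1
    _ ≤ 2 ^ (2 * n) := pow_le_pow_right₀ (by norm_num) (by omega)
    _ ≤ _ := by gcongr

theorem summable_exp_neg {t : ℝ} (ht : 0 < t) : Summable fun n : ℕ => Real.exp (-(n * t)) := by
  refine (summable_geometric_of_lt_one (Real.exp_pos (-t)).le
    (Real.exp_lt_one_iff.2 (by linarith))).congr fun n => ?_
  rw [← Real.exp_nat_mul]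
  ring_nf

theorem Lat.summable_all {K : ℝ} (h : Lat K) {Q : ℝ} (hQ : 2 ≤ Q) {p : E} (hp : p ∈ BB) :
    Summable fun i : ℕ × ℤ × ℤ => ‖cexp (ell Q i p)‖ := by
  have ht : 0 < tR p := hp
  refine (summable_prod_of_nonneg fun _ => norm_nonneg _).2 ⟨fun n => h.summable_norm Q n p, ?_⟩
  refine ((summable_exp_neg ht).mul_right K).of_nonneg_of_le
    (fun _ => tsum_nonneg fun _ => norm_nonneg _) fun n => (h.tsum_norm Q n p).trans ?_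
  have := h.nonneg
  have := pow_ge_self hQ n
  gcongr

theorem exists_abs_psi {η : ℝ} (hη : 0 < η) : ∃ L : ℝ, ∀ ζ : ℂ, ‖ζ‖ ≤ 1 → |psi η ζ| ≤ L * ‖ζ‖ := by
  obtain ⟨L, -, hL⟩ := exists_lip hη
  refine ⟨L, fun ζ hζ => abs_le.2 ⟨?_, ?_⟩⟩
  · have := hL 0 ζ (by simp) hζ
    rw [psi_zero η hη, zero_sub, norm_neg] at this
    linarith
  · simpa [psi_zero η hη] using hL ζ 0 hζ (by simp)

theorem Lat.summable_psi {K : ℝ} (h : Lat K) {η : ℝ} (hη : 0 < η) (Q : ℝ) (n : ℕ) {p : E}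
    (hp : p ∈ BB) : Summable fun c : ℤ × ℤ => psi η (cexp (ell Q (n, c) p)) := by
  obtain ⟨L, hL⟩ := exists_abs_psi hη
  exact ((h.summable_norm Q n p).mul_left L).of_norm_bounded
    fun c => hL _ (norm_exp_ell_le_one Q n c hp)

theorem Lat.summable_psi_all {K : ℝ} (h : Lat K) {η : ℝ} (hη : 0 < η) {Q : ℝ} (hQ : 2 ≤ Q) {p : E}
    (hp : p ∈ BB) : Summable fun i : ℕ × ℤ × ℤ => psi η (cexp (ell Q i p)) := by
  obtain ⟨L, hL⟩ := exists_abs_psi hη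
  exact ((h.summable_all hQ hp).mul_left L).of_norm_bounded
    fun i => hL _ (norm_exp_ell_le_one Q i.1 i.2 hp)

/-- One level of the series. -/
noncomputable def phi (η Q : ℝ) (n : ℕ) (p : E) : ℝ := ∑' c : ℤ × ℤ, psi η (cexp (ell Q (n, c) p))

theorem Lat.phi_le {K c₀ η : ℝ} (h : Lat K) (hη : 0 < η) (h0 : 0 ≤ c₀)
    (hc : ∀ ζ : ℂ, ‖ζ‖ ≤ 1 → psi η ζ ≤ c₀ * ‖ζ‖) (Q : ℝ) (n : ℕ) {p : E} (hp : p ∈ BB) :
    phi η Q n p ≤ c₀ * (Real.exp (-(Q ^ (2 * n) * tR p)) * K) := by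
  refine ((h.summable_psi hη Q n hp).tsum_le_tsum (fun c => hc _ (norm_exp_ell_le_one Q n c hp))
    ((h.summable_norm Q n p).mul_left c₀)).trans ?_
  rw [tsum_mul_left]
  exact mul_le_mul_of_nonneg_left (h.tsum_norm Q n p) h0

theorem exp_level_le (Q : ℝ) (n : ℕ) {p : E} (hp : p ∈ BB) :
    Real.exp (-(Q ^ (2 * n) * tR p)) ≤ 1 := by
  have : 0 < tR p := hp
  have h2 : 0 ≤ Q ^ (2 * n) := by rw [pow_mul]; positivity
  have : 0 ≤ Q ^ (2 * n) * tR p := by positivity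
  rw [Real.exp_le_one_iff]
  linarith

theorem Lat.phi_le' {K c₀ η : ℝ} (h : Lat K) (hη : 0 < η) (h0 : 0 ≤ c₀)
    (hc : ∀ ζ : ℂ, ‖ζ‖ ≤ 1 → psi η ζ ≤ c₀ * ‖ζ‖) (Q : ℝ) (n : ℕ) {p : E} (hp : p ∈ BB) :
    phi η Q n p ≤ c₀ * K := by
  refine (h.phi_le hη h0 hc Q n hp).trans (mul_le_mul_of_nonneg_left ?_ h0)
  exact mul_le_of_le_one_left h.nonneg (exp_level_le Q n hp)

theorem Lat.phi_center {K c₀ η : ℝ} (h : Lat K) (hη : 0 < η) (h0 : 0 ≤ c₀)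
    (hc : ∀ ζ : ℂ, ‖ζ‖ ≤ 1 → psi η ζ ≤ c₀ * ‖ζ‖) (Q : ℝ) (n : ℕ) {p : E} (hp : p ∈ BB)
    {c : ℤ × ℤ} (he : cexp (ell Q (n, c) p) = cexp (-25)) :
    phi η Q n p ≤ Real.log (η / (1 + η)) + c₀ * K := by
  have hs := (hasSum_ite_eq c (Real.log (η / (1 + η)))).add
    ((h.summable_norm Q n p).mul_left c₀).hasSum
  refine ((h.summable_psi hη Q n hp).tsum_le_tsum (fun c' => ?_) hs.summable).trans ?_
  · split_ifs with hcc
    · subst hcc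
      rw [he, psi_center]
      have : 0 ≤ c₀ * ‖cexp (-25)‖ := by positivity
      linarith
    · simpa using hc _ (norm_exp_ell_le_one Q n c' hp)
  · rw [hs.tsum_eq, tsum_mul_left]
    have := (h.tsum_norm Q n p).trans (mul_le_of_le_one_left h.nonneg (exp_level_le Q n hp))
    gcongr

theorem norm_exp_sub_le (a D : ℂ) :
    ‖cexp (a + D) - cexp a‖ ≤ ‖cexp a‖ * (‖D‖ * Real.exp ‖D‖) := by
  have h := norm_exp_sub_sum_le_norm_mul_exp D 1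
  simp only [Finset.range_one, Finset.sum_singleton, pow_zero, Nat.factorial_zero, Nat.cast_one,
    div_one, pow_one] at h
  rw [Complex.exp_add, ← mul_sub_one, norm_mul]
  gcongr

theorem Lat.phi_lip {K L η : ℝ} (h : Lat K) (hη : 0 < η) (h0 : 0 ≤ L)
    (hL : ∀ ζ ζ' : ℂ, ‖ζ‖ ≤ 1 → ‖ζ'‖ ≤ 1 → psi η ζ ≤ psi η ζ' + L * ‖ζ - ζ'‖) {Q : ℝ} (hQ : 0 ≤ Q)
    (m : ℕ) {x y : E} (hx : x ∈ BB) (hy : y ∈ BB) {ε : ℝ} (hε : 0 ≤ ε) (hε1 : ε ≤ 1 / 40)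
    (h1 : Q ^ m * ‖y 0 - x 0‖ ≤ 8 * ε)
    (h2 : Q ^ (2 * m) * ‖y 1 - x 1 - 2 * conj (x 0) * (y 0 - x 0)‖ ≤ 40 * ε ^ 2) :
    phi η Q m y ≤ phi η Q m x + L * Real.exp 146 * K * ε := by
  have hs := (h.summable_psi hη Q m hx).hasSum.add
    ((h ((Q : ℂ) ^ m * x 0)).1.mul_left (L * Real.exp 146 * ε)).hasSum
  refine ((h.summable_psi hη Q m hy).tsum_le_tsum (fun c => ?_) hs.summable).trans ?_
  · refine (hL _ _ (norm_exp_ell_le_one Q m c hy) (norm_exp_ell_le_one Q m c hx)).trans ?_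
    rw [ell_shift Q m c x y, mul_assoc L, mul_assoc L]
    gcongr
    refine (norm_exp_sub_le _ _).trans ?_
    set β := ‖(Q : ℂ) ^ m * x 0 - cc c‖ with hβ
    have hb : 0 ≤ β := norm_nonneg _
    set D := -(Q : ℂ) ^ (2 * m) * (y 1 - x 1 - 2 * conj (x 0) * (y 0 - x 0)) +
      2 * conj (cc c - (Q : ℂ) ^ m * x 0) * ((Q : ℂ) ^ m * (y 0 - x 0)) with hD
    have hD1 : ‖D‖ ≤ 40 * ε ^ 2 + 2 * β * (8 * ε) := by
      refine (norm_add_le _ _).trans (add_le_add ?_ ?_)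
      · rwa [norm_mul, norm_neg, norm_pow, norm_real, Real.norm_of_nonneg hQ]
      · rw [norm_mul, norm_mul, norm_mul, norm_pow, norm_real, Real.norm_of_nonneg hQ, norm_conj,
          norm_sub_rev, ← hβ, norm_ofNat]
        gcongr
    have hD2 : ‖D‖ ≤ ε * (1 + 16 * β) := by nlinarith
    have hD3 : ‖D‖ ≤ 1 + β := by nlinarith
    have h3 : 1 + 16 * β ≤ Real.exp (16 * β) := by linarith [Real.add_one_le_exp (16 * β)]
    have h4 := exp_level_le Q m hx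
    rw [norm_exp_ell, ← hβ]
    calc Real.exp (-(Q ^ (2 * m) * tR x)) * Real.exp (-β ^ 2) * (‖D‖ * Real.exp ‖D‖)
        ≤ 1 * Real.exp (-β ^ 2) * ((ε * Real.exp (16 * β)) * Real.exp (1 + β)) := by
          gcongr
          exact hD2.trans (mul_le_mul_of_nonneg_left h3 hε)
      _ = ε * Real.exp (-β ^ 2 + 16 * β + (1 + β)) := by
          rw [Real.exp_add (-β ^ 2 + 16 * β), Real.exp_add (-β ^ 2)]; ring
      _ ≤ ε * Real.exp (146 + -β ^ 2 / 2) :=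
          mul_le_mul_of_nonneg_left (Real.exp_le_exp.2 (by nlinarith [sq_nonneg (β - 17)])) hε
      _ = _ := by rw [Real.exp_add]; ring
  · rw [hs.tsum_eq, tsum_mul_left]
    have := (h ((Q : ℂ) ^ m * x 0)).2
    have : L * Real.exp 146 * ε * ∑' c : ℤ × ℤ, Real.exp (-‖(Q : ℂ) ^ m * x 0 - cc c‖ ^ 2 / 2) ≤
        L * Real.exp 146 * ε * K := by gcongr
    unfold phi
    linarith

theorem Lat.Psi_le {K c₀ η : ℝ} (h : Lat K) (hη : 0 < η) (h0 : 0 ≤ c₀)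
    (hc : ∀ ζ : ℂ, ‖ζ‖ ≤ 1 → psi η ζ ≤ c₀ * ‖ζ‖) {Q N : ℝ} (hQ : 2 ≤ Q) (hN : 0 ≤ N) (n : ℕ)
    {p : E} (hp : Q ^ (2 * n) * tR p = 25) :
    Psi η Q N p ≤ N * (∑ m ∈ Finset.range n, phi η Q m p +
      c₀ * ((∑' j : ℕ, Real.exp (-(j * 1))) * K)) := by
  have hq : 0 < Q ^ (2 * n) := by positivity
  have hb : p ∈ BB := by
    show 0 < tR p
    by_contra hh
    nlinarith [mul_nonneg hq.le (neg_nonneg.2 (not_lt.1 hh))]
  have hs := h.summable_psi_all hη hQ hb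
  have hs2 : Summable fun m => phi η Q m p := hs.prod
  unfold Psi
  rw [hs.tsum_prod]
  refine mul_le_mul_of_nonneg_left ?_ hN
  change ∑' m, phi η Q m p ≤ _
  rw [← hs2.sum_add_tsum_nat_add n, ← tsum_mul_right, ← tsum_mul_left]
  refine add_le_add le_rfl ?_
  refine ((summable_nat_add_iff n).2 hs2).tsum_le_tsum (fun j => ?_)
    (((summable_exp_neg one_pos).mul_right K).mul_left c₀)
  refine (h.phi_le hη h0 hc Q _ hb).trans ?_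
  have := h.nonneg
  have h3 := pow_ge_self hQ j
  have h4 : (0 : ℝ) ≤ j := Nat.cast_nonneg j
  refine mul_le_mul_of_nonneg_left (mul_le_mul_of_nonneg_right (Real.exp_le_exp.2 ?_) this) h0
  rw [mul_add, pow_add, mul_assoc, hp]
  linarith

end Vale.Agent.P250
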