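import Vale.Agent.P250.Calc

/-!
The lacunary series of coherent states defining the weight.
-/

namespace Vale.Agent.P250

open scoped ContDiff ComplexConjugate
open Complex Filter Topology

/-- Gaussian integers. -/
noncomputable def cc (c : ℤ × ℤ) : ℂ := c.1 + c.2 * I

/-- The exponents of the coherent states. -/
noncomputable def ell (Q : ℝ) (i : ℕ × ℤ × ℤ) (p : E) : ℂ :=
  -(Q : ℂ) ^ (2 * i.1) * p 1 + 2 * conj (cc i.2) * (Q : ℂ) ^ i.1 * p 0 - (‖cc i.2‖ ^ 2 : ℝ)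

/-- The subharmonic profile. -/
noncomputable def psi (η : ℝ) (ζ : ℂ) : ℝ := Real.log ((‖1 - cexp 25 * ζ‖ ^ 2 + η) / (1 + η))

/-- The weight. -/
noncomputable def Psi (η Q N : ℝ) (p : E) : ℝ := N * ∑' i : ℕ × ℤ × ℤ, psi η (cexp (ell Q i p))

theorem re_ell (Q : ℝ) (n : ℕ) (c : ℤ × ℤ) (p : E) :
    (ell Q (n, c) p).re = -(Q ^ (2 * n) * tR p + ‖(Q : ℂ) ^ n * p 0 - cc c‖ ^ 2) := by
  have h : ((Q : ℂ) ^ n) = ((Q ^ n : ℝ) : ℂ) := by push_cast; rfl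
  simp only [ell, tR, pow_mul', h, ← normSq_eq_norm_sq, normSq_apply]
  generalize Q ^ n = R
  simp [sq]
  ring

theorem lattice_1d : ∃ C : ℝ, ∀ x : ℝ, Summable (fun j : ℤ => Real.exp (-(x - j) ^ 2 / 2)) ∧
    ∑' j : ℤ, Real.exp (-(x - j) ^ 2 / 2) ≤ C := by
  have hs : Summable fun j : ℤ => Real.exp (1 - |(j : ℝ)|) := by
    have h0 : Summable fun n : ℕ => Real.exp (1 - (n : ℝ)) := by
      have := (summable_geometric_of_lt_one (Real.exp_pos (-1)).le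
        (Real.exp_lt_one_iff.2 (by norm_num))).mul_left (Real.exp 1)
      refine this.congr fun n => ?_
      rw [← Real.exp_nat_mul, ← Real.exp_add]
      congr 1
      ring
    refine Summable.of_nat_of_neg ?_ ?_ <;> simpa using h0
  refine ⟨∑' j : ℤ, Real.exp (1 - |(j : ℝ)|) * Real.exp 2, fun x => ?_⟩
  have hle : ∀ j : ℤ, Real.exp (-(x - (j + ⌊x⌋ : ℤ)) ^ 2 / 2) ≤
      Real.exp (1 - |(j : ℝ)|) * Real.exp 2 := by
    intro j
    rw [← Real.exp_add, Real.exp_le_exp]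
    have h1 := Int.floor_le x
    have h2 := Int.lt_floor_add_one x
    push_cast
    rcases abs_cases (j : ℝ) with ⟨h, -⟩ | ⟨h, -⟩ <;> rw [h]
    · nlinarith [sq_nonneg (x - (j + ⌊x⌋) + 1)]
    · nlinarith [sq_nonneg (x - (j + ⌊x⌋) - 1)]
  have h3 : Summable fun j : ℤ => Real.exp (-(x - (j + ⌊x⌋ : ℤ)) ^ 2 / 2) :=
    (hs.mul_right _).of_nonneg_of_le (fun _ => (Real.exp_pos _).le) hle
  refine ⟨(Equiv.addRight ⌊x⌋).summable_iff.1 h3, ?_⟩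
  rw [← (Equiv.addRight ⌊x⌋).tsum_eq]
  exact h3.tsum_le_tsum hle (hs.mul_right _)

theorem lattice_sum : ∃ C : ℝ, ∀ ζ : ℂ, Summable (fun c : ℤ × ℤ => Real.exp (-‖ζ - cc c‖ ^ 2 / 2)) ∧
    ∑' c : ℤ × ℤ, Real.exp (-‖ζ - cc c‖ ^ 2 / 2) ≤ C := by
  obtain ⟨C, hC⟩ := lattice_1d
  refine ⟨C * C, fun ζ => ?_⟩
  have e : ∀ c : ℤ × ℤ, Real.exp (-‖ζ - cc c‖ ^ 2 / 2) =
      Real.exp (-(ζ.re - c.1) ^ 2 / 2) * Real.exp (-(ζ.im - c.2) ^ 2 / 2) := by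
    intro c
    rw [← Real.exp_add, ← normSq_eq_norm_sq, normSq_apply]
    congr 1
    simp [cc]
    ring
  simp only [e]
  have h1 := hC ζ.re
  have h2 := hC ζ.im
  have h3 := h1.1.mul_of_nonneg h2.1 (fun _ => (Real.exp_pos _).le) fun _ => (Real.exp_pos _).le
  refine ⟨h3, ?_⟩
  rw [← h1.1.tsum_mul_tsum h2.1 h3]
  have h4 : 0 ≤ ∑' j : ℤ, Real.exp (-(ζ.im - j) ^ 2 / 2) := tsum_nonneg fun _ => (Real.exp_pos _).le
  exact mul_le_mul h1.2 h2.2 h4 ((tsum_nonneg fun _ => (Real.exp_pos _).le).trans h1.2)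

theorem level_sum {Q y : ℝ} (hQ : 2 ≤ Q) (hy : 0 ≤ y) :
    Summable (fun n : ℕ => Q ^ n * y * Real.exp (-(Q ^ n * y) ^ 2 / 2)) ∧
    ∑' n : ℕ, Q ^ n * y * Real.exp (-(Q ^ n * y) ^ 2 / 2) ≤ 7 := by
  have key : ∀ u : ℝ, 0 ≤ u → u * Real.exp (-u ^ 2 / 2) ≤ 7 * (1 / (1 + u) - 1 / (1 + Q * u)) := by
    intro u hu
    have h1 : 1 / (1 + Q * u) ≤ 1 / (1 + 2 * u) := by gcongr
    have h2 : 1 / (1 + u) - 1 / (1 + 2 * u) = u * (1 / ((1 + u) * (1 + 2 * u))) := by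
      field_simp; ring
    have h3 : Real.exp (-u ^ 2 / 2) ≤ 7 * (1 / ((1 + u) * (1 + 2 * u))) := by
      rw [neg_div, Real.exp_neg, mul_one_div, inv_eq_one_div,
        div_le_div_iff₀ (Real.exp_pos _) (by positivity)]
      nlinarith [Real.add_one_le_exp (u ^ 2 / 2), sq_nonneg (u - 1)]
    nlinarith [mul_le_mul_of_nonneg_left h3 hu]
  have hb : ∀ n, ∑ i ∈ Finset.range n, Q ^ i * y * Real.exp (-(Q ^ i * y) ^ 2 / 2) ≤ 7 := by
    intro n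
    have h1 : ∑ i ∈ Finset.range n, Q ^ i * y * Real.exp (-(Q ^ i * y) ^ 2 / 2) ≤
        ∑ i ∈ Finset.range n, 7 * (1 / (1 + Q ^ i * y) - 1 / (1 + Q ^ (i + 1) * y)) :=
      Finset.sum_le_sum fun i _ => by
        have := key (Q ^ i * y) (by positivity)
        rwa [show Q * (Q ^ i * y) = Q ^ (i + 1) * y by ring] at this
    rw [← Finset.mul_sum, Finset.sum_range_sub' (fun i => 1 / (1 + Q ^ i * y))] at h1
    have h2 : 0 ≤ 1 / (1 + Q ^ n * y) := by positivity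
    have h3 : 1 / (1 + Q ^ 0 * y) ≤ 1 := by
      rw [div_le_one (by positivity)]; simpa using hy
    linarith
  have h0 : ∀ n : ℕ, 0 ≤ Q ^ n * y * Real.exp (-(Q ^ n * y) ^ 2 / 2) := fun n => by positivity
  exact ⟨summable_of_sum_range_le h0 hb, Real.tsum_le_of_sum_range_le h0 hb⟩

end Vale.Agent.P250
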